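import Vale.Agent.P207.N3.Spec

/-! Normal forms of the (inverse) return map on an unstable leaf.

`NF.tri μ₁ μ₂ a k` is `N x = (μ₁ x₁ + a x₂^k, μ₂ x₂)` with `1 < |μ₂| ≤ |μ₁|` and
(`a ≠ 0 → 1 ≤ k ∧ μ₁ = μ₂^k`): diagonal (`a = 0`), Jordan block (`k = 1`), resonance (`k ≥ 2`).
`NF.cx c s` is the multiplication by `c + i s`, `s ≠ 0`, `c² + s² > 1`. -/

open Set Filter Topology Metric
open scoped ContDiff

noncomputable section

namespace Vale.Agent.P207.N3.H790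

/-- normal forms -/
inductive NF : Type
  | tri (μ₁ μ₂ a : ℝ) (k : ℕ)
  | cx (c s : ℝ)

namespace NF

/-- the (expanding) map of the plane -/
def fn : NF → E2 → E2
  | tri μ₁ μ₂ a k, x => !₂[μ₁ * x 0 + a * x 1 ^ k, μ₂ * x 1]
  | cx c s, x => !₂[c * x 0 - s * x 1, s * x 0 + c * x 1]

/-- the (contracting) inverse map of the plane -/
def inv : NF → E2 → E2
  | tri μ₁ μ₂ a k, x => !₂[μ₁⁻¹ * (x 0 - a * (μ₂⁻¹ * x 1) ^ k), μ₂⁻¹ * x 1]
  | cx c s, x => !₂[(c ^ 2 + s ^ 2)⁻¹ * (c * x 0 + s * x 1),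
      (c ^ 2 + s ^ 2)⁻¹ * (-s * x 0 + c * x 1)]

/-- the conditions on the parameters -/
def OK : NF → Prop
  | tri μ₁ μ₂ a k => 1 < |μ₂| ∧ |μ₂| ≤ |μ₁| ∧ (a ≠ 0 → 1 ≤ k ∧ μ₁ = μ₂ ^ k)
  | cx c s => s ≠ 0 ∧ 1 < c ^ 2 + s ^ 2

theorem fn_tri_zero (μ₁ μ₂ a : ℝ) (k : ℕ) (x : E2) :
    (tri μ₁ μ₂ a k).fn x 0 = μ₁ * x 0 + a * x 1 ^ k := rfl

theorem fn_tri_one (μ₁ μ₂ a : ℝ) (k : ℕ) (x : E2) : (tri μ₁ μ₂ a k).fn x 1 = μ₂ * x 1 := rfl

theorem inv_tri_zero (μ₁ μ₂ a : ℝ) (k : ℕ) (x : E2) :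
    (tri μ₁ μ₂ a k).inv x 0 = μ₁⁻¹ * (x 0 - a * (μ₂⁻¹ * x 1) ^ k) := rfl

theorem inv_tri_one (μ₁ μ₂ a : ℝ) (k : ℕ) (x : E2) : (tri μ₁ μ₂ a k).inv x 1 = μ₂⁻¹ * x 1 := rfl

theorem fn_cx_zero (c s : ℝ) (x : E2) : (cx c s).fn x 0 = c * x 0 - s * x 1 := rfl

theorem fn_cx_one (c s : ℝ) (x : E2) : (cx c s).fn x 1 = s * x 0 + c * x 1 := rfl

theorem inv_cx_zero (c s : ℝ) (x : E2) :
    (cx c s).inv x 0 = (c ^ 2 + s ^ 2)⁻¹ * (c * x 0 + s * x 1) := rfl

theorem inv_cx_one (c s : ℝ) (x : E2) :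
    (cx c s).inv x 1 = (c ^ 2 + s ^ 2)⁻¹ * (-s * x 0 + c * x 1) := rfl

theorem ext2 {x y : E2} (h0 : x 0 = y 0) (h1 : x 1 = y 1) : x = y := by
  ext i
  fin_cases i
  · exact h0
  · exact h1

theorem ne_of_OK {μ₁ μ₂ a : ℝ} {k : ℕ} (h : (tri μ₁ μ₂ a k).OK) : μ₁ ≠ 0 ∧ μ₂ ≠ 0 := by
  obtain ⟨h1, h2, -⟩ := h
  constructor
  · rintro rfl
    rw [abs_zero] at h2
    linarith
  · rintro rfl
    rw [abs_zero] at h1
    linarith

theorem inv_fn {N : NF} (h : N.OK) (x : E2) : N.inv (N.fn x) = x := by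
  cases N with
  | tri μ₁ μ₂ a k =>
    obtain ⟨h1, h2⟩ := ne_of_OK h
    apply ext2
    · rw [inv_tri_zero, fn_tri_zero, fn_tri_one]
      field_simp
      ring
    · rw [inv_tri_one, fn_tri_one]
      field_simp
  | cx c s =>
    have h3 : c ^ 2 + s ^ 2 ≠ 0 := by
      have := h.2
      positivity
    apply ext2
    · rw [inv_cx_zero, fn_cx_zero, fn_cx_one]
      field_simp
      ring
    · rw [inv_cx_one, fn_cx_zero, fn_cx_one]
      field_simp
      ring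

theorem fn_inv {N : NF} (h : N.OK) (x : E2) : N.fn (N.inv x) = x := by
  cases N with
  | tri μ₁ μ₂ a k =>
    obtain ⟨h1, h2⟩ := ne_of_OK h
    apply ext2
    · rw [fn_tri_zero, inv_tri_zero, inv_tri_one]
      field_simp
      ring
    · rw [fn_tri_one, inv_tri_one]
      field_simp
  | cx c s =>
    have h3 : c ^ 2 + s ^ 2 ≠ 0 := by
      have := h.2
      positivity
    apply ext2
    · rw [fn_cx_zero, inv_cx_zero, inv_cx_one]
      field_simp
      ring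
    · rw [fn_cx_one, inv_cx_zero, inv_cx_one]
      field_simp
      ring

theorem contDiff_coord (i : Fin 2) : ContDiff ℝ ∞ fun x : E2 => x i :=
  (EuclideanSpace.proj (𝕜 := ℝ) i).contDiff

theorem contDiff_mk {E : Type} [NormedAddCommGroup E] [NormedSpace ℝ E] {f g : E → ℝ}
    (hf : ContDiff ℝ ∞ f) (hg : ContDiff ℝ ∞ g) : ContDiff ℝ ∞ fun x => (!₂[f x, g x] : E2) := by
  rw [contDiff_euclidean]
  intro i
  fin_cases i
  · exact hf
  · exact hg

theorem contDiffOn_mk {E : Type} [NormedAddCommGroup E] [NormedSpace ℝ E] {f g : E → ℝ}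
    {s : Set E} (hf : ContDiffOn ℝ ∞ f s) (hg : ContDiffOn ℝ ∞ g s) :
    ContDiffOn ℝ ∞ (fun x => (!₂[f x, g x] : E2)) s := by
  rw [contDiffOn_euclidean]
  intro i
  fin_cases i
  · exact hf
  · exact hg

theorem contDiff_fn (N : NF) : ContDiff ℝ ∞ N.fn := by
  cases N with
  | tri μ₁ μ₂ a k =>
    exact contDiff_mk ((contDiff_const.mul (contDiff_coord 0)).add
      (contDiff_const.mul ((contDiff_coord 1).pow k))) (contDiff_const.mul (contDiff_coord 1))
  | cx c s =>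
    exact contDiff_mk ((contDiff_const.mul (contDiff_coord 0)).sub
      (contDiff_const.mul (contDiff_coord 1)))
      ((contDiff_const.mul (contDiff_coord 0)).add (contDiff_const.mul (contDiff_coord 1)))

theorem contDiff_inv (N : NF) : ContDiff ℝ ∞ N.inv := by
  cases N with
  | tri μ₁ μ₂ a k =>
    exact contDiff_mk (contDiff_const.mul ((contDiff_coord 0).sub
      (contDiff_const.mul ((contDiff_const.mul (contDiff_coord 1)).pow k))))
      (contDiff_const.mul (contDiff_coord 1))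
  | cx c s =>
    exact contDiff_mk (contDiff_const.mul ((contDiff_const.mul (contDiff_coord 0)).add
      (contDiff_const.mul (contDiff_coord 1))))
      (contDiff_const.mul ((contDiff_const.mul (contDiff_coord 0)).add
        (contDiff_const.mul (contDiff_coord 1))))

/-- the map as a homeomorphism -/
def homeo (N : NF) (h : N.OK) : E2 ≃ₜ E2 where
  toFun := N.fn
  invFun := N.inv
  left_inv := inv_fn h
  right_inv := fn_inv h
  continuous_toFun := N.contDiff_fn.continuous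
  continuous_invFun := N.contDiff_inv.continuous

theorem fn_zero {N : NF} (h : N.OK) : N.fn 0 = 0 := by
  cases N with
  | tri μ₁ μ₂ a k =>
    apply ext2
    · rw [fn_tri_zero]
      rcases eq_or_ne a 0 with ha | ha
      · simp [ha]
      · have := (h.2.2 ha).1
        have hk : k ≠ 0 := by omega
        simp [hk]
    · rw [fn_tri_one]
      simp
  | cx c s =>
    apply ext2
    · rw [fn_cx_zero]
      simp
    · rw [fn_cx_one]
      simp

theorem inv_zero {N : NF} (h : N.OK) : N.inv 0 = 0 := by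
  conv_lhs => rw [← fn_zero h]
  exact inv_fn h 0

end NF

end Vale.Agent.P207.N3.H790
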