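import Vale.Agent.P207.N3.H790.Charts

/-! **The normal coordinate of a closed orbit** (1.4): `exists_nor : Nonempty (Nor L o)`. -/

open Set Filter Topology Metric MeasureTheory
open scoped ContDiff

noncomputable section

namespace Vale.Agent.P207.N3.H790

variable {Γ X B : Type} [Group Γ] [MetricSpace X] [ProperSpace X] [MulAction Γ X]
  [IsIsometricSMul Γ X] [TopologicalSpace B] [CompactSpace B] [T2Space B] [MulAction Γ B]
  [ContinuousConstSMul Γ B]

/-- the local normal coordinate of the return map -/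
structure Loc {L : Leaf Γ X B} (o : Orb L) where
  h : E2 → E2
  N : NF
  ok : N.OK
  U : Set E2
  U_open : IsOpen U
  U_sub : U ⊆ ball 0 3
  smooth : ContDiffOn ℝ ∞ h U
  h_zero : h 0 = 0
  maps : ∀ u ∈ U, o.ret u ∈ U
  ret_e : ∀ u ∈ U, L.e o.x (o.ret u) = o.β • L.e o.x u
  eq : ∀ u ∈ U, h u = N.fn (h (o.ret u))
  W : Set E2
  W_open : IsOpen W
  zero_mem : 0 ∈ W
  W_sub : W ⊆ U
  inj : InjOn h W
  det : ∀ u ∈ W, (fderiv ℝ h u).det ≠ 0
  hW_open : IsOpen (h '' W)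
  g : E2 → E2
  g_cont : ContinuousOn g (h '' W)
  g_left : ∀ u ∈ W, g (h u) = u

theorem exists_loc {L : Leaf Γ X B} (o : Orb L) : Nonempty (Loc o) := by
  have hem : L.em (o.β • o.x) = L.em o.x := by
    rw [L.em_smul]
    exact o.smul_neg
  obtain ⟨R, hR, hRdm⟩ := Metric.mem_nhds_iff.1 o.dm_nhds
  have hF : ContDiffOn ℝ ∞ o.ret (ball 0 R) := (L.tau_smooth (o.β • o.x) o.x hem).mono hRdm
  obtain ⟨n, hn⟩ := ret_contract o
  obtain ⟨h, U, N, hU, h0U, hUR, hN, hs, hh0, ⟨D, hD⟩, hmap, heq⟩ :=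
    sternberg hR hF o.ret_zero (fun v hv => ret_inj o hv) hn
  have hUdm : U ⊆ L.dm (o.β • o.x) o.x := hUR.trans hRdm
  have hc0 : ContDiffAt ℝ ∞ h 0 := hs.contDiffAt (hU.mem_nhds h0U)
  have hstrict : HasStrictFDerivAt h (D : E2 →L[ℝ] E2) 0 := hc0.hasStrictFDerivAt' hD (by simp)
  set p := hstrict.toOpenPartialHomeomorph h with hp
  have hph : ∀ u, p u = h u := fun u => rfl
  have h0p : (0 : E2) ∈ p.source := hstrict.mem_toOpenPartialHomeomorph_source
  have hcd : ContinuousOn (fun u => (fderiv ℝ h u).det) U := by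
    have h1 : ContinuousOn (fderiv ℝ h) U := (contDiffOn_fderiv hU hs).continuousOn
    exact ContinuousLinearMap.continuous_det.comp_continuousOn h1
  have hdet0 : (fderiv ℝ h 0).det ≠ 0 := by
    rw [hD.fderiv]
    refine det_ne_of_left (A' := (D.symm : E2 →L[ℝ] E2)) ?_
    ext1 v
    exact D.symm_apply_apply v
  set W : Set E2 := p.source ∩ (U ∩ (fun u => (fderiv ℝ h u).det) ⁻¹' {0}ᶜ) with hW
  have hWo : IsOpen W :=
    p.open_source.inter (hcd.isOpen_inter_preimage hU isOpen_compl_singleton)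
  refine ⟨⟨h, N, hN, U, hU, fun u hu => (hUdm hu).1, hs, hh0, fun u hu => hmap hu,
    fun u hu => o.e_ret (hUdm hu), heq, W, hWo, ⟨h0p, h0U, hdet0⟩, fun u hu => hu.2.1, ?_,
    fun u hu => hu.2.2, ?_, p.symm, ?_, fun u hu => p.left_inv hu.1⟩⟩
  · exact p.injOn.mono fun u hu => hu.1
  · exact p.isOpen_image_of_subset_source hWo fun u hu => hu.1
  · refine p.continuousOn_symm.mono ?_
    rintro _ ⟨u, hu, rfl⟩
    exact p.map_source hu.1

namespace Loc

variable {L : Leaf Γ X B} {o : Orb L} (c : Loc o)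

theorem iter_mem (j : ℕ) {u : E2} (hu : u ∈ c.U) : o.ret^[j] u ∈ c.U := by
  induction j with
  | zero => exact hu
  | succ j ih =>
    rw [Function.iterate_succ_apply']
    exact c.maps _ ih

theorem iter_e (j : ℕ) {u : E2} (hu : u ∈ c.U) :
    L.e o.x (o.ret^[j] u) = o.β ^ j • L.e o.x u := by
  induction j with
  | zero => simp
  | succ j ih =>
    rw [Function.iterate_succ_apply', c.ret_e _ (c.iter_mem j hu), ih, pow_succ', mul_smul]

theorem iter_h (j : ℕ) {u : E2} (hu : u ∈ c.U) : c.h u = c.N.fn^[j] (c.h (o.ret^[j] u)) := by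
  induction j with
  | zero => rfl
  | succ j ih =>
    rw [ih, Function.iterate_succ_apply (f := c.N.fn), Function.iterate_succ_apply' (f := o.ret),
      ← c.eq _ (c.iter_mem j hu)]

theorem wd_aux {η : B} {n j : ℕ} {u v : E2} (hu : u ∈ c.U) (hv : v ∈ c.U)
    (h1 : o.β ^ n • η = L.e o.x u) (h2 : o.β ^ (n + j) • η = L.e o.x v) :
    c.N.fn^[n] (c.h u) = c.N.fn^[n + j] (c.h v) := by
  have h3 : L.e o.x (o.ret^[j] u) = L.e o.x v := by
    rw [c.iter_e j hu, ← h1, ← h2, ← mul_smul, ← pow_add, add_comm]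
  have h4 : o.ret^[j] u = v :=
    L.e_inj o.x (ball_subset_closedBall (c.U_sub (c.iter_mem j hu)))
      (ball_subset_closedBall (c.U_sub hv)) h3
  rw [c.iter_h j hu, h4, ← Function.iterate_add_apply]

theorem wd {η : B} {n m : ℕ} {u v : E2} (hu : u ∈ c.U) (hv : v ∈ c.U)
    (h1 : o.β ^ n • η = L.e o.x u) (h2 : o.β ^ m • η = L.e o.x v) :
    c.N.fn^[n] (c.h u) = c.N.fn^[m] (c.h v) := by
  rcases le_total n m with h | h
  · obtain ⟨j, rfl⟩ := Nat.exists_eq_add_of_le h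
    exact c.wd_aux hu hv h1 h2
  · obtain ⟨j, rfl⟩ := Nat.exists_eq_add_of_le h
    exact (c.wd_aux hv hu h2 h1).symm

open Classical in
/-- the global coordinate -/
def x (η : B) : E2 :=
  if H : ∃ p : ℕ × E2, p.2 ∈ c.U ∧ o.β ^ p.1 • η = L.e o.x p.2 then
    c.N.fn^[H.choose.1] (c.h H.choose.2) else 0

theorem x_eq {η : B} {n : ℕ} {u : E2} (hu : u ∈ c.U) (h1 : o.β ^ n • η = L.e o.x u) :
    c.x η = c.N.fn^[n] (c.h u) := by
  have H : ∃ p : ℕ × E2, p.2 ∈ c.U ∧ o.β ^ p.1 • η = L.e o.x p.2 := ⟨(n, u), hu, h1⟩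
  rw [x, dif_pos H]
  exact c.wd H.choose_spec.1 hu H.choose_spec.2 h1

theorem pow_smul_neg (n : ℕ) : o.β ^ n • o.neg = o.neg := H147.Ax.pow_smul_em o.ax n

theorem eventually_mem {η : B} (hη : η ≠ o.neg) :
    ∀ᶠ n : ℕ in atTop, ∃ u ∈ c.W, o.β ^ n • η = L.e o.x u := by
  have hV : L.e o.x '' c.W ∈ 𝓝 (L.ep o.x) := by
    refine (e_image_open L o.x c.W_open (c.W_sub.trans c.U_sub)).mem_nhds ?_
    rw [← L.e_zero]
    exact ⟨0, c.zero_mem, rfl⟩
  filter_upwards [H147.Ax.north o.ax (K := {η}) isCompact_singleton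
    (by rw [mem_singleton_iff]; exact fun h => hη h.symm) hV] with n hn
  obtain ⟨u, hu, hue⟩ := hn η rfl
  exact ⟨u, hu, hue.symm⟩

theorem x_pos : c.x o.pos = 0 := by
  have h0 : o.β ^ 0 • o.pos = L.e o.x 0 := by
    rw [pow_zero, one_smul, L.e_zero]
    rfl
  rw [c.x_eq (c.W_sub c.zero_mem) h0]
  exact c.h_zero

theorem x_equiv {η : B} (hη : η ≠ o.neg) : c.x (o.β⁻¹ • η) = c.N.fn (c.x η) := by
  obtain ⟨n, u, hu, h1⟩ := (c.eventually_mem hη).exists
  have h2 : o.β ^ (n + 1) • (o.β⁻¹ • η) = L.e o.x u := by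
    rw [← h1, pow_succ, mul_smul, smul_inv_smul]
  rw [c.x_eq (c.W_sub hu) h1, c.x_eq (c.W_sub hu) h2, Function.iterate_succ_apply']

/-- the coordinate in a chart, near a point -/
theorem x_chart {y : X} (hy : L.em y = o.neg) {u₀ : E2} (hu₀ : u₀ ∈ ball (0 : E2) 3) :
    ∃ (n : ℕ) (z : X), L.em z = o.neg ∧ u₀ ∈ L.dm z o.x ∧ L.τ z o.x u₀ ∈ c.W ∧
      ∀ᶠ u in 𝓝 u₀, c.x (L.e y u) = c.N.fn^[n] (c.h (L.τ z o.x u)) := by
  have hne : L.e y u₀ ≠ o.neg := by
    rw [← hy]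
    exact L.e_ne y u₀ (ball_subset_closedBall hu₀)
  obtain ⟨n, w, hw, h1⟩ := (c.eventually_mem hne).exists
  set z : X := o.β ^ n • y with hz
  have hzem : L.em z = o.neg := by
    rw [hz, L.em_smul, hy, pow_smul_neg]
  have hze : ∀ u ∈ ball (0 : E2) 3, L.e z u = o.β ^ n • L.e y u := fun u hu =>
    L.e_smul _ _ _ (ball_subset_closedBall hu)
  have hdm : u₀ ∈ L.dm z o.x := by
    refine ⟨hu₀, w, c.U_sub (c.W_sub hw), ?_⟩
    rw [hze u₀ hu₀, h1]
  have hτ : L.τ z o.x u₀ = w :=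
    τ_eq (ball_subset_closedBall (c.U_sub (c.W_sub hw))) (by rw [hze u₀ hu₀, h1])
  refine ⟨n, z, hzem, hdm, by rwa [hτ], ?_⟩
  have hcont : ContinuousAt (L.τ z o.x) u₀ := (τ_contDiffAt hzem hdm).continuousAt
  have hmem : ∀ᶠ u in 𝓝 u₀, L.τ z o.x u ∈ c.W :=
    hcont.eventually (c.W_open.mem_nhds (by rwa [hτ]))
  filter_upwards [hmem, (dm_open L z o.x).mem_nhds hdm] with u hu hudm
  refine c.x_eq (c.W_sub hu) ?_
  rw [(τ_spec hudm).2, hze u hudm.1]

theorem x_smooth : L.SmoothOn o.neg c.x := by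
  intro y hy u₀ hu₀
  obtain ⟨n, z, hz, hdm, hW, hev⟩ := c.x_chart hy hu₀
  have h1 : ContDiffAt ℝ ∞ (L.τ z o.x) u₀ := τ_contDiffAt hz hdm
  have h2 : ContDiffAt ℝ ∞ c.h (L.τ z o.x u₀) :=
    c.smooth.contDiffAt (c.U_open.mem_nhds (c.W_sub hW))
  have h3 : ContDiffAt ℝ ∞ (fun u => c.N.fn^[n] (c.h (L.τ z o.x u))) u₀ :=
    (c.N.contDiff_fn_iter n).contDiffAt.comp u₀ (h2.comp u₀ h1)
  exact (h3.congr_of_eventuallyEq hev).contDiffWithinAt

theorem det_comp_ne {A A' : E2 →L[ℝ] E2} (h : A.det ≠ 0) (h' : A'.det ≠ 0) :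
    (A ∘L A').det ≠ 0 := by
  have : (A ∘L A').det = A.det * A'.det := LinearMap.det_comp _ _
  rw [this]
  exact mul_ne_zero h h'

theorem x_deriv {y : X} (hy : L.em y = o.neg) {u₀ : E2} (hu₀ : u₀ ∈ ball (0 : E2) 3) :
    (fderiv ℝ (fun u => c.x (L.e y u)) u₀).det ≠ 0 := by
  obtain ⟨n, z, hz, hdm, hW, hev⟩ := c.x_chart hy hu₀
  have h1 := ((τ_contDiffAt hz hdm).differentiableAt (by simp)).hasFDerivAt
  have h2 := ((c.smooth.contDiffAt (c.U_open.mem_nhds (c.W_sub hW))).differentiableAt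
    (by simp)).hasFDerivAt
  have h3 := ((c.N.contDiff_fn_iter n).differentiable (by simp)
    (c.h (L.τ z o.x u₀))).hasFDerivAt
  have h4 := h3.comp u₀ (h2.comp u₀ h1)
  have h5 := (h4.congr_of_eventuallyEq hev).fderiv
  rw [h5]
  refine det_comp_ne ?_ (det_comp_ne (c.det _ hW) (τ_det hz hdm))
  exact det_ne_of_left (left_inv_deriv ((c.N.contDiff_fn_iter n).differentiable (by simp) _)
    ((c.N.contDiff_inv_iter n).differentiable (by simp) _)
    (Eventually.of_forall fun x => NF.inv_fn_iter c.ok n x))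

theorem x_inj {η η' : B} (hη : η ≠ o.neg) (hη' : η' ≠ o.neg) (h : c.x η = c.x η') : η = η' := by
  obtain ⟨n, ⟨u, hu, h1⟩, ⟨v, hv, h2⟩⟩ := ((c.eventually_mem hη).and (c.eventually_mem hη')).exists
  rw [c.x_eq (c.W_sub hu) h1, c.x_eq (c.W_sub hv) h2] at h
  have h3 := congrArg (c.N.inv^[n]) h
  rw [NF.inv_fn_iter c.ok, NF.inv_fn_iter c.ok] at h3
  have h4 := c.inj hu hv h3
  rw [h4, ← h2] at h1
  exact smul_left_cancel _ h1

/-- a point of the leaf with given small coordinate -/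
theorem x_back {z : E2} {n : ℕ} (hz : c.N.inv^[n] z ∈ c.h '' c.W) :
    (o.β ^ n)⁻¹ • L.e o.x (c.g (c.N.inv^[n] z)) ≠ o.neg ∧
      c.x ((o.β ^ n)⁻¹ • L.e o.x (c.g (c.N.inv^[n] z))) = z := by
  obtain ⟨u, hu, hue⟩ := hz
  rw [← hue, c.g_left u hu]
  constructor
  · intro h
    rw [inv_smul_eq_iff, pow_smul_neg] at h
    exact L.e_ne o.x u (ball_subset_closedBall (c.U_sub (c.W_sub hu))) h
  · rw [c.x_eq (n := n) (c.W_sub hu) (by rw [smul_inv_smul]), hue, NF.fn_inv_iter c.ok]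

theorem eventually_small (z : E2) : ∀ᶠ n : ℕ in atTop, c.N.inv^[n] z ∈ c.h '' c.W :=
  (NF.inv_iter_tendsto c.ok z).eventually
    (c.hW_open.mem_nhds ⟨0, c.zero_mem, c.h_zero⟩)

theorem exists_back (z : E2) : ∃ η, η ≠ o.neg ∧ c.x η = z := by
  obtain ⟨n, hn⟩ := (c.eventually_small z).exists
  exact ⟨_, c.x_back hn⟩

/-- the inverse of the global coordinate -/
def inv (z : E2) : B := (c.exists_back z).choose

theorem inv_ne (z : E2) : c.inv z ≠ o.neg := (c.exists_back z).choose_spec.1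

theorem x_inv (z : E2) : c.x (c.inv z) = z := (c.exists_back z).choose_spec.2

theorem inv_x {η : B} (hη : η ≠ o.neg) : c.inv (c.x η) = η :=
  c.x_inj (c.inv_ne _) hη (c.x_inv _)

theorem inv_cont : Continuous c.inv := by
  rw [continuous_iff_continuousAt]
  intro z₀
  obtain ⟨n, hn⟩ := (c.eventually_small z₀).exists
  have hcont : Continuous (c.N.inv^[n]) := (c.N.contDiff_inv_iter n).continuous
  have hev : ∀ᶠ z in 𝓝 z₀, c.N.inv^[n] z ∈ c.h '' c.W :=
    hcont.continuousAt.eventually (c.hW_open.mem_nhds hn)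
  have heq : c.inv =ᶠ[𝓝 z₀] fun z => (o.β ^ n)⁻¹ • L.e o.x (c.g (c.N.inv^[n] z)) := by
    filter_upwards [hev] with z hz
    obtain ⟨h1, h2⟩ := c.x_back hz
    exact c.x_inj (c.inv_ne _) h1 (by rw [c.x_inv, h2])
  have hg : ContinuousAt (fun z => c.g (c.N.inv^[n] z)) z₀ :=
    ContinuousAt.comp (c.g_cont.continuousAt (c.hW_open.mem_nhds hn)) hcont.continuousAt
  have hmem : c.g (c.N.inv^[n] z₀) ∈ ball (0 : E2) 3 := by
    obtain ⟨u, hu, hue⟩ := hn
    rw [← hue, c.g_left u hu]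
    exact c.U_sub (c.W_sub hu)
  have he : ContinuousAt (L.e o.x) (c.g (c.N.inv^[n] z₀)) :=
    (e_contOn L o.x).continuousAt (mem_of_superset (isOpen_ball.mem_nhds hmem)
      ball_subset_closedBall)
  have h3 : ContinuousAt (fun z => (o.β ^ n)⁻¹ • L.e o.x (c.g (c.N.inv^[n] z))) z₀ :=
    (ContinuousAt.comp (f := fun z => c.g (c.N.inv^[n] z)) he hg).const_smul _
  exact h3.congr heq.symm

/-- the normal coordinate -/
def nor : Nor L o where
  N := c.N
  ok := c.ok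
  x := c.x
  base := c.x_pos
  equiv := fun _ hη => c.x_equiv hη
  smooth := c.x_smooth
  inv := c.inv
  inv_cont := c.inv_cont
  inv_ne := c.inv_ne
  inv_right := c.x_inv
  inv_left := fun _ hη => c.inv_x hη
  deriv := fun _ hy _ hu => c.x_deriv hy hu

end Loc

/-- **The normal coordinate of a closed orbit.** -/
theorem exists_nor (L : Leaf Γ X B) (o : Orb L) : Nonempty (Nor L o) :=
  (exists_loc o).map fun c => c.nor

end Vale.Agent.P207.N3.H790
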