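import Vale.Agent.P207.N3.H790.Stern

/-! Iterates of the normal forms. -/

open Set Filter Topology Metric
open scoped ContDiff

noncomputable section

namespace Vale.Agent.P207.N3.H790

namespace NF

theorem contDiff_fn_iter (N : NF) (n : ℕ) : ContDiff ℝ ∞ N.fn^[n] := by
  induction n with
  | zero => exact contDiff_id
  | succ n ih =>
    rw [Function.iterate_succ']
    exact N.contDiff_fn.comp ih

theorem contDiff_inv_iter (N : NF) (n : ℕ) : ContDiff ℝ ∞ N.inv^[n] := by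
  induction n with
  | zero => exact contDiff_id
  | succ n ih =>
    rw [Function.iterate_succ']
    exact N.contDiff_inv.comp ih

theorem inv_fn_iter {N : NF} (h : N.OK) (n : ℕ) (x : E2) : N.inv^[n] (N.fn^[n] x) = x :=
  (Function.LeftInverse.iterate (f := N.fn) (g := N.inv) (inv_fn h) n) x

theorem fn_inv_iter {N : NF} (h : N.OK) (n : ℕ) (x : E2) : N.fn^[n] (N.inv^[n] x) = x :=
  (Function.LeftInverse.iterate (f := N.inv) (g := N.fn) (fn_inv h) n) x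

theorem inv_iter_tri {μ₁ μ₂ a : ℝ} {k : ℕ} (h : (tri μ₁ μ₂ a k).OK) (n : ℕ) (z : E2) :
    (tri μ₁ μ₂ a k).inv^[n] z
      = !₂[μ₁⁻¹ ^ n * (z 0 - n * (a * μ₁⁻¹) * z 1 ^ k), μ₂⁻¹ ^ n * z 1] := by
  induction n with
  | zero =>
    apply ext2
    · change z 0 = μ₁⁻¹ ^ 0 * (z 0 - ((0 : ℕ) : ℝ) * (a * μ₁⁻¹) * z 1 ^ k)
      rw [Nat.cast_zero, pow_zero]
      ring
    · change z 1 = μ₂⁻¹ ^ 0 * z 1
      rw [pow_zero, one_mul]
  | succ n ih =>
    rw [Function.iterate_succ_apply', ih]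
    have key : a * (μ₂⁻¹ * (μ₂⁻¹ ^ n * z 1)) ^ k = a * μ₁⁻¹ ^ (n + 1) * z 1 ^ k := by
      rcases eq_or_ne a 0 with ha | ha
      · rw [ha]
        ring
      · have h1 := (h.2.2 ha).2
        rw [h1, ← mul_assoc, ← pow_succ', mul_pow, ← inv_pow, ← pow_mul, ← pow_mul,
          mul_comm k (n + 1)]
        ring
    apply ext2
    · rw [inv_tri_zero]
      change μ₁⁻¹ * (μ₁⁻¹ ^ n * (z 0 - n * (a * μ₁⁻¹) * z 1 ^ k)
        - a * (μ₂⁻¹ * (μ₂⁻¹ ^ n * z 1)) ^ k) = μ₁⁻¹ ^ (n + 1) * (z 0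
        - ((n + 1 : ℕ) : ℝ) * (a * μ₁⁻¹) * z 1 ^ k)
      rw [key]
      push_cast
      ring
    · rw [inv_tri_one]
      change μ₂⁻¹ * (μ₂⁻¹ ^ n * z 1) = μ₂⁻¹ ^ (n + 1) * z 1
      ring

theorem tendsto_of_coord {f : ℕ → E2} (h0 : Tendsto (fun n => f n 0) atTop (𝓝 0))
    (h1 : Tendsto (fun n => f n 1) atTop (𝓝 0)) : Tendsto f atTop (𝓝 0) := by
  rw [tendsto_zero_iff_norm_tendsto_zero]
  have h2 : Tendsto (fun n => √(f n 0 ^ 2 + f n 1 ^ 2)) atTop (𝓝 0) := by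
    have h3 := ((h0.pow 2).add (h1.pow 2)).sqrt
    simpa using h3
  refine h2.congr fun n => ?_
  rw [← norm_sq2, Real.sqrt_sq (norm_nonneg _)]

theorem inv_iter_tendsto {N : NF} (h : N.OK) (z : E2) :
    Tendsto (fun n => N.inv^[n] z) atTop (𝓝 0) := by
  cases N with
  | tri μ₁ μ₂ a k =>
    have h1 : |μ₂⁻¹| < 1 := by
      rw [abs_inv]
      exact inv_lt_one_of_one_lt₀ h.1
    have h2 : |μ₁⁻¹| < 1 := by
      rw [abs_inv]
      exact inv_lt_one_of_one_lt₀ (h.1.trans_le h.2.1)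
    simp only [inv_iter_tri h]
    apply tendsto_of_coord
    · change Tendsto (fun n : ℕ => μ₁⁻¹ ^ n * (z 0 - n * (a * μ₁⁻¹) * z 1 ^ k)) atTop (𝓝 0)
      have e1 := (tendsto_pow_atTop_nhds_zero_of_abs_lt_one h2).mul_const (z 0)
      have e2 := (tendsto_self_mul_const_pow_of_abs_lt_one h2).mul_const (a * μ₁⁻¹ * z 1 ^ k)
      have e3 := e1.sub e2
      rw [zero_mul, zero_mul, sub_zero] at e3
      refine e3.congr fun n => ?_
      ring
    · change Tendsto (fun n : ℕ => μ₂⁻¹ ^ n * z 1) atTop (𝓝 0)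
      have e1 := (tendsto_pow_atTop_nhds_zero_of_abs_lt_one h1).mul_const (z 1)
      rwa [zero_mul] at e1
  | cx c s =>
    have hp : 0 < c ^ 2 + s ^ 2 := zero_lt_one.trans h.2
    have h1 : ∀ n, ‖(cx c s).inv^[n] z‖ ^ 2 = (c ^ 2 + s ^ 2)⁻¹ ^ n * ‖z‖ ^ 2 := by
      intro n
      induction n with
      | zero => simp
      | succ n ih =>
        have e1 : ∀ w : E2, ‖(cx c s).inv w‖ ^ 2 = (c ^ 2 + s ^ 2)⁻¹ * ‖w‖ ^ 2 := by
          intro w
          rw [norm_sq2, norm_sq2, inv_cx_zero, inv_cx_one]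
          field_simp
          ring
        rw [Function.iterate_succ_apply', e1, ih]
        ring
    rw [tendsto_zero_iff_norm_tendsto_zero]
    have h2 : |(c ^ 2 + s ^ 2)⁻¹| < 1 := by
      rw [abs_inv, abs_of_pos hp]
      exact inv_lt_one_of_one_lt₀ h.2
    have h3 := ((tendsto_pow_atTop_nhds_zero_of_abs_lt_one h2).mul_const (‖z‖ ^ 2)).sqrt
    rw [zero_mul, Real.sqrt_zero] at h3
    refine h3.congr fun n => ?_
    rw [← h1, Real.sqrt_sq (norm_nonneg _)]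

end NF

end Vale.Agent.P207.N3.H790
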