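import Vale.Agent.P207.N3.H790.Symm

/-! Taylor expansion along rays, flat functions. -/

open Set Filter Topology Metric
open scoped ContDiff Nat

noncomputable section

namespace Vale.Agent.P207.N3.H790

variable {E : Type} [NormedAddCommGroup E] [NormedSpace ℝ E]

theorem norm_iter_fderiv {W : Type} [NormedAddCommGroup W] [NormedSpace ℝ W] (g : E → W) (n : ℕ)
    (x : E) : ‖iteratedFDeriv ℝ n (fderiv ℝ g) x‖ = ‖iteratedFDeriv ℝ (n + 1) g x‖ :=
  norm_iteratedFDeriv_fderiv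

theorem contDiffOn_fderiv {W : Type} [NormedAddCommGroup W] [NormedSpace ℝ W] {U : Set E}
    (hU : IsOpen U) {g : E → W} (hg : ContDiffOn ℝ ∞ g U) : ContDiffOn ℝ ∞ (fderiv ℝ g) U :=
  ((contDiffOn_infty_iff_fderiv_of_isOpen hU).1 hg).2

/-- the Taylor polynomial along rays -/
def tay {W : Type} [NormedAddCommGroup W] [NormedSpace ℝ W] (g : E → W) (j : ℕ) (x : E) : W :=
  ∑ i ∈ Finset.range j, ((i ! : ℝ)⁻¹) • iteratedFDeriv ℝ i g 0 (fun _ => x)

theorem tay_smul {W : Type} [NormedAddCommGroup W] [NormedSpace ℝ W] (g : E → W) (j : ℕ) (x : E)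
    (t : ℝ) : tay g j (t • x) =
      ∑ i ∈ Finset.range j, (t ^ i * (i ! : ℝ)⁻¹) • iteratedFDeriv ℝ i g 0 (fun _ => x) := by
  unfold tay
  refine Finset.sum_congr rfl fun i _ => ?_
  have : iteratedFDeriv ℝ i g 0 (fun _ => t • x) = t ^ i • iteratedFDeriv ℝ i g 0 (fun _ => x) := by
    have := (iteratedFDeriv ℝ i g 0).map_smul_univ (fun _ => t) (fun _ => x)
    simpa using this
  rw [this, smul_smul, mul_comm]

/-- Taylor's theorem along rays -/
theorem ray_taylor (j : ℕ) : ∀ {W : Type} [NormedAddCommGroup W] [NormedSpace ℝ W] {g : E → W}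
    {r M : ℝ}, ContDiffOn ℝ ∞ g (ball 0 r) →
    (∀ x ∈ ball (0 : E) r, ‖iteratedFDeriv ℝ j g x‖ ≤ M) → ∀ x ∈ ball (0 : E) r,
      ‖g x - tay g j x‖ ≤ M * ‖x‖ ^ j := by
  induction j with
  | zero =>
    intro W _ _ g r M hg hM x hx
    have := hM x hx
    rw [norm_iteratedFDeriv_zero] at this
    simpa [tay] using this
  | succ j ih =>
    intro W _ _ g r M hg hM x hx
    have hr : 0 < r := by
      have := mem_ball_zero_iff.1 hx
      exact (norm_nonneg x).trans_lt this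
    have hM0 : 0 ≤ M := (norm_nonneg _).trans (hM x hx)
    have hg' := contDiffOn_fderiv isOpen_ball hg
    have hM' : ∀ y ∈ ball (0 : E) r, ‖iteratedFDeriv ℝ j (fderiv ℝ g) y‖ ≤ M := by
      intro y hy
      rw [norm_iter_fderiv]
      exact hM y hy
    have key := ih hg' hM'
    have hmem : ∀ t ∈ Icc (0 : ℝ) 1, t • x ∈ ball (0 : E) r := by
      intro t ht
      rw [mem_ball_zero_iff] at hx ⊢
      rw [norm_smul, Real.norm_eq_abs, abs_of_nonneg ht.1]
      calc t * ‖x‖ ≤ 1 * ‖x‖ := by gcongr; exact ht.2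
        _ < r := by rwa [one_mul]
    -- derivative of the remainder along the ray
    set ph : ℝ → W := fun t => g (t • x) - tay g (j + 1) (t • x) with hph
    have hder : ∀ t ∈ Icc (0 : ℝ) 1, HasDerivWithinAt ph
        ((fderiv ℝ g (t • x) - tay (fderiv ℝ g) j (t • x)) x) (Icc 0 1) t := by
      intro t ht
      have h1 : HasDerivAt (fun t : ℝ => g (t • x)) (fderiv ℝ g (t • x) x) t := by
        have hd : DifferentiableAt ℝ g (t • x) :=
          (hg.contDiffAt (isOpen_ball.mem_nhds (hmem t ht))).differentiableAt (by simp)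
        have h2 : HasDerivAt (fun t : ℝ => t • x) x t := by
          simpa using (hasDerivAt_id t).smul_const x
        exact hd.hasFDerivAt.comp_hasDerivAt t h2
      have h2 : HasDerivAt (fun t : ℝ => tay g (j + 1) (t • x))
          (tay (fderiv ℝ g) j (t • x) x) t := by
        have e1 : (fun t : ℝ => tay g (j + 1) (t • x)) = fun t : ℝ =>
            ∑ i ∈ Finset.range (j + 1), (t ^ i * (i ! : ℝ)⁻¹) •
              iteratedFDeriv ℝ i g 0 (fun _ => x) := by
          funext t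
          exact tay_smul g (j + 1) x t
        rw [e1]
        have e2 : tay (fderiv ℝ g) j (t • x) x = ∑ i ∈ Finset.range (j + 1),
            ((i : ℝ) * t ^ (i - 1) * (i ! : ℝ)⁻¹) • iteratedFDeriv ℝ i g 0 (fun _ => x) := by
          rw [tay_smul, Finset.sum_range_succ', sum_apply]
          simp only [Nat.cast_zero, zero_mul, zero_smul, add_zero]
          refine Finset.sum_congr rfl fun i _ => ?_
          rw [smul_apply, iteratedFDeriv_succ_apply_right]
          have : ((i + 1 : ℕ) : ℝ) * t ^ (i + 1 - 1) * ((i + 1)! : ℝ)⁻¹ = t ^ i * (i ! : ℝ)⁻¹ := by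
            rw [Nat.add_sub_cancel, Nat.factorial_succ]
            push_cast
            have h3 : ((i : ℝ) + 1) ≠ 0 := by positivity
            have h4 : (i ! : ℝ) ≠ 0 := by positivity
            field_simp
          rw [this]
          rfl
        rw [e2]
        have := HasDerivAt.fun_sum (u := Finset.range (j + 1)) (x := t)
          (A := fun i (t : ℝ) => (t ^ i * (i ! : ℝ)⁻¹) • iteratedFDeriv ℝ i g 0 (fun _ => x))
          (A' := fun i => ((i : ℝ) * t ^ (i - 1) * (i ! : ℝ)⁻¹) •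
            iteratedFDeriv ℝ i g 0 (fun _ => x))
          (fun i _ => (((hasDerivAt_pow i t).mul_const _).smul_const _))
        exact this
      have h3 : HasDerivAt ph (fderiv ℝ g (t • x) x - tay (fderiv ℝ g) j (t • x) x) t :=
        h1.fun_sub h2
      exact h3.hasDerivWithinAt
    have hb : ∀ t ∈ Ico (0 : ℝ) 1,
        ‖(fderiv ℝ g (t • x) - tay (fderiv ℝ g) j (t • x)) x‖ ≤ M * ‖x‖ ^ (j + 1) := by
      intro t ht
      have ht' : t ∈ Icc (0 : ℝ) 1 := ⟨ht.1, ht.2.le⟩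
      refine (ContinuousLinearMap.le_opNorm _ _).trans ?_
      have h1 := key (t • x) (hmem t ht')
      have h2 : ‖t • x‖ ≤ ‖x‖ := by
        rw [norm_smul, Real.norm_eq_abs, abs_of_nonneg ht.1]
        exact mul_le_of_le_one_left (norm_nonneg _) ht.2.le
      calc _ ≤ (M * ‖t • x‖ ^ j) * ‖x‖ := by gcongr
        _ ≤ (M * ‖x‖ ^ j) * ‖x‖ := by gcongr
        _ = M * ‖x‖ ^ (j + 1) := by ring
    have := norm_image_sub_le_of_norm_deriv_le_segment_01' hder hb
    have z0 : ph 0 = 0 := by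
      simp only [hph, zero_smul]
      unfold tay
      rw [Finset.sum_range_succ']
      have : ∑ i ∈ Finset.range j, (((i + 1)! : ℝ)⁻¹) •
          iteratedFDeriv ℝ (i + 1) g 0 (fun _ => (0 : E)) = 0 := by
        refine Finset.sum_eq_zero fun i _ => ?_
        rw [ContinuousMultilinearMap.map_coord_zero _ (0 : Fin (i + 1)) rfl, smul_zero]
      rw [this]
      simp
    have z1 : ph 1 = g x - tay g (j + 1) x := by simp [hph]
    rw [z0, z1, sub_zero] at this
    exact this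

/-- a polynomial in one variable with vector coefficients which is `O(t^K)` has zero coefficients
below `K` -/
theorem coeff_zero_of_bigO {W : Type} [NormedAddCommGroup W] [NormedSpace ℝ W] {c : W} {C : ℝ}
    {i : ℕ} {δ : ℝ} (hδ : 0 < δ) (h : ∀ t ∈ Ioo (0 : ℝ) δ, ‖t ^ i • c‖ ≤ C * t ^ (i + 1)) :
    c = 0 := by
  have h1 : ∀ t ∈ Ioo (0 : ℝ) δ, ‖c‖ ≤ C * t := by
    intro t ht
    have := h t ht
    rw [norm_smul, Real.norm_eq_abs, abs_of_nonneg (pow_nonneg ht.1.le _), pow_succ,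
      ← mul_assoc, mul_comm C, mul_assoc] at this
    exact le_of_mul_le_mul_left this (pow_pos ht.1 _)
  have h2 : Tendsto (fun t : ℝ => C * t) (𝓝[>] 0) (𝓝 (C * 0)) :=
    ((continuous_const.mul continuous_id).tendsto 0).mono_left nhdsWithin_le_nhds
  rw [mul_zero] at h2
  have h3 : ‖c‖ ≤ 0 := ge_of_tendsto h2 (by
    filter_upwards [Ioo_mem_nhdsGT hδ] with t ht using h1 t ht)
  exact norm_le_zero_iff.1 h3

/-- a symmetric multilinear map which vanishes on the diagonal is zero -/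
theorem mlin_zero_of_diag {W : Type} [NormedAddCommGroup W] [NormedSpace ℝ W] {n : ℕ}
    (q : E [×n]→L[ℝ] W) (hs : ∀ (σ : Equiv.Perm (Fin n)) (v : Fin n → E), q (v ∘ σ) = q v)
    (h : ∀ x : E, q (fun _ => x) = 0) : q = 0 := by
  ext v
  have h1 := q.iteratedFDeriv_comp_diagonal 0 v
  have h2 : (fun x : E => q (fun _ => x)) = fun _ => (0 : W) := funext h
  rw [h2] at h1
  have h3 : iteratedFDeriv ℝ n (fun _ : E => (0 : W)) 0 v = 0 := by
    have : iteratedFDeriv ℝ n (fun _ : E => (0 : W)) = 0 := iteratedFDeriv_fun_zero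
    rw [this]
    rfl
  rw [h3] at h1
  have h4 : ∑ σ : Equiv.Perm (Fin n), q (fun i => v (σ i)) = (n ! : ℝ) • q v := by
    have : ∀ σ : Equiv.Perm (Fin n), q (fun i => v (σ i)) = q v := fun σ => hs σ v
    rw [Finset.sum_congr rfl fun σ _ => this σ, Finset.sum_const, Finset.card_univ,
      Fintype.card_perm, Fintype.card_fin]
    exact (Nat.cast_smul_eq_nsmul ℝ _ _).symm
  rw [h4] at h1
  have h5 : (n ! : ℝ) ≠ 0 := by positivity
  simpa [h5] using h1.symm

/-- A smooth function which is `O(|x|^K)` has vanishing derivatives of order `< K` at `0`. -/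
theorem iter_zero_of_flat {W : Type} [NormedAddCommGroup W] [NormedSpace ℝ W] {g : E → W}
    {r C : ℝ} {K : ℕ} (hr : 0 < r) (hg : ContDiffOn ℝ ∞ g (ball 0 r))
    (hM : ∀ k : ℕ, ∃ M, ∀ x ∈ ball (0 : E) r, ‖iteratedFDeriv ℝ k g x‖ ≤ M)
    (hC : ∀ x ∈ ball (0 : E) r, ‖g x‖ ≤ C * ‖x‖ ^ K) :
    ∀ i < K, iteratedFDeriv ℝ i g 0 = 0 := by
  intro i
  induction i using Nat.strong_induction_on with
  | _ i ih =>
    intro hi
    refine mlin_zero_of_diag _ (fun σ v => symm_perm isOpen_ball hg i (mem_ball_self hr) σ v) ?_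
    intro x
    obtain ⟨M, hM⟩ := hM (i + 1)
    have ht := ray_taylor (i + 1) hg hM
    -- choose a small multiple
    obtain ⟨δ, hδ, hδ1, hδ2⟩ : ∃ δ : ℝ, 0 < δ ∧ δ ≤ 1 ∧ ∀ t ∈ Ioo (0 : ℝ) δ,
        t • x ∈ ball (0 : E) r := by
      refine ⟨min 1 (r / (‖x‖ + 1)), by positivity, min_le_left _ _, ?_⟩
      intro t ht
      rw [mem_ball_zero_iff, norm_smul, Real.norm_eq_abs, abs_of_pos ht.1]
      have h1 : t < r / (‖x‖ + 1) := ht.2.trans_le (min_le_right _ _)
      have h2 : t * (‖x‖ + 1) < r := by rwa [lt_div_iff₀ (by positivity)] at h1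
      nlinarith [ht.1, norm_nonneg x]
    have hc : ((i ! : ℝ)⁻¹) • iteratedFDeriv ℝ i g 0 (fun _ => x) = 0 := by
      refine coeff_zero_of_bigO (i := i) (C := |C| * ‖x‖ ^ K + M * ‖x‖ ^ (i + 1)) hδ ?_
      intro t ht
      have h1 := ht
      have hmem := hδ2 t ht
      have h3 := hC (t • x) hmem
      have h4 := ray_taylor (i + 1) hg hM (t • x) hmem
      have e : tay g (i + 1) (t • x) = t ^ i • ((i ! : ℝ)⁻¹) •
          iteratedFDeriv ℝ i g 0 (fun _ => x) := by
        rw [tay_smul, Finset.sum_range_succ, Finset.sum_eq_zero, zero_add, smul_smul]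
        intro l hl
        have hl' := Finset.mem_range.1 hl
        rw [ih l hl' (by omega)]
        simp
      rw [e] at h4
      have h5 : ‖t • x‖ = t * ‖x‖ := by rw [norm_smul, Real.norm_eq_abs, abs_of_pos h1.1]
      rw [h5, mul_pow] at h3 h4
      have h6 : t ^ K ≤ t ^ (i + 1) := pow_le_pow_of_le_one h1.1.le (h1.2.le.trans hδ1) hi
      have h7 : C * (t ^ K * ‖x‖ ^ K) ≤ |C| * ‖x‖ ^ K * t ^ (i + 1) := by
        calc C * (t ^ K * ‖x‖ ^ K) ≤ |C| * (t ^ K * ‖x‖ ^ K) := by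
              gcongr
              · exact mul_nonneg (pow_nonneg h1.1.le _) (by positivity)
              · exact le_abs_self C
          _ ≤ |C| * (t ^ (i + 1) * ‖x‖ ^ K) := by gcongr
          _ = _ := by ring
      calc ‖t ^ i • ((i ! : ℝ)⁻¹) • iteratedFDeriv ℝ i g 0 (fun _ => x)‖
          = ‖g (t • x) - (g (t • x) - t ^ i • ((i ! : ℝ)⁻¹) •
              iteratedFDeriv ℝ i g 0 (fun _ => x))‖ := by congr 1; abel
        _ ≤ ‖g (t • x)‖ + ‖g (t • x) - t ^ i • ((i ! : ℝ)⁻¹) •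
              iteratedFDeriv ℝ i g 0 (fun _ => x)‖ := norm_sub_le _ _
        _ ≤ |C| * ‖x‖ ^ K * t ^ (i + 1) + M * (t ^ (i + 1) * ‖x‖ ^ (i + 1)) :=
            add_le_add (h3.trans h7) h4
        _ = _ := by ring
    have h5 : ((i ! : ℝ)⁻¹) ≠ 0 := by positivity
    simpa [h5] using hc

/-- derivative flatness from the vanishing of derivatives at `0` -/
theorem flat_of_iter_zero {W : Type} [NormedAddCommGroup W] [NormedSpace ℝ W] {g : E → W}
    {r M : ℝ} {K : ℕ} (hg : ContDiffOn ℝ ∞ g (ball 0 r))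
    (hM : ∀ x ∈ ball (0 : E) r, ‖iteratedFDeriv ℝ K g x‖ ≤ M)
    (h0 : ∀ i < K, iteratedFDeriv ℝ i g 0 = 0) :
    ∀ d l, l + d = K → ∀ x ∈ ball (0 : E) r, ‖iteratedFDeriv ℝ l g x‖ ≤ M * ‖x‖ ^ d := by
  intro d
  induction d with
  | zero =>
    intro l hl x hx
    rw [pow_zero, mul_one, show l = K by omega]
    exact hM x hx
  | succ d ih =>
    intro l hl x hx
    have hM0 : 0 ≤ M := (norm_nonneg _).trans (hM x hx)
    have ih' := ih (l + 1) (by omega)
    -- mean value on the closed ball of radius ‖x‖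
    have hsub : closedBall (0 : E) ‖x‖ ⊆ ball 0 r := by
      intro y hy
      rw [mem_closedBall_zero_iff] at hy
      rw [mem_ball_zero_iff] at hx ⊢
      linarith
    have hd : ∀ y ∈ closedBall (0 : E) ‖x‖, DifferentiableAt ℝ (iteratedFDeriv ℝ l g) y :=
      fun y hy => (diff_iter isOpen_ball hg l (hsub hy)).differentiableAt (by simp)
    have hb : ∀ y ∈ closedBall (0 : E) ‖x‖, ‖fderiv ℝ (iteratedFDeriv ℝ l g) y‖
        ≤ M * ‖x‖ ^ d := by
      intro y hy
      have h1 : ‖fderiv ℝ (iteratedFDeriv ℝ l g) y‖ = ‖iteratedFDeriv ℝ (l + 1) g y‖ := by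
        rw [norm_fderiv_iteratedFDeriv]
      rw [h1]
      refine (ih' y (hsub hy)).trans ?_
      have := mem_closedBall_zero_iff.1 hy
      gcongr
    have := (convex_closedBall (0 : E) ‖x‖).norm_image_sub_le_of_norm_fderiv_le hd hb
      (mem_closedBall_self (norm_nonneg x)) (mem_closedBall_zero_iff.2 le_rfl)
    rw [h0 l (by omega), sub_zero, sub_zero] at this
    calc _ ≤ M * ‖x‖ ^ d * ‖x‖ := this
      _ = M * ‖x‖ ^ (d + 1) := by ring

/-- `flat K g`: all derivatives are bounded and of order `O(|x|^{K-l})` -/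
theorem flat_all {W : Type} [NormedAddCommGroup W] [NormedSpace ℝ W] {g : E → W}
    {r C : ℝ} {K : ℕ} (hr : 0 < r) (hg : ContDiffOn ℝ ∞ g (ball 0 r))
    (hM : ∀ k : ℕ, ∃ M, ∀ x ∈ ball (0 : E) r, ‖iteratedFDeriv ℝ k g x‖ ≤ M)
    (hC : ∀ x ∈ ball (0 : E) r, ‖g x‖ ≤ C * ‖x‖ ^ K) (l : ℕ) :
    ∃ M, 0 ≤ M ∧ ∀ x ∈ ball (0 : E) r, ‖iteratedFDeriv ℝ l g x‖ ≤ M * ‖x‖ ^ (K - l) := by
  have h0 := iter_zero_of_flat hr hg hM hC
  rcases le_or_gt l K with hl | hl
  · obtain ⟨M, hM'⟩ := hM K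
    have := flat_of_iter_zero hg hM' h0 (K - l) l (by omega)
    exact ⟨M, (norm_nonneg _).trans (hM' 0 (mem_ball_self hr)), this⟩
  · obtain ⟨M, hM'⟩ := hM l
    refine ⟨M, (norm_nonneg _).trans (hM' 0 (mem_ball_self hr)), fun x hx => ?_⟩
    rw [Nat.sub_eq_zero_of_le hl.le, pow_zero, mul_one]
    exact hM' x hx

/-- leading term of a flat function -/
theorem lead_term {W : Type} [NormedAddCommGroup W] [NormedSpace ℝ W] {g : E → W}
    {r C : ℝ} {j : ℕ} (hr : 0 < r) (hg : ContDiffOn ℝ ∞ g (ball 0 r))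
    (hM : ∀ k : ℕ, ∃ M, ∀ x ∈ ball (0 : E) r, ‖iteratedFDeriv ℝ k g x‖ ≤ M)
    (hC : ∀ x ∈ ball (0 : E) r, ‖g x‖ ≤ C * ‖x‖ ^ j) :
    ∃ M, ∀ x ∈ ball (0 : E) r,
      ‖g x - ((j ! : ℝ)⁻¹) • iteratedFDeriv ℝ j g 0 (fun _ => x)‖ ≤ M * ‖x‖ ^ (j + 1) := by
  obtain ⟨M, hM'⟩ := hM (j + 1)
  refine ⟨M, fun x hx => ?_⟩
  have h1 := ray_taylor (j + 1) hg hM' x hx
  have h0 := iter_zero_of_flat hr hg hM hC
  have e : tay g (j + 1) x = ((j ! : ℝ)⁻¹) • iteratedFDeriv ℝ j g 0 (fun _ => x) := by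
    unfold tay
    rw [Finset.sum_range_succ, Finset.sum_eq_zero, zero_add]
    intro l hl
    rw [h0 l (Finset.mem_range.1 hl)]
    simp
  rwa [e] at h1

end Vale.Agent.P207.N3.H790
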