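import Vale.Agent.P207.N3.H790.NFdyn

/-! Linear parts of the normal forms: derivative of the iterates, LU splitting. -/

open Set Filter Topology Metric
open scoped ContDiff

noncomputable section

namespace Vale.Agent.P207.N3.H790

open NF

/-! ### the algebra of `lin2` -/

theorem lin2_mul (a b c d a' b' c' d' : ℝ) : lin2 a b c d * lin2 a' b' c' d'
    = lin2 (a * a' + b * c') (a * b' + b * d') (c * a' + d * c') (c * b' + d * d') := by
  ext1 x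
  apply ext2
  · change a * (a' * x 0 + b' * x 1) + b * (c' * x 0 + d' * x 1)
      = (a * a' + b * c') * x 0 + (a * b' + b * d') * x 1
    ring
  · change c * (a' * x 0 + b' * x 1) + d * (c' * x 0 + d' * x 1)
      = (c * a' + d * c') * x 0 + (c * b' + d * d') * x 1
    ring

theorem lin2_one' : lin2 1 0 0 1 = 1 := by
  ext1 x
  apply ext2
  · change 1 * x 0 + 0 * x 1 = x 0
    ring
  · change 0 * x 0 + 1 * x 1 = x 1
    ring

theorem lin2_sub_one (a b c d : ℝ) : lin2 a b c d - 1 = lin2 (a - 1) b c (d - 1) := by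
  ext1 x
  apply ext2
  · change (a * x 0 + b * x 1) - x 0 = (a - 1) * x 0 + b * x 1
    ring
  · change (c * x 0 + d * x 1) - x 1 = c * x 0 + (d - 1) * x 1
    ring

theorem one_add_lin2 (a b c d : ℝ) : 1 + lin2 a b c d = lin2 (1 + a) b c (1 + d) := by
  ext1 x
  apply ext2
  · change x 0 + (a * x 0 + b * x 1) = (1 + a) * x 0 + b * x 1
    ring
  · change x 1 + (c * x 0 + d * x 1) = c * x 0 + (1 + d) * x 1
    ring

theorem abs_coord_le (x : E2) (i : Fin 2) : |x i| ≤ ‖x‖ := by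
  have h := EuclideanSpace.norm_eq x
  rw [h]
  refine Real.le_sqrt_of_sq_le ?_
  rw [← Real.norm_eq_abs]
  exact Finset.single_le_sum (f := fun j => ‖x j‖ ^ 2) (fun j _ => by positivity)
    (Finset.mem_univ i)

theorem norm_lin2_le (a b c d : ℝ) : ‖lin2 a b c d‖ ≤ |a| + |b| + |c| + |d| := by
  refine ContinuousLinearMap.opNorm_le_bound _ (by positivity) fun x => ?_
  have h0 := abs_coord_le x 0
  have h1 := abs_coord_le x 1
  have e : ‖lin2 a b c d x‖ ≤ |lin2 a b c d x 0| + |lin2 a b c d x 1| := by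
    refine (sq_le_sq₀ (norm_nonneg _) (by positivity)).1 ?_
    rw [norm_sq2]
    have := mul_nonneg (abs_nonneg (lin2 a b c d x 0)) (abs_nonneg (lin2 a b c d x 1))
    nlinarith [sq_abs (lin2 a b c d x 0), sq_abs (lin2 a b c d x 1)]
  refine e.trans ?_
  rw [lin2_zero, lin2_one]
  have e1 : |a * x 0 + b * x 1| ≤ |a| * ‖x‖ + |b| * ‖x‖ := by
    refine (abs_add_le _ _).trans ?_
    rw [abs_mul, abs_mul]
    gcongr
  have e2 : |c * x 0 + d * x 1| ≤ |c| * ‖x‖ + |d| * ‖x‖ := by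
    refine (abs_add_le _ _).trans ?_
    rw [abs_mul, abs_mul]
    gcongr
  linarith

theorem entry_le (A : E2 →L[ℝ] E2) : |A b0 0| ≤ ‖A‖ ∧ |A b1 0| ≤ ‖A‖ ∧ |A b0 1| ≤ ‖A‖ ∧
    |A b1 1| ≤ ‖A‖ := by
  have h0 : ‖A b0‖ ≤ ‖A‖ := by simpa [norm_b0] using A.le_opNorm b0
  have h1 : ‖A b1‖ ≤ ‖A‖ := by simpa [norm_b1] using A.le_opNorm b1
  exact ⟨(abs_coord_le _ _).trans h0, (abs_coord_le _ _).trans h1, (abs_coord_le _ _).trans h0,
    (abs_coord_le _ _).trans h1⟩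

theorem lin2_diag_pow (a d : ℝ) (n : ℕ) : lin2 a 0 0 d ^ n = lin2 (a ^ n) 0 0 (d ^ n) := by
  induction n with
  | zero => rw [pow_zero, pow_zero, pow_zero, lin2_one']
  | succ n ih =>
    rw [pow_succ, ih, lin2_mul]
    congr 1 <;> ring

theorem lin2_jordan_pow {a : ℝ} (ha : a ≠ 0) (b : ℝ) (n : ℕ) :
    lin2 a b 0 a ^ n = lin2 (a ^ n) (a ^ n * (n * (b / a))) 0 (a ^ n) := by
  induction n with
  | zero =>
    rw [pow_zero, pow_zero, Nat.cast_zero, zero_mul, mul_zero, lin2_one']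
  | succ n ih =>
    rw [pow_succ, ih, lin2_mul]
    have e : a ^ n * b + a ^ n * (n * (b / a)) * a
        = a ^ (n + 1) * (((n + 1 : ℕ) : ℝ) * (b / a)) := by
      push_cast
      field_simp
      ring
    rw [e]
    congr 1 <;> ring

/-! ### the linear part -/

namespace NF

/-- the linear part of a normal form -/
def Lam : NF → E2 →L[ℝ] E2
  | tri μ₁ μ₂ a k => lin2 μ₁ (if k = 1 then a else 0) 0 μ₂
  | cx c s => lin2 c (-s) s c

/-- the inverse of the linear part -/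
def Lami : NF → E2 →L[ℝ] E2
  | tri μ₁ μ₂ a k => lin2 μ₁⁻¹ (-(μ₁⁻¹ * (if k = 1 then a else 0) * μ₂⁻¹)) 0 μ₂⁻¹
  | cx c s => lin2 (c / (c ^ 2 + s ^ 2)) (s / (c ^ 2 + s ^ 2)) (-s / (c ^ 2 + s ^ 2))
      (c / (c ^ 2 + s ^ 2))

theorem Lam_mul_Lami {N : NF} (h : N.OK) : N.Lam * N.Lami = 1 := by
  cases N with
  | tri μ₁ μ₂ a k =>
    obtain ⟨h1, h2⟩ := ne_of_OK h
    unfold Lam Lami
    rw [lin2_mul, ← lin2_one']
    congr 1 <;> field_simp <;> ring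
  | cx c s =>
    have hp : c ^ 2 + s ^ 2 ≠ 0 := (zero_lt_one.trans h.2).ne'
    unfold Lam Lami
    rw [lin2_mul, ← lin2_one']
    congr 1 <;> field_simp <;> ring

theorem Lami_mul_Lam {N : NF} (h : N.OK) : N.Lami * N.Lam = 1 := by
  cases N with
  | tri μ₁ μ₂ a k =>
    obtain ⟨h1, h2⟩ := ne_of_OK h
    unfold Lam Lami
    rw [lin2_mul, ← lin2_one']
    congr 1 <;> field_simp <;> ring
  | cx c s =>
    have hp : c ^ 2 + s ^ 2 ≠ 0 := (zero_lt_one.trans h.2).ne'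
    unfold Lam Lami
    rw [lin2_mul, ← lin2_one']
    congr 1 <;> field_simp <;> ring

/-- the linear part as a unit -/
def LamU {N : NF} (h : N.OK) : (E2 →L[ℝ] E2)ˣ := ⟨N.Lam, N.Lami, Lam_mul_Lami h, Lami_mul_Lam h⟩

theorem LamU_val {N : NF} (h : N.OK) : (LamU h : E2 →L[ℝ] E2) = N.Lam := rfl

theorem fn_iter_tri {μ₁ μ₂ a : ℝ} {k : ℕ} (h : (tri μ₁ μ₂ a k).OK) (n : ℕ) (z : E2) :
    (tri μ₁ μ₂ a k).fn^[n] z
      = !₂[μ₁ ^ n * (z 0 + n * (a * μ₁⁻¹) * z 1 ^ k), μ₂ ^ n * z 1] := by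
  have h1 := ne_of_OK h
  have e := inv_iter_tri h n (!₂[μ₁ ^ n * (z 0 + n * (a * μ₁⁻¹) * z 1 ^ k), μ₂ ^ n * z 1])
  have e2 : (tri μ₁ μ₂ a k).inv^[n]
      (!₂[μ₁ ^ n * (z 0 + n * (a * μ₁⁻¹) * z 1 ^ k), μ₂ ^ n * z 1]) = z := by
    rw [e]
    apply ext2
    · change μ₁⁻¹ ^ n * (μ₁ ^ n * (z 0 + n * (a * μ₁⁻¹) * z 1 ^ k)
        - n * (a * μ₁⁻¹) * (μ₂ ^ n * z 1) ^ k) = z 0
      have e3 : a * (μ₂ ^ n * z 1) ^ k = a * μ₁ ^ n * z 1 ^ k := by
        rcases eq_or_ne a 0 with ha | ha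
        · rw [ha]
          ring
        · rw [(h.2.2 ha).2, mul_pow, ← pow_mul, ← pow_mul, mul_comm n k]
          ring
      have e4 : μ₁⁻¹ ^ n * μ₁ ^ n = 1 := by
        rw [← mul_pow, inv_mul_cancel₀ h1.1, one_pow]
      linear_combination (-μ₁⁻¹ ^ n * n * μ₁⁻¹) * e3 + (z 0) * e4
    · change μ₂⁻¹ ^ n * (μ₂ ^ n * z 1) = z 1
      rw [← mul_assoc, ← mul_pow, inv_mul_cancel₀ h1.2, one_pow, one_mul]
  have e5 := congrArg ((tri μ₁ μ₂ a k).fn^[n]) e2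
  rw [fn_inv_iter h] at e5
  exact e5.symm

theorem fn_iter_lin {N : NF} (hl : ∀ z, N.fn z = N.Lam z) (n : ℕ) (z : E2) :
    N.fn^[n] z = (N.Lam ^ n) z := by
  induction n with
  | zero => rfl
  | succ n ih =>
    rw [Function.iterate_succ_apply', ih, hl, pow_succ']
    rfl

/-- **the derivative of the iterates** -/
theorem fderiv_iter {N : NF} (h : N.OK) : ∃ C, 0 ≤ C ∧ ∀ (n : ℕ) (w : E2), ‖w‖ ≤ 1 →
    ∃ J : E2 →L[ℝ] E2, fderiv ℝ (N.fn^[n]) w = N.Lam ^ n * (1 + J) ∧ ‖J‖ ≤ C * n * ‖w‖ := by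
  have hlin : (∀ z, N.fn z = N.Lam z) → ∃ C, 0 ≤ C ∧ ∀ (n : ℕ) (w : E2), ‖w‖ ≤ 1 →
      ∃ J : E2 →L[ℝ] E2, fderiv ℝ (N.fn^[n]) w = N.Lam ^ n * (1 + J) ∧ ‖J‖ ≤ C * n * ‖w‖ := by
    intro hl
    refine ⟨0, le_rfl, fun n w _ => ⟨0, ?_, by simp⟩⟩
    have e : N.fn^[n] = fun z => (N.Lam ^ n) z := funext fun z => fn_iter_lin hl n z
    rw [e, add_zero, mul_one]
    exact (N.Lam ^ n).hasFDerivAt.fderiv
  cases N with
  | cx c s =>
    refine hlin fun z => ?_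
    apply ext2
    · change c * z 0 - s * z 1 = c * z 0 + -s * z 1
      ring
    · change s * z 0 + c * z 1 = s * z 0 + c * z 1
      rfl
  | tri μ₁ μ₂ a k =>
    by_cases hk : k = 1
    · subst hk
      refine hlin fun z => ?_
      apply ext2
      · change μ₁ * z 0 + a * z 1 ^ 1 = μ₁ * z 0 + (if 1 = 1 then a else 0) * z 1
        rw [if_pos rfl, pow_one]
      · change μ₂ * z 1 = 0 * z 0 + μ₂ * z 1
        ring
    by_cases ha : a = 0
    · subst ha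
      refine hlin fun z => ?_
      apply ext2
      · change μ₁ * z 0 + 0 * z 1 ^ k = μ₁ * z 0 + (if k = 1 then 0 else 0) * z 1
        rw [if_neg hk, zero_mul, zero_mul]
      · change μ₂ * z 1 = 0 * z 0 + μ₂ * z 1
        ring
    obtain ⟨h1, h2⟩ := h.2.2 ha
    have hk2 : 2 ≤ k := by omega
    refine ⟨|a * μ₁⁻¹| * k, by positivity, fun n w hw => ?_⟩
    set L : E2 →L[ℝ] E2 := (tri μ₁ μ₂ a k).Lam with hL
    have hLam : L = lin2 μ₁ 0 0 μ₂ := by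
      change lin2 μ₁ (if k = 1 then a else 0) 0 μ₂ = _
      rw [if_neg hk]
    have hLn : L ^ n = lin2 (μ₁ ^ n) 0 0 (μ₂ ^ n) := by rw [hLam, lin2_diag_pow]
    have e : (tri μ₁ μ₂ a k).fn^[n]
        = fun z => (L ^ n) (z + !₂[n * (a * μ₁⁻¹) * z 1 ^ k, 0]) := by
      funext z
      rw [fn_iter_tri h, hLn]
      apply ext2
      · change μ₁ ^ n * (z 0 + n * (a * μ₁⁻¹) * z 1 ^ k)
          = μ₁ ^ n * (z 0 + n * (a * μ₁⁻¹) * z 1 ^ k) + 0 * (z 1 + 0)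
        ring
      · change μ₂ ^ n * z 1 = 0 * (z 0 + n * (a * μ₁⁻¹) * z 1 ^ k) + μ₂ ^ n * (z 1 + 0)
        ring
    have hd : HasFDerivAt (fun z : E2 => (!₂[n * (a * μ₁⁻¹) * z 1 ^ k, 0] : E2))
        (lin2 0 (n * (a * μ₁⁻¹) * (k * w 1 ^ (k - 1))) 0 0) w := by
      have hs : HasStrictFDerivAt (fun z : E2 => (!₂[n * (a * μ₁⁻¹) * z 1 ^ k, 0] : E2))
          (lin2 0 (n * (a * μ₁⁻¹) * (k * w 1 ^ (k - 1))) 0 0) w := by
        rw [hasStrictFDerivAt_euclidean]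
        intro i
        have hc : HasStrictFDerivAt (fun z : E2 => z 1) (EuclideanSpace.proj (𝕜 := ℝ) 1) w :=
          (EuclideanSpace.proj (𝕜 := ℝ) (1 : Fin 2)).hasStrictFDerivAt
        fin_cases i
        · have h3 := (hc.pow k).const_mul ((n : ℝ) * (a * μ₁⁻¹))
          refine h3.congr_fderiv ?_
          ext x
          change (n * (a * μ₁⁻¹)) * ((k • w 1 ^ (k - 1)) * x 1)
            = 0 * x 0 + (n * (a * μ₁⁻¹) * (k * w 1 ^ (k - 1))) * x 1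
          rw [nsmul_eq_mul]
          ring
        · refine (hasStrictFDerivAt_const (0 : ℝ) w).congr_fderiv ?_
          ext x
          change (0 : ℝ) = 0 * x 0 + 0 * x 1
          ring
      exact hs.hasFDerivAt
    refine ⟨lin2 0 (n * (a * μ₁⁻¹) * (k * w 1 ^ (k - 1))) 0 0, ?_, ?_⟩
    · rw [e]
      have h3 := (L ^ n).hasFDerivAt.comp w ((hasFDerivAt_id w).add hd)
      exact h3.fderiv
    · refine (norm_lin2_le _ _ _ _).trans ?_
      rw [abs_zero, zero_add, add_zero, add_zero, abs_mul, abs_mul (n : ℝ), abs_mul (k : ℝ),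
        abs_pow, Nat.abs_cast, Nat.abs_cast]
      have h4 : |w 1| ≤ ‖w‖ := abs_coord_le w 1
      have h5 : |w 1| ^ (k - 1) ≤ ‖w‖ := by
        calc |w 1| ^ (k - 1) ≤ ‖w‖ ^ (k - 1) := by gcongr
          _ ≤ ‖w‖ ^ 1 := pow_le_pow_of_le_one (norm_nonneg _) hw (by omega)
          _ = ‖w‖ := pow_one _
      calc n * |a * μ₁⁻¹| * (k * |w 1| ^ (k - 1)) ≤ n * |a * μ₁⁻¹| * (k * ‖w‖) := by gcongr
        _ = |a * μ₁⁻¹| * k * n * ‖w‖ := by ring

/-- the conjugation by the linear part grows at most polynomially, in the cases of one exponent -/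
theorem conj_poly {N : NF} (h : N.OK) (hc : (∃ c s, N = cx c s) ∨
    ∃ μ b, μ ≠ 0 ∧ N.Lam = lin2 μ b 0 μ) : ∃ C, 0 ≤ C ∧ ∀ (n : ℕ) (D S : E2 →L[ℝ] E2),
    N.Lam ^ n * S = (1 + D) * N.Lam ^ n → ‖S - 1‖ ≤ C * (1 + n) ^ 2 * ‖D‖ := by
  -- the norms of the powers
  obtain ⟨C, hC0, hC⟩ : ∃ C, 0 ≤ C ∧ ∀ n : ℕ, ‖(N.Lami) ^ n‖ * ‖N.Lam ^ n‖ ≤ C * (1 + n) ^ 2 := by
    rcases hc with ⟨c, s, rfl⟩ | ⟨μ, b, hμ, hL⟩
    · have hp : 0 < c ^ 2 + s ^ 2 := zero_lt_one.trans h.2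
      refine ⟨1, zero_le_one, fun n => ?_⟩
      set ρ := √(c ^ 2 + s ^ 2) with hρ
      have hρ0 : 0 < ρ := Real.sqrt_pos.2 hp
      have h1 : ‖(cx c s).Lam‖ ≤ ρ := norm_lin2_cx c s
      have h2 : ‖(cx c s).Lami‖ ≤ ρ⁻¹ := by
        have h3 := norm_lin2_cx (c / (c ^ 2 + s ^ 2)) (-s / (c ^ 2 + s ^ 2))
        have h4 : (c / (c ^ 2 + s ^ 2)) ^ 2 + (-s / (c ^ 2 + s ^ 2)) ^ 2 = (c ^ 2 + s ^ 2)⁻¹ := by
          field_simp
        rw [h4, Real.sqrt_inv, neg_div, neg_neg] at h3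
        have e : (cx c s).Lami = lin2 (c / (c ^ 2 + s ^ 2)) (s / (c ^ 2 + s ^ 2))
          (-(s / (c ^ 2 + s ^ 2))) (c / (c ^ 2 + s ^ 2)) := by
          change lin2 _ _ _ _ = _
          rw [neg_div]
        rw [e]
        exact h3
      have h5 : ‖(cx c s).Lami ^ n‖ ≤ ρ⁻¹ ^ n :=
        (norm_pow_le _ n).trans (by gcongr)
      have h6 : ‖(cx c s).Lam ^ n‖ ≤ ρ ^ n := (norm_pow_le _ n).trans (by gcongr)
      calc _ ≤ ρ⁻¹ ^ n * ρ ^ n := mul_le_mul h5 h6 (norm_nonneg _) (by positivity)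
        _ = 1 := by rw [← mul_pow, inv_mul_cancel₀ hρ0.ne', one_pow]
        _ ≤ 1 * (1 + n) ^ 2 := by
          have : (0 : ℝ) ≤ n := Nat.cast_nonneg n
          nlinarith
    · have hLi : N.Lami = lin2 μ⁻¹ (-(μ⁻¹ * b * μ⁻¹)) 0 μ⁻¹ := by
        have h1 : N.Lam * lin2 μ⁻¹ (-(μ⁻¹ * b * μ⁻¹)) 0 μ⁻¹ = 1 := by
          rw [hL, lin2_mul, ← lin2_one']
          congr 1 <;> field_simp <;> ring
        calc N.Lami = N.Lami * (N.Lam * lin2 μ⁻¹ (-(μ⁻¹ * b * μ⁻¹)) 0 μ⁻¹) := by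
              rw [h1, mul_one]
          _ = _ := by rw [← mul_assoc, Lami_mul_Lam h, one_mul]
      refine ⟨(2 + |b / μ|) ^ 2, by positivity, fun n => ?_⟩
      have hn : (0 : ℝ) ≤ n := Nat.cast_nonneg n
      have key : ∀ ν t : ℝ, ν ≠ 0 → ‖lin2 (ν ^ n) (ν ^ n * (n * t)) 0 (ν ^ n)‖
          ≤ |ν| ^ n * ((2 + |t|) * (1 + n)) := by
        intro ν t _
        refine (norm_lin2_le _ _ _ _).trans ?_
        rw [abs_zero, abs_mul, abs_mul, abs_pow, Nat.abs_cast, add_zero]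
        have : 0 ≤ |ν| ^ n := by positivity
        have h7 : |ν| ^ n + |ν| ^ n * (n * |t|) + |ν| ^ n = |ν| ^ n * (2 + n * |t|) := by ring
        rw [h7]
        refine mul_le_mul_of_nonneg_left ?_ this
        nlinarith [abs_nonneg t]
      have h1 : ‖N.Lam ^ n‖ ≤ |μ| ^ n * ((2 + |b / μ|) * (1 + n)) := by
        rw [hL, lin2_jordan_pow hμ]
        exact key μ _ hμ
      have h2 : ‖N.Lami ^ n‖ ≤ |μ⁻¹| ^ n * ((2 + |b / μ|) * (1 + n)) := by
        rw [hLi, lin2_jordan_pow (inv_ne_zero hμ)]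
        have h3 := key μ⁻¹ (-(μ⁻¹ * b * μ⁻¹) / μ⁻¹) (inv_ne_zero hμ)
        have h4 : |-(μ⁻¹ * b * μ⁻¹) / μ⁻¹| = |b / μ| := by
          have : -(μ⁻¹ * b * μ⁻¹) / μ⁻¹ = -(b / μ) := by
            field_simp
          rw [this, abs_neg]
        rwa [h4] at h3
      calc _ ≤ (|μ⁻¹| ^ n * ((2 + |b / μ|) * (1 + n))) * (|μ| ^ n * ((2 + |b / μ|) * (1 + n))) :=
            mul_le_mul h2 h1 (norm_nonneg _) (by positivity)
        _ = (|μ⁻¹| ^ n * |μ| ^ n) * ((2 + |b / μ|) ^ 2 * (1 + n) ^ 2) := by ring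
        _ = (2 + |b / μ|) ^ 2 * (1 + n) ^ 2 := by
          rw [abs_inv, ← mul_pow, inv_mul_cancel₀ (abs_pos.2 hμ).ne', one_pow, one_mul]
  refine ⟨C, hC0, fun n D S hS => ?_⟩
  have h1 : N.Lami ^ n * N.Lam ^ n = 1 := by
    have h2 : Commute N.Lami N.Lam := by
      rw [commute_iff_eq, Lami_mul_Lam h, Lam_mul_Lami h]
    rw [← h2.mul_pow, Lami_mul_Lam h, one_pow]
  have h2 : S - 1 = N.Lami ^ n * (D * N.Lam ^ n) := by
    have h3 : N.Lami ^ n * (N.Lam ^ n * S) = N.Lami ^ n * ((1 + D) * N.Lam ^ n) := by rw [hS]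
    rw [← mul_assoc, h1, one_mul, add_mul, one_mul, mul_add, h1] at h3
    rw [h3]
    abel
  rw [h2]
  calc ‖N.Lami ^ n * (D * N.Lam ^ n)‖ ≤ ‖N.Lami ^ n‖ * (‖D‖ * ‖N.Lam ^ n‖) :=
        (norm_mul_le _ _).trans (mul_le_mul_of_nonneg_left (norm_mul_le _ _) (norm_nonneg _))
    _ = (‖N.Lami ^ n‖ * ‖N.Lam ^ n‖) * ‖D‖ := by ring
    _ ≤ C * (1 + n) ^ 2 * ‖D‖ := mul_le_mul_of_nonneg_right (hC n) (norm_nonneg _)

/-- **the LU splitting** -/
theorem lu {N : NF} (h : N.OK) : ∃ C, 0 ≤ C ∧ ∀ (m M : ℕ), m ≤ M → ∀ D S : E2 →L[ℝ] E2,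
    ‖D‖ ≤ 1 / 2 → N.Lam ^ m * S = (1 + D) * N.Lam ^ m →
    ∃ S₁ S₂ : E2 →L[ℝ] E2, N.Lam ^ M * S = S₂ * (N.Lam ^ M * S₁) ∧
      ‖S₁ - 1‖ ≤ C * (1 + M) ^ 2 * ‖D‖ ∧ ‖S₂ - 1‖ ≤ C * (1 + M) ^ 2 * ‖D‖ := by
  have hone : ((∃ c s, N = cx c s) ∨ ∃ μ b, μ ≠ 0 ∧ N.Lam = lin2 μ b 0 μ) → ∃ C, 0 ≤ C ∧
      ∀ (m M : ℕ), m ≤ M → ∀ D S : E2 →L[ℝ] E2,
      ‖D‖ ≤ 1 / 2 → N.Lam ^ m * S = (1 + D) * N.Lam ^ m →
      ∃ S₁ S₂ : E2 →L[ℝ] E2, N.Lam ^ M * S = S₂ * (N.Lam ^ M * S₁) ∧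
        ‖S₁ - 1‖ ≤ C * (1 + M) ^ 2 * ‖D‖ ∧ ‖S₂ - 1‖ ≤ C * (1 + M) ^ 2 * ‖D‖ := by
    intro hc
    obtain ⟨C, hC0, hC⟩ := conj_poly h hc
    refine ⟨C, hC0, fun m M hmM D S _ hS => ⟨S, 1, by rw [one_mul], ?_, ?_⟩⟩
    · refine (hC m D S hS).trans ?_
      have : (m : ℝ) ≤ M := by exact_mod_cast hmM
      gcongr
    · rw [sub_self, norm_zero]
      positivity
  cases N with
  | cx c s => exact hone (Or.inl ⟨c, s, rfl⟩)
  | tri μ₁ μ₂ a k =>
    obtain ⟨hμ1, hμ2⟩ := ne_of_OK h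
    by_cases hj : k = 1 ∧ a ≠ 0
    · obtain ⟨rfl, ha⟩ := hj
      have h1 := (h.2.2 ha).2
      rw [pow_one] at h1
      subst h1
      exact hone (Or.inr ⟨μ₁, _, hμ1, rfl⟩)
    · have hLam : (tri μ₁ μ₂ a k).Lam = lin2 μ₁ 0 0 μ₂ := by
        change lin2 μ₁ (if k = 1 then a else 0) 0 μ₂ = _
        by_cases hk : k = 1
        · have ha : a = 0 := by
            by_contra ha
            exact hj ⟨hk, ha⟩
          rw [if_pos hk, ha]
        · rw [if_neg hk]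
      refine ⟨8, by norm_num, fun m M hmM D S hD hS => ?_⟩
      have hM0 : (0 : ℝ) ≤ M := Nat.cast_nonneg M
      have hpoly : 8 * ‖D‖ ≤ 8 * (1 + (M : ℝ)) ^ 2 * ‖D‖ := by
        have : (1 : ℝ) ≤ (1 + (M : ℝ)) ^ 2 := by nlinarith
        nlinarith [norm_nonneg D]
      obtain ⟨ea, eb, ec, ed⟩ := entry_le D
      set a' := D b0 0
      set b' := D b1 0
      set c' := D b0 1
      set d' := D b1 1
      have hDe : D = lin2 a' b' c' d' := eq_lin2 D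
      have hapos : 1 / 2 ≤ 1 + a' := by
        have := neg_abs_le a'
        linarith
      have hane : 1 + a' ≠ 0 := by linarith
      set l : ℝ := c' / (1 + a') with hl
      have hl1 : l * (1 + a') = c' := div_mul_cancel₀ _ hane
      have hlabs : |l| ≤ 2 * ‖D‖ := by
        rw [hl, abs_div, div_le_iff₀ (abs_pos.2 hane), abs_of_pos (by linarith : 0 < 1 + a')]
        nlinarith [norm_nonneg D]
      set q : ℝ := μ₂ * μ₁⁻¹ with hq
      have hqabs : |q| ≤ 1 := by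
        rw [hq, abs_mul, abs_inv, ← div_eq_mul_inv, div_le_one (abs_pos.2 hμ1)]
        exact h.2.1
      have hq1 : q * μ₁ = μ₂ := by rw [hq, mul_assoc, inv_mul_cancel₀ hμ1, mul_one]
      refine ⟨lin2 (1 + a') (b' * q ^ m) 0 (1 + d' - l * b'), lin2 1 0 (l * q ^ (M - m)) 1,
        ?_, ?_, ?_⟩
      · obtain ⟨j, rfl⟩ := Nat.exists_eq_add_of_le hmM
        rw [Nat.add_sub_cancel_left]
        have e1 : (tri μ₁ μ₂ a k).Lam ^ (m + j) * S
            = (tri μ₁ μ₂ a k).Lam ^ j * ((1 + D) * (tri μ₁ μ₂ a k).Lam ^ m) := by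
          rw [← hS, ← mul_assoc, ← pow_add, add_comm]
        have e2 : μ₂ ^ m = q ^ m * μ₁ ^ m := by rw [← mul_pow, hq1]
        have e3 : μ₂ ^ j = q ^ j * μ₁ ^ j := by rw [← mul_pow, hq1]
        rw [e1, hLam, lin2_diag_pow, lin2_diag_pow, lin2_diag_pow]
        nth_rw 1 [hDe]
        rw [one_add_lin2, lin2_mul, lin2_mul, lin2_mul, lin2_mul]
        congr 1
        · ring
        · rw [e2]
          ring
        · rw [e3, ← hl1]
          ring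
        · rw [pow_add μ₂ m j, e2, e3]
          ring
      · rw [lin2_sub_one]
        refine (norm_lin2_le _ _ _ _).trans (le_trans ?_ hpoly)
        have e1 : |1 + a' - 1| ≤ ‖D‖ := by rwa [add_sub_cancel_left]
        have e2 : |b' * q ^ m| ≤ ‖D‖ := by
          rw [abs_mul, abs_pow]
          calc |b'| * |q| ^ m ≤ ‖D‖ * 1 :=
                mul_le_mul eb (pow_le_one₀ (abs_nonneg _) hqabs) (by positivity) (norm_nonneg _)
            _ = ‖D‖ := mul_one _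
        have e3 : |1 + d' - l * b' - 1| ≤ 2 * ‖D‖ := by
          have : 1 + d' - l * b' - 1 = d' - l * b' := by ring
          rw [this]
          refine (abs_sub _ _).trans ?_
          rw [abs_mul]
          have : |l| * |b'| ≤ 1 * ‖D‖ :=
            mul_le_mul (by linarith) eb (abs_nonneg _) zero_le_one
          linarith
        rw [abs_zero]
        linarith [norm_nonneg D]
      · rw [lin2_sub_one]
        refine (norm_lin2_le _ _ _ _).trans (le_trans ?_ hpoly)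
        have e2 : |l * q ^ (M - m)| ≤ 2 * ‖D‖ := by
          rw [abs_mul, abs_pow]
          calc |l| * |q| ^ (M - m) ≤ (2 * ‖D‖) * 1 :=
                mul_le_mul hlabs (pow_le_one₀ (abs_nonneg _) hqabs) (by positivity)
                  (by positivity)
            _ = 2 * ‖D‖ := mul_one _
        rw [sub_self, abs_zero]
        linarith [norm_nonneg D]

end NF

end Vale.Agent.P207.N3.H790
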