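import Vale.Agent.P207.N3.H790.Near
import Vale.Agent.P207.N3.H790.LU

/-! **The closing formula**, abstract form: sequences of linear maps of the plane. -/

open Set Filter Topology Metric MeasureTheory Asymptotics
open scoped ContDiff

noncomputable section

namespace Vale.Agent.P207.N3.H790

/-! ## Algebra -/

section alg

variable {R : Type} [Ring R]

/-- the algebra: change of the matrix by conjugation -/
theorem conj_form {DN Q Q' S₂ S₂' P P' M : R} (h1 : S₂' * S₂ = 1) (h1' : S₂ * S₂' = 1)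
    (hQ : DN * Q = S₂ * (DN * Q')) (hP : P' = S₂' * P) (hf : (DN * Q) * (P * M) = P) :
    (DN * (Q' * S₂)) * (P' * M) = P' := by
  have e1 : DN * Q' = S₂' * (DN * Q) := by
    rw [hQ, ← mul_assoc, h1, one_mul]
  calc (DN * (Q' * S₂)) * (P' * M) = (DN * Q') * ((S₂ * S₂') * (P * M)) := by
        rw [hP]
        simp only [mul_assoc]
    _ = S₂' * ((DN * Q) * (P * M)) := by
        rw [h1', one_mul, e1]
        simp only [mul_assoc]
    _ = P' := by rw [hf, hP]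

theorem alg1 {DN DΦ iΨ S iS A iA Ai J iJ Lm S₁ S₂ : R} (hS : A = S * Ai) (hAA : A * iA = 1)
    (hSS : S * iS = 1) (hJJ : (1 + J) * iJ = 1) (hDN : DN = Lm * (1 + J))
    (hlu : Lm * S = S₂ * (Lm * S₁)) :
    DN * (DΦ * iΨ)
      = S₂ * (DN * (iJ * S₁ * (1 + iS * J * S) * (Ai * (iA * DΦ) * iΨ))) := by
  have e1 : S * (Ai * (iA * DΦ)) = DΦ := by
    rw [← mul_assoc, ← hS, ← mul_assoc, hAA, one_mul]
  have e4 : DN * iJ = Lm := by
    rw [hDN, mul_assoc, hJJ, mul_one]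
  have e5 : (1 + J) * S = S * (1 + iS * J * S) := by
    rw [mul_add, mul_one, add_mul, one_mul]
    congr 1
    rw [← mul_assoc, ← mul_assoc, hSS, one_mul]
  calc DN * (DΦ * iΨ) = Lm * ((1 + J) * S) * (Ai * (iA * DΦ) * iΨ) := by
        nth_rw 1 [← e1]
        rw [hDN]
        simp only [mul_assoc]
    _ = (Lm * S) * (1 + iS * J * S) * (Ai * (iA * DΦ) * iΨ) := by
        rw [e5]
        simp only [mul_assoc]
    _ = S₂ * ((DN * iJ) * S₁) * (1 + iS * J * S) * (Ai * (iA * DΦ) * iΨ) := by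
        rw [hlu, e4]
    _ = _ := by simp only [mul_assoc]

theorem alg2 {DN DΦ DG DΨ iΨ Rm M : R} (hΨΨ : iΨ * DΨ = 1) (hder : DΨ = DN * (DΦ * DG))
    (hR : Rm * M = DG * Rm) : (DN * (DΦ * iΨ)) * ((DΨ * Rm) * M) = DΨ * Rm := by
  calc (DN * (DΦ * iΨ)) * ((DΨ * Rm) * M) = DN * DΦ * (iΨ * DΨ) * (Rm * M) := by
        simp only [mul_assoc]
    _ = (DN * (DΦ * DG)) * Rm := by
        rw [hΨΨ, mul_one, hR]
        simp only [mul_assoc]
    _ = DΨ * Rm := by rw [← hder]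

end alg

/-- an invertible element of the algebra, as an equivalence -/
theorem exists_equiv {P : E2 →L[ℝ] E2} (h : IsUnit P) : ∃ e : E2 ≃L[ℝ] E2,
    (e : E2 →L[ℝ] E2) = P := by
  obtain ⟨u, hu⟩ := h
  exact ⟨ContinuousLinearEquiv.unitsEquiv ℝ E2 u, hu⟩

theorem isUnit_of_det {P : E2 →L[ℝ] E2} (h : P.det ≠ 0) : IsUnit P := by
  refine ⟨(ContinuousLinearEquiv.unitsEquiv ℝ E2).symm
    (ContinuousLinearMap.toContinuousLinearEquivOfDetNeZero P h), ?_⟩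
  exact ContinuousLinearMap.coe_toContinuousLinearEquivOfDetNeZero P h

theorem isUnit_equiv (e : E2 ≃L[ℝ] E2) : IsUnit (e : E2 →L[ℝ] E2) :=
  ⟨(ContinuousLinearEquiv.unitsEquiv ℝ E2).symm e, rfl⟩

/-! ## The three corrections -/

theorem exists_J {N : NF} (hN : N.OK) {l c χ : ℝ} (hl : 0 < l) (hχ : 0 < χ) (hc : c < χ)
    {w : ℕ → E2} (hw : w =O[atTop] fun m : ℕ => Real.exp (-χ * l * m)) :
    ∃ J : ℕ → E2 →L[ℝ] E2, J =O[atTop] (fun m : ℕ => Real.exp (-c * l * m)) ∧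
      ∀ᶠ m in atTop, fderiv ℝ (N.fn^[m]) (w m) = N.Lam ^ m * (1 + J m) := by
  have hwg : (fun m : ℕ => (1 + (m : ℝ)) ^ 1 * ‖w m‖) =O[atTop]
      (fun m : ℕ => Real.exp (-c * l * m)) := by
    have h1 := (isBigO_refl (fun m : ℕ => (1 + (m : ℝ)) ^ 1) atTop).mul hw.norm_left
    exact h1.trans (poly_exp 1 hl hc)
  obtain ⟨CJ, hCJ0, hCJ⟩ := NF.fderiv_iter hN
  have hw1 : ∀ᶠ m in atTop, ‖w m‖ ≤ 1 := by
    have h1 : Tendsto w atTop (𝓝 0) := hw.trans_tendsto (exp_tendsto hl hχ)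
    have h2 := h1.norm
    rw [norm_zero] at h2
    exact h2.eventually (ge_mem_nhds one_pos)
  have hJex : ∀ m, ∃ J : E2 →L[ℝ] E2, ‖w m‖ ≤ 1 →
      fderiv ℝ (N.fn^[m]) (w m) = N.Lam ^ m * (1 + J) ∧ ‖J‖ ≤ CJ * m * ‖w m‖ := by
    intro m
    by_cases h : ‖w m‖ ≤ 1
    · obtain ⟨J, h1, h2⟩ := hCJ m (w m) h
      exact ⟨J, fun _ => ⟨h1, h2⟩⟩
    · exact ⟨0, fun h' => absurd h' h⟩
  choose J hJ using hJex
  refine ⟨J, IsBigO.trans (IsBigO.of_bound CJ ?_) hwg, ?_⟩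
  · filter_upwards [hw1] with m hm
    refine (hJ m hm).2.trans ?_
    rw [pow_one, Real.norm_of_nonneg (by positivity), mul_assoc]
    gcongr
    linarith
  · filter_upwards [hw1] with m hm using (hJ m hm).1

theorem exists_LU {N : NF} (hN : N.OK) {l c r ε : ℝ} (hl : 0 < l) (hc : 0 < c) (hcr : c < r)
    (hε1 : ε ≤ 1) {S D : ℕ → E2 →L[ℝ] E2}
    (hD : D =O[atTop] fun m : ℕ => Real.exp (-r * l * m))
    (hS : ∀ᶠ m : ℕ in atTop, N.Lam ^ ⌊ε * m⌋₊ * S m = (1 + D m) * N.Lam ^ ⌊ε * m⌋₊) :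
    ∃ S₁ S₂ : ℕ → E2 →L[ℝ] E2, Near (fun m : ℕ => Real.exp (-c * l * m)) S₁ 1 ∧
      Near (fun m : ℕ => Real.exp (-c * l * m)) S₂ 1 ∧
      ∀ᶠ m in atTop, N.Lam ^ m * S m = S₂ m * (N.Lam ^ m * S₁ m) := by
  obtain ⟨CL, hCL0, hCL⟩ := NF.lu hN
  have hg : Tendsto (fun m : ℕ => Real.exp (-c * l * m)) atTop (𝓝 0) := exp_tendsto hl hc
  have hDg : (fun m : ℕ => (1 + (m : ℝ)) ^ 2 * ‖D m‖) =O[atTop]
      (fun m : ℕ => Real.exp (-c * l * m)) := by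
    have h1 := (isBigO_refl (fun m : ℕ => (1 + (m : ℝ)) ^ 2) atTop).mul hD.norm_left
    exact h1.trans (poly_exp 2 hl hcr)
  have hD0 : ∀ᶠ m in atTop, ‖D m‖ ≤ 1 / 2 := by
    have h1 := hDg.trans_tendsto hg
    have h2 : ∀ᶠ m : ℕ in atTop, (1 + (m : ℝ)) ^ 2 * ‖D m‖ < 1 / 2 :=
      h1.eventually (gt_mem_nhds (by norm_num))
    filter_upwards [h2] with m hm
    have : (1 : ℝ) ≤ (1 + (m : ℝ)) ^ 2 := by
      have := (Nat.cast_nonneg m : (0 : ℝ) ≤ m)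
      nlinarith
    nlinarith [norm_nonneg (D m)]
  have hLUex : ∀ m : ℕ, ∃ S₁ S₂ : E2 →L[ℝ] E2, (‖D m‖ ≤ 1 / 2 → N.Lam ^ ⌊ε * m⌋₊ * S m
      = (1 + D m) * N.Lam ^ ⌊ε * m⌋₊ → N.Lam ^ m * S m = S₂ * (N.Lam ^ m * S₁) ∧
      ‖S₁ - 1‖ ≤ CL * (1 + (m : ℝ)) ^ 2 * ‖D m‖ ∧ ‖S₂ - 1‖ ≤ CL * (1 + (m : ℝ)) ^ 2 * ‖D m‖) := by
    intro m
    by_cases h : ‖D m‖ ≤ 1 / 2 ∧ N.Lam ^ ⌊ε * m⌋₊ * S m = (1 + D m) * N.Lam ^ ⌊ε * m⌋₊
    · have hle : ⌊ε * m⌋₊ ≤ m := by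
        refine Nat.floor_le_of_le ?_
        have := (Nat.cast_nonneg m : (0 : ℝ) ≤ m)
        nlinarith
      obtain ⟨S₁, S₂, h1⟩ := hCL _ m hle (D m) (S m) h.1 h.2
      exact ⟨S₁, S₂, fun _ _ => h1⟩
    · exact ⟨1, 1, fun h1 h2 => absurd ⟨h1, h2⟩ h⟩
  choose S₁ S₂ hLU using hLUex
  refine ⟨S₁, S₂, ?_, ?_, ?_⟩
  · refine IsBigO.trans (IsBigO.of_bound CL ?_) hDg
    filter_upwards [hD0, hS] with m h1 h2
    refine (hLU m h1 h2).2.1.trans (le_of_eq ?_)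
    rw [Real.norm_of_nonneg (by positivity)]
    ring
  · refine IsBigO.trans (IsBigO.of_bound CL ?_) hDg
    filter_upwards [hD0, hS] with m h1 h2
    refine (hLU m h1 h2).2.2.trans (le_of_eq ?_)
    rw [Real.norm_of_nonneg (by positivity)]
    ring
  · filter_upwards [hD0, hS] with m h1 h2 using (hLU m h1 h2).1

/-- limits of `S` -/
theorem tendsto_S {A S : ℕ → E2 →L[ℝ] E2} {Ai : E2 →L[ℝ] E2} (hA : Tendsto A atTop (𝓝 Ai))
    (hu : IsUnit Ai) (hS : ∀ᶠ m in atTop, A m = S m * Ai) : Tendsto S atTop (𝓝 1) := by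
  obtain ⟨Au, rfl⟩ := hu
  have h1 : Tendsto (fun m => A m * (↑Au⁻¹ : E2 →L[ℝ] E2)) atTop (𝓝 ((Au : E2 →L[ℝ] E2) * ↑Au⁻¹)) :=
    hA.mul_const _
  rw [Units.mul_inv] at h1
  refine h1.congr' ?_
  filter_upwards [hS] with m hm
  rw [hm, mul_assoc, Units.mul_inv, mul_one]

theorem tendsto_inverse {A : ℕ → E2 →L[ℝ] E2} {Ai : E2 →L[ℝ] E2} (hA : Tendsto A atTop (𝓝 Ai))
    (hu : IsUnit Ai) : Tendsto (fun m => Ring.inverse (A m)) atTop (𝓝 (Ring.inverse Ai)) := by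
  obtain ⟨Au, rfl⟩ := hu
  exact (NormedRing.inverse_continuousAt Au).tendsto.comp hA

theorem eventually_isUnit {A : ℕ → E2 →L[ℝ] E2} {Ai : E2 →L[ℝ] E2}
    (hA : Tendsto A atTop (𝓝 Ai)) (hu : IsUnit Ai) : ∀ᶠ m in atTop, IsUnit (A m) := by
  obtain ⟨Au, rfl⟩ := hu
  exact hA.eventually (Units.nhds Au)

/-- the matrices: all the factors are near their limits -/
theorem near_all {g : ℕ → ℝ} (hg : Tendsto g atTop (𝓝 0))
    {J S S₁ S₂ A DΦ DΨ : ℕ → E2 →L[ℝ] E2} {Ai Xd Bm : E2 →L[ℝ] E2}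
    (hJ : J =O[atTop] g) (hS : Tendsto S atTop (𝓝 1)) (hS₁ : Near g S₁ 1) (hS₂ : Near g S₂ 1)
    (hA : Tendsto A atTop (𝓝 Ai)) (hAi : IsUnit Ai) (hDA : (fun m => DΦ m - A m) =O[atTop] g)
    (hDX : Near g DΨ Xd) (hXd : IsUnit Xd) (hB : Bm * Xd = Ai) :
    Near g (fun m => Ring.inverse (1 + J m) * S₁ m * (1 + Ring.inverse (S m) * J m * S m)
      * (Ai * (Ring.inverse (A m) * DΦ m) * Ring.inverse (DΨ m)) * S₂ m) Bm := by
  obtain ⟨Xu, rfl⟩ := hXd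
  have hAinv := tendsto_inverse hA hAi
  have hAunit := eventually_isUnit hA hAi
  have hSinv := tendsto_inverse hS isUnit_one
  rw [Ring.inverse_one] at hSinv
  have h1J : Near g (fun m => 1 + J m) ((1 : (E2 →L[ℝ] E2)ˣ) : E2 →L[ℝ] E2) := Near.one_add hJ
  have h1Ji := h1J.inverse hg
  rw [inv_one, Units.val_one] at h1Ji
  have hJ' : (fun m => Ring.inverse (S m) * J m * S m) =O[atTop] g := by
    have e1 := (hSinv.isBigO_one ℝ).mul hJ
    have e2 := e1.mul (hS.isBigO_one ℝ)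
    simpa only [one_mul, mul_one] using e2
  have h1J' : Near g (fun m => 1 + Ring.inverse (S m) * J m * S m) 1 := Near.one_add hJ'
  have hDXi := hDX.inverse hg
  have hAD : Near g (fun m => Ring.inverse (A m) * DΦ m) 1 := by
    have e1 := (hAinv.isBigO_one ℝ).mul hDA
    simp only [one_mul] at e1
    refine IsBigO.congr' e1 ?_ EventuallyEq.rfl
    filter_upwards [hAunit] with m hm
    rw [mul_sub, Ring.inverse_mul_cancel _ hm]
  have hB' : Near g (fun m => Ai * (Ring.inverse (A m) * DΦ m) * Ring.inverse (DΨ m))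
      (Ai * 1 * ↑Xu⁻¹) := ((Near.const Ai).mul hg hAD).mul hg hDXi
  have hBk : Bm = Ai * 1 * ↑Xu⁻¹ := by
    rw [mul_one, ← hB, mul_assoc, Units.mul_inv, mul_one]
  have e1 := ((((h1Ji.mul hg hS₁).mul hg h1J').mul hg hB').mul hg hS₂)
  rw [one_mul, one_mul, one_mul, mul_one, ← hBk] at e1
  exact e1

/-- **The closing formula**, abstract form. -/
theorem closing_abs {N : NF} (hN : N.OK) {l c χ r ε : ℝ} (hl : 0 < l) (hc : 0 < c) (hχ : c < χ)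
    (hr : c < r) (hε : ε ≤ 1)
    {w : ℕ → E2} {DΦ DΨ A S D DG M Rm : ℕ → E2 →L[ℝ] E2} {Ai Xd Bm : E2 →L[ℝ] E2}
    (hw : w =O[atTop] fun m : ℕ => Real.exp (-χ * l * m))
    (hDA : (fun m => DΦ m - A m) =O[atTop] (fun m : ℕ => Real.exp (-c * l * m)))
    (hDX : Near (fun m : ℕ => Real.exp (-c * l * m)) DΨ Xd) (hXd : IsUnit Xd)
    (hA : Tendsto A atTop (𝓝 Ai)) (hAi : IsUnit Ai)
    (hD : D =O[atTop] fun m : ℕ => Real.exp (-r * l * m))
    (hS : ∀ᶠ m : ℕ in atTop, A m = S m * Ai ∧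
      N.Lam ^ ⌊ε * m⌋₊ * S m = (1 + D m) * N.Lam ^ ⌊ε * m⌋₊)
    (hB : Bm * Xd = Ai)
    (hder : ∀ᶠ m in atTop, DΨ m = fderiv ℝ (N.fn^[m]) (w m) * (DΦ m * DG m) ∧
      Rm m * M m = DG m * Rm m)
    (hR : ∀ᶠ m in atTop, IsUnit (Rm m)) :
    ∃ (E : ℕ → E2 →L[ℝ] E2) (P : ℕ → E2 ≃L[ℝ] E2),
      E =O[atTop] (fun m : ℕ => Real.exp (-c * l * m)) ∧
      ∀ᶠ m in atTop, (fderiv ℝ (N.fn^[m]) (w m) * (Bm + E m)) * ((P m : E2 →L[ℝ] E2) * M m)
        = (P m : E2 →L[ℝ] E2) := by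
  have hg : Tendsto (fun m : ℕ => Real.exp (-c * l * m)) atTop (𝓝 0) := exp_tendsto hl hc
  obtain ⟨J, hJ, hJe⟩ := exists_J hN hl (hc.trans hχ) hχ hw
  obtain ⟨S₁, S₂, hS₁, hS₂, hLU⟩ := exists_LU hN hl hc hr hε hD (hS.mono fun m hm => hm.2)
  have hSt := tendsto_S hA hAi (hS.mono fun m hm => hm.1)
  have hall := near_all hg hJ hSt hS₁ hS₂ hA hAi hDA hDX hXd hB
  have hJu : ∀ᶠ m in atTop, IsUnit (1 + J m) := by
    have h1 : Tendsto (fun m => 1 + J m) atTop (𝓝 1) := (Near.one_add hJ).tendsto hg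
    exact eventually_isUnit h1 isUnit_one
  have hS₂u := eventually_isUnit (hS₂.tendsto hg) isUnit_one
  have hSu := eventually_isUnit hSt isUnit_one
  have hAu := eventually_isUnit hA hAi
  have hΨu := eventually_isUnit (hDX.tendsto hg) hXd
  have hfin : ∀ᶠ m in atTop, ∃ P : E2 ≃L[ℝ] E2, (fderiv ℝ (N.fn^[m]) (w m) * (Bm
      + (Ring.inverse (1 + J m) * S₁ m * (1 + Ring.inverse (S m) * J m * S m)
      * (Ai * (Ring.inverse (A m) * DΦ m) * Ring.inverse (DΨ m)) * S₂ m - Bm)))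
        * ((P : E2 →L[ℝ] E2) * M m) = (P : E2 →L[ℝ] E2) := by
    filter_upwards [hJe, hLU, hJu, hS₂u, hSu, hAu, hΨu, hS, hder, hR] with m hJe hLU hJu hS₂u hSu
      hAu hΨu hS hder hR
    have h1 := Ring.inverse_mul_cancel _ hS₂u
    have h1' := Ring.mul_inverse_cancel _ hS₂u
    have e3 := alg1 (DΦ := DΦ m) (iΨ := Ring.inverse (DΨ m)) hS.1 (Ring.mul_inverse_cancel _ hAu)
      (Ring.mul_inverse_cancel _ hSu) (Ring.mul_inverse_cancel _ hJu) hJe hLU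
    have e6 := alg2 (Ring.inverse_mul_cancel _ hΨu) hder.1 hder.2
    have hPu : IsUnit (Ring.inverse (S₂ m) * (DΨ m * Rm m)) := by
      refine IsUnit.mul ?_ (hΨu.mul hR)
      obtain ⟨s, hs⟩ := hS₂u
      rw [← hs, Ring.inverse_unit]
      exact Units.isUnit _
    obtain ⟨P, hP⟩ := exists_equiv hPu
    refine ⟨P, ?_⟩
    have h8 := conj_form h1 h1' e3 hP e6
    rw [add_sub_cancel]
    exact h8
  classical
  refine ⟨fun m => Ring.inverse (1 + J m) * S₁ m * (1 + Ring.inverse (S m) * J m * S m)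
      * (Ai * (Ring.inverse (A m) * DΦ m) * Ring.inverse (DΨ m)) * S₂ m - Bm,
    fun m => if h : _ then Exists.choose (p := fun P : E2 ≃L[ℝ] E2 =>
      (fderiv ℝ (N.fn^[m]) (w m) * (Bm
      + (Ring.inverse (1 + J m) * S₁ m * (1 + Ring.inverse (S m) * J m * S m)
      * (Ai * (Ring.inverse (A m) * DΦ m) * Ring.inverse (DΨ m)) * S₂ m - Bm)))
        * ((P : E2 →L[ℝ] E2) * M m) = (P : E2 →L[ℝ] E2)) h
      else ContinuousLinearEquiv.refl ℝ E2, hall, ?_⟩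
  filter_upwards [hfin] with m hm
  simp only [dif_pos hm]
  exact hm.choose_spec

end Vale.Agent.P207.N3.H790
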