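import Mathlib

/-! Chain rule with isolated top order term, in the form of an estimate. -/

open Set Filter Topology Metric
open scoped ContDiff Nat

noncomputable section

namespace Vale.Agent.P207.N3.H790

/-- constants of the chain rule -/
def Cch : ℕ → ℝ → ℝ
  | 0, _ => 0
  | n + 1, D => D * Cch n D
      + ∑ i ∈ Finset.range n, (n.choose i : ℝ) * (i ! * D ^ i) * D ^ (n - i + 1)

theorem Cch_nonneg (n : ℕ) {D : ℝ} (hD : 0 ≤ D) : 0 ≤ Cch n D := by
  induction n with
  | zero => exact le_refl 0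
  | succ n ih =>
    have : 0 ≤ ∑ i ∈ Finset.range n, (n.choose i : ℝ) * (i ! * D ^ i) * D ^ (n - i + 1) :=
      Finset.sum_nonneg fun i _ => by positivity
    simp only [Cch]
    positivity

/-- top order term isolated, version within sets -/
theorem chain_within {E F : Type} [NormedAddCommGroup E] [NormedSpace ℝ E]
    [NormedAddCommGroup F] [NormedSpace ℝ F] {f : E → F} {s : Set E} {t : Set F} {x : E}
    (hf : ContDiffOn ℝ ∞ f s) (ht : UniqueDiffOn ℝ t) (hs : UniqueDiffOn ℝ s)
    (hst : MapsTo f s t) (hx : x ∈ s) {θ D : ℝ} (hθ : ‖fderivWithin ℝ f s x‖ ≤ θ) (hθD : θ ≤ D)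
    (n : ℕ) (hD : ∀ i, 1 ≤ i → i ≤ n → ‖iteratedFDerivWithin ℝ i f s x‖ ≤ D ^ i) :
    ∀ {G : Type} [NormedAddCommGroup G] [NormedSpace ℝ G] (g : F → G), ContDiffOn ℝ ∞ g t →
      ‖iteratedFDerivWithin ℝ n (g ∘ f) s x‖ ≤ θ ^ n * ‖iteratedFDerivWithin ℝ n g t (f x)‖
        + Cch n D * ∑ i ∈ Finset.range n, ‖iteratedFDerivWithin ℝ i g t (f x)‖ := by
  have hθ0 : 0 ≤ θ := (norm_nonneg _).trans hθ
  have hD0 : 0 ≤ D := hθ0.trans hθD
  induction n with
  | zero =>
    intro G _ _ g hg
    simp [Cch]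
  | succ n IH =>
    intro G _ _ g hg
    have hg' : ContDiffOn ℝ ∞ (fderivWithin ℝ g t) t := hg.fderivWithin ht (by simp)
    have hf' : ContDiffOn ℝ ∞ (fderivWithin ℝ f s) s := hf.fderivWithin hs (by simp)
    set S : ℝ := ∑ i ∈ Finset.range (n + 1), ‖iteratedFDerivWithin ℝ i g t (f x)‖ with hS
    have hS0 : 0 ≤ S := Finset.sum_nonneg fun i _ => norm_nonneg _
    have shift : ∀ j : ℕ, ‖iteratedFDerivWithin ℝ j (fderivWithin ℝ g t) t (f x)‖ =
        ‖iteratedFDerivWithin ℝ (j + 1) g t (f x)‖ := by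
      intro j
      rw [iteratedFDerivWithin_succ_eq_comp_right ht (hst hx), Function.comp_apply,
        LinearIsometryEquiv.norm_map]
    have shiftf : ∀ j : ℕ, ‖iteratedFDerivWithin ℝ j (fderivWithin ℝ f s) s x‖ =
        ‖iteratedFDerivWithin ℝ (j + 1) f s x‖ := by
      intro j
      rw [iteratedFDerivWithin_succ_eq_comp_right hs hx, Function.comp_apply,
        LinearIsometryEquiv.norm_map]
    have leS : ∀ j : ℕ, j ≤ n → ‖iteratedFDerivWithin ℝ j g t (f x)‖ ≤ S := by
      intro j hj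
      exact Finset.single_le_sum (f := fun i => ‖iteratedFDerivWithin ℝ i g t (f x)‖)
        (fun i _ => norm_nonneg _) (Finset.mem_range.2 (by omega))
    -- the top term
    have top := IH (fun i h1 h2 => hD i h1 (by omega)) (fderivWithin ℝ g t) hg'
    have hsum : ∑ i ∈ Finset.range n, ‖iteratedFDerivWithin ℝ i (fderivWithin ℝ g t) t (f x)‖
        ≤ S := by
      rw [hS, Finset.sum_range_succ']
      have : ∑ i ∈ Finset.range n, ‖iteratedFDerivWithin ℝ i (fderivWithin ℝ g t) t (f x)‖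
          = ∑ i ∈ Finset.range n, ‖iteratedFDerivWithin ℝ (i + 1) g t (f x)‖ :=
        Finset.sum_congr rfl fun i _ => shift i
      rw [this]
      exact le_add_of_nonneg_right (norm_nonneg _)
    have top' : ‖iteratedFDerivWithin ℝ n (fderivWithin ℝ g t ∘ f) s x‖
        ≤ θ ^ n * ‖iteratedFDerivWithin ℝ (n + 1) g t (f x)‖ + Cch n D * S := by
      rw [shift n] at top
      refine top.trans ?_
      gcongr
      exact Cch_nonneg n hD0
    -- the lower terms
    have low : ∀ i ∈ Finset.range n, ‖iteratedFDerivWithin ℝ i (fderivWithin ℝ g t ∘ f) s x‖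
        ≤ i ! * S * D ^ i := by
      intro i hi
      have hin : i < n := Finset.mem_range.1 hi
      refine norm_iteratedFDerivWithin_comp_le (N := ∞) hg' hf (by exact_mod_cast le_top) ht hs
        hst hx (fun j hj => ?_) (fun j h1 h2 => hD j h1 (by omega))
      rw [shift j]
      exact leS (j + 1) (by omega)
    have J : ∀ i, i ≤ n → ‖iteratedFDerivWithin ℝ (n - i) (fderivWithin ℝ f s) s x‖
        ≤ D ^ (n - i + 1) := by
      intro i hi
      rw [shiftf]
      exact hD _ (by omega) (by omega)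
    have J0 : ‖iteratedFDerivWithin ℝ (n - n) (fderivWithin ℝ f s) s x‖ ≤ θ := by
      rw [Nat.sub_self, norm_iteratedFDerivWithin_zero]
      exact hθ
    have main : ‖iteratedFDerivWithin ℝ (n + 1) (g ∘ f) s x‖ ≤
        ∑ i ∈ Finset.range (n + 1),
          (n.choose i : ℝ) * ‖iteratedFDerivWithin ℝ i (fderivWithin ℝ g t ∘ f) s x‖ *
            ‖iteratedFDerivWithin ℝ (n - i) (fderivWithin ℝ f s) s x‖ := by
      have e1 : ‖iteratedFDerivWithin ℝ (n + 1) (g ∘ f) s x‖ =
          ‖iteratedFDerivWithin ℝ n (fun y : E => fderivWithin ℝ (g ∘ f) s y) s x‖ := by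
        rw [iteratedFDerivWithin_succ_eq_comp_right hs hx, Function.comp_apply,
          LinearIsometryEquiv.norm_map]
      have e2 : iteratedFDerivWithin ℝ n (fun y : E => fderivWithin ℝ (g ∘ f) s y) s x =
          iteratedFDerivWithin ℝ n (fun y : E => ContinuousLinearMap.compL ℝ E F G
            (fderivWithin ℝ g t (f y)) (fderivWithin ℝ f s y)) s x := by
        refine iteratedFDerivWithin_congr (fun y hy => ?_) hx _
        apply fderivWithin_comp _ _ _ hst (hs y hy)
        · exact hg.differentiableOn (by simp) _ (hst hy)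
        · exact hf.differentiableOn (by simp) _ hy
      rw [e1, e2]
      exact (ContinuousLinearMap.compL ℝ E F G).norm_iteratedFDerivWithin_le_of_bilinear_of_le_one
        (N := ∞) (hg'.comp hf hst) hf' hs hx (by exact_mod_cast le_top)
        (ContinuousLinearMap.norm_compL_le ℝ E F G)
    refine main.trans ?_
    rw [Finset.sum_range_succ]
    have h1 : (n.choose n : ℝ) * ‖iteratedFDerivWithin ℝ n (fderivWithin ℝ g t ∘ f) s x‖ *
            ‖iteratedFDerivWithin ℝ (n - n) (fderivWithin ℝ f s) s x‖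
        ≤ (θ ^ n * ‖iteratedFDerivWithin ℝ (n + 1) g t (f x)‖ + Cch n D * S) * θ := by
      rw [Nat.choose_self, Nat.cast_one, one_mul]
      have : 0 ≤ θ ^ n * ‖iteratedFDerivWithin ℝ (n + 1) g t (f x)‖ + Cch n D * S :=
        (norm_nonneg _).trans top'
      exact mul_le_mul top' J0 (norm_nonneg _) this
    have h2 : ∑ i ∈ Finset.range n,
          (n.choose i : ℝ) * ‖iteratedFDerivWithin ℝ i (fderivWithin ℝ g t ∘ f) s x‖ *
            ‖iteratedFDerivWithin ℝ (n - i) (fderivWithin ℝ f s) s x‖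
        ≤ (∑ i ∈ Finset.range n, (n.choose i : ℝ) * (i ! * D ^ i) * D ^ (n - i + 1)) * S := by
      rw [Finset.sum_mul]
      refine Finset.sum_le_sum fun i hi => ?_
      have hin : i < n := Finset.mem_range.1 hi
      calc (n.choose i : ℝ) * ‖iteratedFDerivWithin ℝ i (fderivWithin ℝ g t ∘ f) s x‖ *
            ‖iteratedFDerivWithin ℝ (n - i) (fderivWithin ℝ f s) s x‖
          ≤ (n.choose i : ℝ) * (i ! * S * D ^ i) * D ^ (n - i + 1) := by
            gcongr
            · exact low i hi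
            · exact J i hin.le
        _ = (n.choose i : ℝ) * (i ! * D ^ i) * D ^ (n - i + 1) * S := by ring
    have h3 : Cch n D * S * θ ≤ D * Cch n D * S := by
      have := Cch_nonneg n hD0
      calc Cch n D * S * θ ≤ Cch n D * S * D := by gcongr
        _ = D * Cch n D * S := by ring
    calc _ ≤ (∑ i ∈ Finset.range n, (n.choose i : ℝ) * (i ! * D ^ i) * D ^ (n - i + 1)) * S
          + (θ ^ n * ‖iteratedFDerivWithin ℝ (n + 1) g t (f x)‖ + Cch n D * S) * θ :=
          add_le_add h2 h1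
      _ ≤ θ ^ (n + 1) * ‖iteratedFDerivWithin ℝ (n + 1) g t (f x)‖ + Cch (n + 1) D * S := by
          simp only [Cch]
          rw [pow_succ]
          nlinarith [h3]

/-- top order term isolated, on open sets -/
theorem chain_open {E F G : Type} [NormedAddCommGroup E] [NormedSpace ℝ E]
    [NormedAddCommGroup F] [NormedSpace ℝ F] [NormedAddCommGroup G] [NormedSpace ℝ G]
    {f : E → F} {g : F → G} {U : Set E} {V : Set F} {x : E} (hU : IsOpen U) (hV : IsOpen V)
    (hf : ContDiffOn ℝ ∞ f U) (hg : ContDiffOn ℝ ∞ g V) (hm : MapsTo f U V) (hx : x ∈ U)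
    {θ D : ℝ} (hθ : ‖fderiv ℝ f x‖ ≤ θ) (hθD : θ ≤ D) (n : ℕ)
    (hD : ∀ i, 1 ≤ i → i ≤ n → ‖iteratedFDeriv ℝ i f x‖ ≤ D ^ i) :
    ‖iteratedFDeriv ℝ n (fun y => g (f y)) x‖ ≤ θ ^ n * ‖iteratedFDeriv ℝ n g (f x)‖
      + Cch n D * ∑ i ∈ Finset.range n, ‖iteratedFDeriv ℝ i g (f x)‖ := by
  have h := chain_within hf hV.uniqueDiffOn hU.uniqueDiffOn hm hx (θ := θ) (D := D)
    (by rw [fderivWithin_of_isOpen hU hx]; exact hθ) hθD n
    (fun i h1 h2 => by rw [iteratedFDerivWithin_of_isOpen i hU hx]; exact hD i h1 h2) g hg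
  rw [iteratedFDerivWithin_of_isOpen n hU hx, iteratedFDerivWithin_of_isOpen n hV (hm hx)] at h
  refine h.trans (le_of_eq ?_)
  congr 2
  exact Finset.sum_congr rfl fun i _ => by rw [iteratedFDerivWithin_of_isOpen i hV (hm hx)]

end Vale.Agent.P207.N3.H790
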