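import Vale.Agent.P207.N3.Top.Ret
import Vale.Agent.P207.N3.H147.Axis
import Vale.Agent.P207.N3.H790.NFdyn

/-! Charts of one leaf: images, domains, transition maps, the contraction of the return map. -/

open Set Filter Topology Metric MeasureTheory
open scoped ContDiff

noncomputable section

namespace Vale.Agent.P207.N3.H790

variable {Γ X B : Type} [Group Γ] [MetricSpace X] [ProperSpace X] [MulAction Γ X]
  [IsIsometricSMul Γ X] [TopologicalSpace B] [CompactSpace B] [T2Space B] [MulAction Γ B]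
  [ContinuousConstSMul Γ B]

section charts

variable (L : Leaf Γ X B)

theorem img_open (x : X) : IsOpen (L.e x '' ball 0 3) := by
  have h : L.e x '' ball 0 3
      = (fun b : B => (x, b)) ⁻¹' {p : X × B | p.2 ∈ L.e p.1 '' ball 0 3} := rfl
  rw [h]
  exact L.e_open.preimage (by fun_prop)

theorem e_contOn (x : X) : ContinuousOn (L.e x) (closedBall 0 3) :=
  L.e_cont.comp (f := fun u : E2 => (x, u)) (by fun_prop) (fun _ hu => ⟨mem_univ _, hu⟩)

theorem dm_open (x y : X) : IsOpen (L.dm x y) := by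
  have h : L.dm x y = ball 0 3 ∩ L.e x ⁻¹' (L.e y '' ball 0 3) := rfl
  rw [h]
  exact ((e_contOn L x).mono ball_subset_closedBall).isOpen_inter_preimage isOpen_ball
    (img_open L y)

theorem e_image_open (x : X) {U : Set E2} (hU : IsOpen U) (hU3 : U ⊆ ball 0 3) :
    IsOpen (L.e x '' U) := by
  have h1 : IsCompact (closedBall (0 : E2) 3 \ U) := (isCompact_closedBall _ _).diff hU
  have h2 : IsClosed (L.e x '' (closedBall (0 : E2) 3 \ U)) :=
    (h1.image_of_continuousOn ((e_contOn L x).mono sdiff_subset)).isClosed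
  have h3 : L.e x '' U = L.e x '' ball 0 3 \ L.e x '' (closedBall (0 : E2) 3 \ U) := by
    ext b
    constructor
    · rintro ⟨u, hu, rfl⟩
      refine ⟨⟨u, hU3 hu, rfl⟩, ?_⟩
      rintro ⟨v, ⟨hv, hvU⟩, hvu⟩
      have := L.e_inj x hv (ball_subset_closedBall (hU3 hu)) hvu
      exact hvU (this ▸ hu)
    · rintro ⟨⟨u, hu, rfl⟩, h⟩
      by_contra h'
      exact h ⟨u, ⟨ball_subset_closedBall hu, fun hu' => h' ⟨u, hu', rfl⟩⟩, rfl⟩
  rw [h3]
  exact (img_open L x).sdiff h2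

variable {L}

theorem τ_eq {x y : X} {u w : E2} (hw : w ∈ closedBall (0 : E2) 3) (h : L.e y w = L.e x u) :
    L.τ x y u = w := by
  change Function.invFunOn (L.e y) (closedBall (0 : E2) 3) (L.e x u) = w
  rw [← h]
  exact (L.e_inj y).leftInvOn_invFunOn hw

theorem τ_spec {x y : X} {u : E2} (hu : u ∈ L.dm x y) :
    L.τ x y u ∈ ball (0 : E2) 3 ∧ L.e y (L.τ x y u) = L.e x u := by
  obtain ⟨w, hw, hwu⟩ := hu.2
  rw [τ_eq (ball_subset_closedBall hw) hwu]
  exact ⟨hw, hwu⟩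

theorem τ_mem_dm {x y : X} {u : E2} (hu : u ∈ L.dm x y) : L.τ x y u ∈ L.dm y x := by
  obtain ⟨h1, h2⟩ := τ_spec hu
  exact ⟨h1, u, hu.1, h2.symm⟩

theorem τ_τ {x y : X} {u : E2} (hu : u ∈ L.dm x y) : L.τ y x (L.τ x y u) = u :=
  τ_eq (ball_subset_closedBall hu.1) (τ_spec hu).2.symm

theorem τ_contDiffAt {x y : X} (h : L.em x = L.em y) {u : E2} (hu : u ∈ L.dm x y) :
    ContDiffAt ℝ ∞ (L.τ x y) u :=
  (L.tau_smooth x y h).contDiffAt ((dm_open L x y).mem_nhds hu)

theorem det_ne_of_left {A A' : E2 →L[ℝ] E2} (h : A' ∘L A = ContinuousLinearMap.id ℝ E2) :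
    A.det ≠ 0 := by
  have h1 : LinearMap.det ((A' : E2 →ₗ[ℝ] E2) ∘ₗ (A : E2 →ₗ[ℝ] E2)) = 1 := by
    have : (A' : E2 →ₗ[ℝ] E2) ∘ₗ (A : E2 →ₗ[ℝ] E2) = LinearMap.id := by
      ext1 v
      exact congrArg (fun f : E2 →L[ℝ] E2 => f v) h
    rw [this, LinearMap.det_id]
  rw [LinearMap.det_comp] at h1
  exact right_ne_zero_of_mul_eq_one h1

theorem inj_of_left {A A' : E2 →L[ℝ] E2} (h : A' ∘L A = ContinuousLinearMap.id ℝ E2) {v : E2}
    (hv : A v = 0) : v = 0 := by
  have : A' (A v) = v := congrArg (fun f : E2 →L[ℝ] E2 => f v) h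
  rw [← this, hv, map_zero]

theorem left_inv_deriv {f g : E2 → E2} {u : E2} (hf : DifferentiableAt ℝ f u)
    (hg : DifferentiableAt ℝ g (f u)) (h : ∀ᶠ x in 𝓝 u, g (f x) = x) :
    (fderiv ℝ g (f u)) ∘L (fderiv ℝ f u) = ContinuousLinearMap.id ℝ E2 := by
  have h1 := hg.hasFDerivAt.comp u hf.hasFDerivAt
  have h2 : HasFDerivAt (fun x : E2 => x)
      ((fderiv ℝ g (f u)) ∘L (fderiv ℝ f u)) u :=
    h1.congr_of_eventuallyEq (h.mono fun x hx => hx.symm)
  exact h2.unique (hasFDerivAt_id u)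

theorem τ_left {x y : X} (h : L.em x = L.em y) {u : E2} (hu : u ∈ L.dm x y) :
    (fderiv ℝ (L.τ y x) (L.τ x y u)) ∘L (fderiv ℝ (L.τ x y) u)
      = ContinuousLinearMap.id ℝ E2 := by
  refine left_inv_deriv ((τ_contDiffAt h hu).differentiableAt (by simp))
    ((τ_contDiffAt h.symm (τ_mem_dm hu)).differentiableAt (by simp)) ?_
  filter_upwards [(dm_open L x y).mem_nhds hu] with v hv using τ_τ hv

theorem τ_det {x y : X} (h : L.em x = L.em y) {u : E2} (hu : u ∈ L.dm x y) :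
    (fderiv ℝ (L.τ x y) u).det ≠ 0 := det_ne_of_left (τ_left h hu)

end charts

section ret

variable {L : Leaf Γ X B} (o : Orb L)

theorem ret_iter (n : ℕ) : ∀ᶠ u in 𝓝 (0 : E2), o.ret^[n] u ∈ ball (0 : E2) 3 ∧
    L.e o.x (o.ret^[n] u) = o.β ^ n • L.e o.x u := by
  induction n with
  | zero =>
    filter_upwards [ball_mem_nhds (0 : E2) (by norm_num : (0 : ℝ) < 3)] with u hu
    simpa using hu
  | succ n ih =>
    have h1 : ContinuousAt (o.ret^[n]) 0 := by
      have hd := o.ret_contDiffAt.differentiableAt (by simp)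
      exact (hd.hasFDerivAt.iterate o.ret_zero n).continuousAt
    have h2 : o.ret^[n] 0 = 0 := Function.iterate_fixed o.ret_zero n
    have h3 : ∀ᶠ u in 𝓝 (0 : E2), o.ret^[n] u ∈ L.dm (o.β • o.x) o.x := by
      refine h1 ?_
      rw [h2]
      exact o.dm_nhds
    filter_upwards [ih, h3] with u hu hu3
    rw [Function.iterate_succ_apply']
    refine ⟨(τ_spec hu3).1, ?_⟩
    rw [o.e_ret hu3, hu.2, pow_succ', mul_smul]

/-- the iterates of the derivative of the return map contract -/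
theorem ret_contract : ∃ n : ℕ, ‖(fderiv ℝ o.ret 0) ^ n‖ < 1 := by
  obtain ⟨C, hC⟩ := L.contract 1 le_rfl
  have hl := o.ax.pos
  have hlim : Tendsto (fun n : ℕ => C * Real.exp (-L.χ * (n * o.l))) atTop (𝓝 0) := by
    have h1 : Tendsto (fun m : ℕ => L.χ * o.l * (m : ℝ)) atTop atTop :=
      tendsto_natCast_atTop_atTop.const_mul_atTop (mul_pos L.χ_pos hl)
    have h2 := (Real.tendsto_exp_neg_atTop_nhds_zero.comp h1).const_mul C
    rw [mul_zero] at h2
    refine h2.congr fun m => ?_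
    simp only [Function.comp_apply]
    congr 2
    ring
  have hlarge : ∀ᶠ n : ℕ in atTop, L.t1 ≤ n * o.l := by
    have h1 : Tendsto (fun m : ℕ => (m : ℝ) * o.l) atTop atTop :=
      tendsto_natCast_atTop_atTop.atTop_mul_const hl
    exact h1.eventually_ge_atTop _
  obtain ⟨n, hn1, hn2⟩ := ((hlim.eventually (gt_mem_nhds zero_lt_one)).and hlarge).exists
  refine ⟨n, ?_⟩
  set t : ℝ := n * o.l with ht
  set b : O2 := o.a ^ n with hb
  have hem : L.em (L.φ t o.x) = L.em o.x := L.em_φ _ _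
  have h0 : (0 : E2) ∈ L.dm (L.φ t o.x) o.x := by
    refine ⟨by simp, 0, by simp, ?_⟩
    rw [L.e_zero, L.e_zero, Orb.ep_φ']
  have hpow : o.β ^ n • o.x = L.rot b (L.φ t o.x) := by
    rw [H147.Ax.pow_smul o.ax n, L.rot_φ]
  have hev : o.ret^[n] =ᶠ[𝓝 0] fun u => L.τ (L.φ t o.x) o.x (b u) := by
    filter_upwards [ret_iter o n, ball_mem_nhds (0 : E2) (by norm_num : (0 : ℝ) < 3)] with u hu hu3
    refine (τ_eq (ball_subset_closedBall hu.1) ?_).symm
    rw [hu.2, ← L.e_smul _ _ _ (ball_subset_closedBall hu3), hpow,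
      L.e_rot _ _ _ (ball_subset_closedBall hu3)]
  have hd1 : HasFDerivAt (o.ret^[n]) ((fderiv ℝ o.ret 0) ^ n) 0 :=
    (o.ret_contDiffAt.differentiableAt (by simp)).hasFDerivAt.iterate o.ret_zero n
  have hd2 : HasFDerivAt (L.τ (L.φ t o.x) o.x) (fderiv ℝ (L.τ (L.φ t o.x) o.x) 0) (b 0) := by
    rw [map_zero]
    exact ((τ_contDiffAt hem h0).differentiableAt (by simp)).hasFDerivAt
  have hd3 : HasFDerivAt (fun u => L.τ (L.φ t o.x) o.x (b u))
      ((fderiv ℝ (L.τ (L.φ t o.x) o.x) 0) ∘L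
        (b.toContinuousLinearEquiv : E2 →L[ℝ] E2)) 0 :=
    hd2.comp (0 : E2) (b.toContinuousLinearEquiv.hasFDerivAt)
  have he := hd1.unique (hd3.congr_of_eventuallyEq hev)
  have hτ : ‖fderiv ℝ (L.τ (L.φ t o.x) o.x) 0‖ ≤ C * Real.exp (-L.χ * t) := by
    have := hC o.x t hn2 0 (by simp)
    rwa [norm_iteratedFDeriv_one] at this
  rw [he]
  refine lt_of_le_of_lt (ContinuousLinearMap.opNorm_comp_le _ _) ?_
  have hb1 : ‖(b.toContinuousLinearEquiv : E2 →L[ℝ] E2)‖ ≤ 1 :=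
    ContinuousLinearMap.opNorm_le_bound _ zero_le_one fun v => by
      rw [one_mul]
      exact (b.norm_map v).le
  calc _ ≤ (C * Real.exp (-L.χ * t)) * 1 :=
        mul_le_mul hτ hb1 (norm_nonneg _) ((norm_nonneg _).trans hτ)
    _ < 1 := by rwa [mul_one]

theorem ret_inj {v : E2} (hv : fderiv ℝ o.ret 0 v = 0) : v = 0 := by
  have hem : L.em (o.β • o.x) = L.em o.x := by
    rw [L.em_smul]
    exact o.smul_neg
  exact inj_of_left (τ_left hem o.dm_nhds.self_of_nhds) hv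

end ret

end Vale.Agent.P207.N3.H790
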