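import Vale.Agent.P207.N3.H790.Chain
import Vale.Agent.P207.N3.H790.Taylor

/-! Flat functions under the iteration of a contraction, smooth sums. -/

open Set Filter Topology Metric
open scoped ContDiff Nat

noncomputable section

namespace Vale.Agent.P207.N3.H790

variable {E : Type} [NormedAddCommGroup E] [NormedSpace ℝ E]

/-- bounded derivatives of all orders on a set -/
def BD {W : Type} [NormedAddCommGroup W] [NormedSpace ℝ W] (g : E → W) (U : Set E) : Prop :=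
  ∀ k : ℕ, ∃ M, ∀ x ∈ U, ‖iteratedFDeriv ℝ k g x‖ ≤ M

theorem norm_map_le {F : E → E} {r θ : ℝ} (hF : ContDiffOn ℝ ∞ F (ball 0 r)) (hF0 : F 0 = 0)
    (hFθ : ∀ x ∈ ball (0 : E) r, ‖fderiv ℝ F x‖ ≤ θ) {x : E} (hx : x ∈ ball (0 : E) r) :
    ‖F x‖ ≤ θ * ‖x‖ := by
  have hr : 0 < r := (norm_nonneg x).trans_lt (mem_ball_zero_iff.1 hx)
  have := (convex_ball (0 : E) r).norm_image_sub_le_of_norm_fderiv_le
    (fun y hy => (hF.contDiffAt (isOpen_ball.mem_nhds hy)).differentiableAt (by simp)) hFθ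
    (mem_ball_self hr) hx
  simpa [hF0] using this

theorem mapsTo_ball {F : E → E} {r θ : ℝ} (hF : ContDiffOn ℝ ∞ F (ball 0 r)) (hF0 : F 0 = 0)
    (hFθ : ∀ x ∈ ball (0 : E) r, ‖fderiv ℝ F x‖ ≤ θ) (hθ1 : θ ≤ 1) :
    MapsTo F (ball 0 r) (ball 0 r) := by
  intro x hx
  have h1 := norm_map_le hF hF0 hFθ hx
  rw [mem_ball_zero_iff] at hx ⊢
  have : θ * ‖x‖ ≤ 1 * ‖x‖ := mul_le_mul_of_nonneg_right hθ1 (norm_nonneg _)
  linarith

theorem decay {W : Type} [NormedAddCommGroup W] [NormedSpace ℝ W] {F : E → E} {B : W →L[ℝ] W}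
    {e : ℕ → E → W} {r θ b σ : ℝ} {K : ℕ} (hr : 0 < r) (hr1 : r ≤ 1)
    (hF : ContDiffOn ℝ ∞ F (ball 0 r)) (hF0 : F 0 = 0)
    (hFθ : ∀ x ∈ ball (0 : E) r, ‖fderiv ℝ F x‖ ≤ θ) (hθ1 : θ ≤ 1)
    (hFM : BD F (ball (0 : E) r)) (hB : ‖B‖ ≤ b) (hσ : b * θ ^ K < σ)
    (he : ∀ n, ContDiffOn ℝ ∞ (e n) (ball 0 r))
    (hes : ∀ n, ∀ x ∈ ball (0 : E) r, e (n + 1) x = B (e n (F x)))
    (h0 : ∀ l, ∃ M, 0 ≤ M ∧ ∀ x ∈ ball (0 : E) r, ‖iteratedFDeriv ℝ l (e 0) x‖
      ≤ M * ‖x‖ ^ (K - l)) :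
    ∀ l, ∃ C, 0 ≤ C ∧ ∀ n, ∀ x ∈ ball (0 : E) r, ‖iteratedFDeriv ℝ l (e n) x‖
      ≤ C * σ ^ n * ‖x‖ ^ (K - l) := by
  have hθ0 : 0 ≤ θ := (norm_nonneg _).trans (hFθ 0 (mem_ball_self hr))
  have hb0 : 0 ≤ b := (norm_nonneg _).trans hB
  have hσ0 : 0 < σ := (mul_nonneg hb0 (pow_nonneg hθ0 _)).trans_lt hσ
  have hmap := mapsTo_ball hF hF0 hFθ hθ1
  choose MF hMF using hFM
  have hMF0 : ∀ k, 0 ≤ MF k := fun k =>
    (norm_nonneg _).trans (hMF k 0 (mem_ball_self hr))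
  intro l
  induction l using Nat.strong_induction_on with
  | _ l ih =>
    obtain ⟨M0, hM00, hM0⟩ := h0 l
    -- constants of lower order
    obtain ⟨S, hS0, hS⟩ : ∃ S, 0 ≤ S ∧ ∀ n, ∀ x ∈ ball (0 : E) r,
        ∑ i ∈ Finset.range l, ‖iteratedFDeriv ℝ i (e n) (F x)‖ ≤ S * σ ^ n * ‖x‖ ^ (K - l) := by
      choose! C hC0 hC using ih
      refine ⟨∑ i ∈ Finset.range l, C i, Finset.sum_nonneg fun i hi =>
        hC0 i (Finset.mem_range.1 hi), ?_⟩
      intro n x hx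
      rw [Finset.sum_mul, Finset.sum_mul]
      refine Finset.sum_le_sum fun i hi => ?_
      have hi' := Finset.mem_range.1 hi
      refine (hC i hi' n (F x) (hmap hx)).trans ?_
      have h1 : ‖F x‖ ≤ ‖x‖ := (norm_map_le hF hF0 hFθ hx).trans
        (mul_le_of_le_one_left (norm_nonneg _) hθ1)
      have hx1 : ‖x‖ ≤ 1 := (mem_ball_zero_iff.1 hx).le.trans hr1
      have h2 : ‖F x‖ ^ (K - i) ≤ ‖x‖ ^ (K - l) :=
        (pow_le_pow_left₀ (norm_nonneg _) h1 _).trans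
          (pow_le_pow_of_le_one (norm_nonneg _) hx1 (by omega))
      have h3 : 0 ≤ C i * σ ^ n := mul_nonneg (hC0 i hi') (pow_nonneg hσ0.le _)
      exact mul_le_mul_of_nonneg_left h2 h3
    -- the constant D
    set D : ℝ := 1 + ∑ i ∈ Finset.range (l + 1), MF i with hD
    have hD1 : 1 ≤ D := by
      have : 0 ≤ ∑ i ∈ Finset.range (l + 1), MF i := Finset.sum_nonneg fun i _ => hMF0 i
      linarith
    have hDi : ∀ x ∈ ball (0 : E) r, ∀ i, 1 ≤ i → i ≤ l → ‖iteratedFDeriv ℝ i F x‖ ≤ D ^ i := by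
      intro x hx i h1 h2
      have h3 : MF i ≤ ∑ i ∈ Finset.range (l + 1), MF i :=
        Finset.single_le_sum (f := MF) (fun i _ => hMF0 i) (Finset.mem_range.2 (by omega))
      calc ‖iteratedFDeriv ℝ i F x‖ ≤ MF i := hMF i x hx
        _ ≤ D := by linarith
        _ ≤ D ^ i := le_self_pow₀ hD1 (by omega)
    have hCch := Cch_nonneg l (zero_le_one.trans hD1)
    set q : ℝ := b * θ ^ K with hq
    set A : ℝ := b * (Cch l D * S) with hA
    have hA0 : 0 ≤ A := mul_nonneg hb0 (mul_nonneg hCch hS0)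
    have hgap : 0 < σ - q := by linarith
    refine ⟨M0 + A / (σ - q), by positivity, ?_⟩
    have hC : q * (M0 + A / (σ - q)) + A ≤ σ * (M0 + A / (σ - q)) := by
      have h1 : (σ - q) * (A / (σ - q)) = A := mul_div_cancel₀ A hgap.ne'
      nlinarith [mul_nonneg hgap.le hM00]
    intro n
    induction n with
    | zero =>
      intro x hx
      refine (hM0 x hx).trans ?_
      have : 0 ≤ A / (σ - q) := by positivity
      have h2 : 0 ≤ ‖x‖ ^ (K - l) := by positivity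
      rw [pow_zero, mul_one]
      gcongr
      linarith
    | succ n ihn =>
      intro x hx
      have hev : e (n + 1) =ᶠ[𝓝 x] fun y => B (e n (F y)) := by
        filter_upwards [isOpen_ball.mem_nhds hx] with y hy using hes n y hy
      have hcomp : ContDiffOn ℝ ∞ (fun y => e n (F y)) (ball 0 r) := (he n).comp hF hmap
      have h1 : ‖iteratedFDeriv ℝ l (e (n + 1)) x‖
          ≤ b * ‖iteratedFDeriv ℝ l (fun y => e n (F y)) x‖ := by
        rw [(Filter.EventuallyEq.iteratedFDeriv ℝ hev l).eq_of_nhds]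
        have := B.norm_iteratedFDeriv_comp_left (N := ∞) (n := l)
          (hcomp.contDiffAt (isOpen_ball.mem_nhds hx)) (by exact_mod_cast le_top)
        refine this.trans ?_
        gcongr
      have h2 := chain_open isOpen_ball isOpen_ball hF (he n) hmap hx (hFθ x hx)
        (hθ1.trans hD1) l (hDi x hx)
      have h3 := ihn (F x) (hmap hx)
      have h4 := hS n x hx
      have h5 := norm_map_le hF hF0 hFθ hx
      have h6 : θ ^ l * ‖F x‖ ^ (K - l) ≤ θ ^ K * ‖x‖ ^ (K - l) := by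
        have e1 : ‖F x‖ ^ (K - l) ≤ (θ * ‖x‖) ^ (K - l) :=
          pow_le_pow_left₀ (norm_nonneg _) h5 _
        calc θ ^ l * ‖F x‖ ^ (K - l) ≤ θ ^ l * (θ * ‖x‖) ^ (K - l) := by gcongr
          _ = θ ^ (l + (K - l)) * ‖x‖ ^ (K - l) := by rw [mul_pow, pow_add]; ring
          _ ≤ θ ^ K * ‖x‖ ^ (K - l) := by
            have : θ ^ (l + (K - l)) ≤ θ ^ K := pow_le_pow_of_le_one hθ0 hθ1 (by omega)
            gcongr
      set Cc : ℝ := M0 + A / (σ - q) with hCc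
      have hCc0 : 0 ≤ Cc := by positivity
      have hσn : 0 ≤ σ ^ n := pow_nonneg hσ0.le _
      have hxp : 0 ≤ ‖x‖ ^ (K - l) := by positivity
      calc ‖iteratedFDeriv ℝ l (e (n + 1)) x‖
          ≤ b * ‖iteratedFDeriv ℝ l (fun y => e n (F y)) x‖ := h1
        _ ≤ b * (θ ^ l * ‖iteratedFDeriv ℝ l (e n) (F x)‖
            + Cch l D * ∑ i ∈ Finset.range l, ‖iteratedFDeriv ℝ i (e n) (F x)‖) := by gcongr
        _ ≤ b * (θ ^ l * (Cc * σ ^ n * ‖F x‖ ^ (K - l))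
            + Cch l D * (S * σ ^ n * ‖x‖ ^ (K - l))) := by gcongr
        _ = b * (Cc * σ ^ n * (θ ^ l * ‖F x‖ ^ (K - l)))
            + A * (σ ^ n * ‖x‖ ^ (K - l)) := by rw [hA]; ring
        _ ≤ b * (Cc * σ ^ n * (θ ^ K * ‖x‖ ^ (K - l)))
            + A * (σ ^ n * ‖x‖ ^ (K - l)) := by gcongr
        _ = (q * Cc + A) * (σ ^ n * ‖x‖ ^ (K - l)) := by rw [hq]; ring
        _ ≤ (σ * Cc) * (σ ^ n * ‖x‖ ^ (K - l)) := by gcongr
        _ = Cc * σ ^ (n + 1) * ‖x‖ ^ (K - l) := by ring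

/-- smooth sums of functions with geometrically decaying derivatives -/
theorem smooth_sum {r σ : ℝ} (hr : 0 < r) (hσ0 : 0 ≤ σ) (hσ1 : σ < 1) (k : ℕ) :
    ∀ {W : Type} [NormedAddCommGroup W] [NormedSpace ℝ W] [CompleteSpace W] (e : ℕ → E → W),
      (∀ n, ContDiffOn ℝ ∞ (e n) (ball 0 r)) →
      (∀ l, ∃ C, ∀ n, ∀ x ∈ ball (0 : E) r, ‖iteratedFDeriv ℝ l (e n) x‖ ≤ C * σ ^ n) →
      ContDiffOn ℝ k (fun x => ∑' n, e n x) (ball 0 r) := by
  induction k with
  | zero =>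
    intro W _ _ _ e he hb
    obtain ⟨C, hC⟩ := hb 0
    rw [Nat.cast_zero, contDiffOn_zero]
    refine continuousOn_tsum (u := fun n => C * σ ^ n) (fun n => (he n).continuousOn)
      ((summable_geometric_of_lt_one hσ0 hσ1).mul_left C) ?_
    intro n x hx
    have := hC n x hx
    rwa [norm_iteratedFDeriv_zero] at this
  | succ k ih =>
    intro W _ _ _ e he hb
    have hfd : ∀ n, ContDiffOn ℝ ∞ (fderiv ℝ (e n)) (ball 0 r) :=
      fun n => contDiffOn_fderiv isOpen_ball (he n)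
    have hb' : ∀ l, ∃ C, ∀ n, ∀ x ∈ ball (0 : E) r,
        ‖iteratedFDeriv ℝ l (fderiv ℝ (e n)) x‖ ≤ C * σ ^ n := by
      intro l
      obtain ⟨C, hC⟩ := hb (l + 1)
      refine ⟨C, fun n x hx => ?_⟩
      rw [norm_iter_fderiv]
      exact hC n x hx
    obtain ⟨C0, hC0⟩ := hb 0
    obtain ⟨C1, hC1⟩ := hb 1
    have hD : ∀ x ∈ ball (0 : E) r,
        HasFDerivAt (fun y => ∑' n, e n y) (∑' n, fderiv ℝ (e n) x) x := by
      intro x hx
      refine hasFDerivAt_tsum_of_isPreconnected (u := fun n => C1 * σ ^ n)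
        (f := e) (f' := fun n y => fderiv ℝ (e n) y)
        ((summable_geometric_of_lt_one hσ0 hσ1).mul_left C1) isOpen_ball
        (convex_ball (0 : E) r).isPreconnected ?_ ?_ (mem_ball_self hr) ?_ hx
      · intro n y hy
        exact (((he n).contDiffAt (isOpen_ball.mem_nhds hy)).differentiableAt
          (by simp)).hasFDerivAt
      · intro n y hy
        have := hC1 n y hy
        rwa [← norm_iter_fderiv, norm_iteratedFDeriv_zero] at this
      · refine Summable.of_norm_bounded (g := fun n => C0 * σ ^ n)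
          ((summable_geometric_of_lt_one hσ0 hσ1).mul_left C0) ?_
        intro n
        have := hC0 n 0 (mem_ball_self hr)
        rwa [norm_iteratedFDeriv_zero] at this
    have hk := ih (fun n => fderiv ℝ (e n)) hfd hb'
    rw [Nat.cast_succ, contDiffOn_succ_iff_fderiv_of_isOpen isOpen_ball]
    refine ⟨fun x hx => (hD x hx).differentiableAt.differentiableWithinAt, by simp, ?_⟩
    exact hk.congr fun x hx => (hD x hx).fderiv

theorem smooth_sum_top {r σ : ℝ} (hr : 0 < r) (hσ0 : 0 ≤ σ) (hσ1 : σ < 1)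
    {W : Type} [NormedAddCommGroup W] [NormedSpace ℝ W] [CompleteSpace W] (e : ℕ → E → W)
    (he : ∀ n, ContDiffOn ℝ ∞ (e n) (ball 0 r))
    (hb : ∀ l, ∃ C, ∀ n, ∀ x ∈ ball (0 : E) r, ‖iteratedFDeriv ℝ l (e n) x‖ ≤ C * σ ^ n) :
    ContDiffOn ℝ ∞ (fun x => ∑' n, e n x) (ball 0 r) :=
  contDiffOn_infty.2 fun k => smooth_sum hr hσ0 hσ1 k e he hb

/-- bounded derivatives on a smaller ball -/
theorem BD_of_smooth [ProperSpace E] {W : Type} [NormedAddCommGroup W] [NormedSpace ℝ W]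
    {g : E → W} {r s : ℝ} (hg : ContDiffOn ℝ ∞ g (ball 0 r)) (hs : s < r) :
    BD g (ball (0 : E) s) := by
  intro k
  have hsub : closedBall (0 : E) s ⊆ ball 0 r := closedBall_subset_ball hs
  have hc : ContinuousOn (fun x => ‖iteratedFDeriv ℝ k g x‖) (closedBall (0 : E) s) := by
    intro x hx
    exact (diff_iter isOpen_ball hg k (hsub hx)).continuousAt.norm.continuousWithinAt
  obtain ⟨M, hM⟩ := (isCompact_closedBall (0 : E) s).bddAbove_image hc
  exact ⟨M, fun x hx => hM (mem_image_of_mem _ (ball_subset_closedBall hx))⟩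

end Vale.Agent.P207.N3.H790
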