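import Vale.Agent.P207.N3.H790.FlatSolve
import Vale.Agent.P207.N3.H790.NF

/-! Stationary normal form, diagonal linear part. -/

open Set Filter Topology Metric
open scoped ContDiff Nat

noncomputable section

namespace Vale.Agent.P207.N3.H790

open NF

theorem contDiffOn_coord (i : Fin 2) (s : Set E2) : ContDiffOn ℝ ∞ (fun x : E2 => x i) s :=
  (contDiff_coord i).contDiffOn

theorem Fl_coord (i : Fin 2) (r : ℝ) : Fl r 1 fun x : E2 => x i := by
  refine ⟨1, fun x _ => ?_⟩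
  rw [pow_one, one_mul]
  exact EuclideanSpace.norm_eq x ▸ (by
    have : ‖x i‖ ^ 2 ≤ ∑ j, ‖x j‖ ^ 2 :=
      Finset.single_le_sum (f := fun j => ‖x j‖ ^ 2) (fun j _ => by positivity)
        (Finset.mem_univ i)
    exact Real.le_sqrt_of_sq_le this)

theorem BD_sub {E W : Type} [NormedAddCommGroup E] [NormedSpace ℝ E] [NormedAddCommGroup W]
    [NormedSpace ℝ W] {f g : E → W} {r : ℝ} (hf : ContDiffOn ℝ ∞ f (ball 0 r))
    (hg : ContDiffOn ℝ ∞ g (ball 0 r)) (h1 : BD f (ball (0 : E) r)) (h2 : BD g (ball (0 : E) r)) :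
    BD (fun x => f x - g x) (ball (0 : E) r) := by
  intro k
  obtain ⟨M, hM⟩ := h1 k
  obtain ⟨N, hN⟩ := h2 k
  refine ⟨M + N, fun x hx => ?_⟩
  have hx' := isOpen_ball.mem_nhds hx
  have : iteratedFDeriv ℝ k (fun x => f x - g x) x
      = iteratedFDeriv ℝ k f x - iteratedFDeriv ℝ k g x :=
    fun_iteratedFDeriv_sub_apply ((hf.contDiffAt hx').of_le (by exact_mod_cast le_top))
      ((hg.contDiffAt hx').of_le (by exact_mod_cast le_top))
  rw [this]
  exact (norm_sub_le _ _).trans (add_le_add (hM x hx) (hN x hx))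

/-- the monomial `∏ x (s i)` -/
def mo {j : ℕ} (s : Fin j → Fin 2) (x : E2) : ℝ := ∏ i, x (s i)

theorem contDiff_mo {j : ℕ} (s : Fin j → Fin 2) : ContDiff ℝ ∞ (mo s) :=
  contDiff_prod fun i _ => contDiff_coord (s i)

/-- homogeneous polynomials in coordinates -/
theorem mlin_coord {j : ℕ} (q : E2 [×j]→L[ℝ] ℝ) :
    ∃ c : (Fin j → Fin 2) → ℝ, ∀ x : E2, q (fun _ => x) = ∑ s, c s * mo s x := by
  classical
  refine ⟨fun s => q (fun i => EuclideanSpace.single (s i) (1 : ℝ)), fun x => ?_⟩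
  have hx : x = ∑ i : Fin 2, x i • EuclideanSpace.single i (1 : ℝ) := by
    ext k
    fin_cases k <;> simp [Fin.sum_univ_two]
  have h1 : q (fun _ => x) = q (fun _ => ∑ i : Fin 2, x i • EuclideanSpace.single i (1 : ℝ)) := by
    congr 1
    funext _
    exact hx
  rw [h1, q.map_sum]
  refine Finset.sum_congr rfl fun s _ => ?_
  have := q.map_smul_univ (fun i => x (s i)) (fun i => EuclideanSpace.single (s i) (1 : ℝ))
  rw [this, smul_eq_mul, mul_comm]
  rfl

/-- the slow eigenfunction and the resonance -/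
structure DiagData (F : E2 → E2) (r θ ν₁ ν₂ : ℝ) : Prop where
  contr : Contr F r θ
  ν₁_ne : ν₁ ≠ 0
  ν₂_ne : ν₂ ≠ 0
  le : |ν₁| ≤ |ν₂|
  lt : |ν₂| < 1
  lin : ∀ i, Fl r 2 fun x => F x i - (![ν₁, ν₂] i) * x i

theorem mo_comp {F : E2 → E2} {r θ ν₁ ν₂ : ℝ} (D : DiagData F r θ ν₁ ν₂) {j : ℕ}
    (s : Fin j → Fin 2) : Fl r (j + 1) fun x => mo s (F x) - (∏ i, ![ν₁, ν₂] (s i)) * mo s x := by
  have h := (Fl.prod_sub (Finset.univ : Finset (Fin j)) (a := fun i x => F x (s i))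
    (b := fun i x => (![ν₁, ν₂] (s i)) * x (s i)) D.contr.r_le
    (fun i _ => D.lin (s i)) (fun i _ => (Fl_coord (s i) r).cmul _)).2
  rw [Finset.card_univ, Fintype.card_fin] at h
  refine h.congr' fun x _ => ?_
  unfold mo
  rw [Finset.prod_mul_distrib]

/-- powers of a perturbed coordinate -/
theorem pow_sub_pow_Fl {u : E2 → ℝ} {r : ℝ} (hr : r ≤ 1) (hu : Fl r 2 fun x => u x - x 1)
    (k : ℕ) : Fl r (k + 1) fun x => u x ^ k - x 1 ^ k := by
  have h := (Fl.prod_sub (Finset.univ : Finset (Fin k)) (a := fun _ x => u x)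
    (b := fun _ x => x 1) hr (fun i _ => hu) (fun i _ => Fl_coord 1 r)).2
  rw [Finset.card_univ, Fintype.card_fin] at h
  refine h.congr' fun x _ => ?_
  rw [Finset.prod_const, Finset.prod_const, Finset.card_univ, Fintype.card_fin]

theorem abs_prod_lt {ν₁ ν₂ : ℝ} (h1 : ν₁ ≠ 0) (hle : |ν₁| ≤ |ν₂|) (hlt : |ν₂| < 1) {j : ℕ}
    (hj : 2 ≤ j) (s : Fin j → Fin 2) (i : Fin j) (hi : s i = 0) :
    ∏ i, ![ν₁, ν₂] (s i) ≠ ν₁ := by
  classical
  intro h
  have hb : ∀ l, |![ν₁, ν₂] (s l)| ≤ |ν₂| := by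
    intro l
    rcases Fin.exists_fin_two.1 ⟨s l, rfl⟩ with h | h
    · rw [h]; exact hle
    · rw [h]; exact le_rfl
  have h2 : |∏ i, ![ν₁, ν₂] (s i)| = |ν₁| * ∏ l ∈ Finset.univ.erase i, |![ν₁, ν₂] (s l)| := by
    rw [Finset.abs_prod, ← Finset.mul_prod_erase _ _ (Finset.mem_univ i), hi]
    rfl
  have h3 : ∏ l ∈ Finset.univ.erase i, |![ν₁, ν₂] (s l)| ≤ |ν₂| ^ (j - 1) := by
    have := Finset.prod_le_prod (s := Finset.univ.erase i) (f := fun l => |![ν₁, ν₂] (s l)|)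
      (g := fun _ => |ν₂|) (fun l _ => abs_nonneg _) (fun l _ => hb l)
    rwa [Finset.prod_const, Finset.card_erase_of_mem (Finset.mem_univ i), Finset.card_univ,
      Fintype.card_fin] at this
  have h4 : |ν₂| ^ (j - 1) < 1 := pow_lt_one₀ (abs_nonneg _) hlt (by omega)
  have h5 : 0 < |ν₁| := abs_pos.2 h1
  rw [h] at h2
  nlinarith

/-- the inductive elimination of the terms of the fast component -/
theorem elim_step {F : E2 → E2} {r θ ν₁ ν₂ R : ℝ} (D : DiagData F r θ ν₁ ν₂) (hR : r < R)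
    (hFR : ContDiffOn ℝ ∞ F (ball 0 R)) {u : E2 → ℝ}
    (hu : ContDiffOn ℝ ∞ u (ball 0 R)) (hu2 : Fl r 2 fun x => u x - x 1) {k : ℕ}
    (hk : ∀ j, 2 ≤ j → ν₂ ^ j = ν₁ → j = k) (j : ℕ) :
    ∃ (p : E2 → ℝ) (κ : ℝ), ContDiff ℝ ∞ p ∧ (κ ≠ 0 → 2 ≤ k ∧ ν₂ ^ k = ν₁) ∧
      (Fl r 2 fun x => p x - x 0) ∧
      Fl r (j + 2) fun x => p (F x) - ν₁ * p x - κ * u x ^ k := by
  classical
  induction j with
  | zero =>
    refine ⟨fun x => x 0, 0, contDiff_coord 0, fun h => absurd rfl h, ?_, ?_⟩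
    · simpa using (Fl.zero (W := ℝ) (r := r) (K := 2) (E := E2))
    · exact (D.lin 0).congr' fun x _ => by simp
  | succ j ih =>
    obtain ⟨p, κ, hp, hκ, hp2, hpj⟩ := ih
    have hr := D.contr.r_pos
    -- the residual is smooth with bounded derivatives
    set g : E2 → ℝ := fun x => p (F x) - ν₁ * p x - κ * u x ^ k with hg
    have hgR : ContDiffOn ℝ ∞ g (ball 0 R) :=
      ((hp.comp_contDiffOn hFR).sub (contDiffOn_const.mul hp.contDiffOn)).sub
        (contDiffOn_const.mul (hu.pow k))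
    have hgr : ContDiffOn ℝ ∞ g (ball 0 r) := hgR.mono (ball_subset_ball hR.le)
    have hgb : BD g (ball (0 : E2) r) := BD_of_smooth hgR hR
    obtain ⟨C, hC⟩ := hpj
    obtain ⟨M, hM⟩ := lead_term hr hgr hgb hC
    obtain ⟨c, hc⟩ := mlin_coord (((j + 2)! : ℝ)⁻¹ • iteratedFDeriv ℝ (j + 2) g 0)
    have hlead : Fl r (j + 3) fun x => g x - ∑ s, c s * mo s x := by
      refine ⟨M, fun x hx => ?_⟩
      change ‖g x - ∑ s, c s * mo s x‖ ≤ _
      rw [← hc x]
      exact hM x hx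
    -- the correction
    let P : (Fin (j + 2) → Fin 2) → ℝ := fun s => ∏ i, ![ν₁, ν₂] (s i)
    let b : (Fin (j + 2) → Fin 2) → ℝ := fun s => if P s = ν₁ then 0 else c s / (ν₁ - P s)
    let δ : ℝ := ∑ s, if P s = ν₁ then c s else 0
    have hres : ∀ s : Fin (j + 2) → Fin 2, P s = ν₁ → s = fun _ => 1 := by
      intro s hs
      funext i
      rcases Fin.exists_fin_two.1 ⟨s i, rfl⟩ with h | h
      · exact absurd hs (abs_prod_lt D.ν₁_ne D.le D.lt (by omega) s i h)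
      · exact h
    have hres' : ∀ s : Fin (j + 2) → Fin 2, P s = ν₁ → ν₂ ^ (j + 2) = ν₁ := by
      intro s hs
      have := hs
      rw [hres s hs] at this
      simpa [P] using this
    have hδ : δ ≠ 0 → j + 2 = k ∧ ν₂ ^ k = ν₁ := by
      intro h
      obtain ⟨s, -, hs⟩ := Finset.exists_ne_zero_of_sum_ne_zero h
      have hs' : P s = ν₁ := by
        by_contra h'
        exact hs (if_neg h')
      have h1 := hres' s hs'
      have h2 := hk (j + 2) (by omega) h1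
      exact ⟨h2, h2 ▸ h1⟩
    refine ⟨fun x => p x + ∑ s, b s * mo s x, κ + δ, ?_, ?_, ?_, ?_⟩
    · exact hp.add (ContDiff.sum fun s _ => contDiff_const.mul (contDiff_mo s))
    · intro h
      by_cases h1 : κ = 0
      · have h2 : δ ≠ 0 := by
          intro h3
          exact h (by rw [h1, h3, add_zero])
        have := hδ h2
        exact ⟨by omega, this.2⟩
      · exact hκ h1
    · have h1 : Fl r 2 fun x => ∑ s, b s * mo s x := by
        refine Fl.sum _ fun s _ => Fl.cmul _ ?_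
        have h2 := (Fl.prod_sub (Finset.univ : Finset (Fin (j + 2)))
          (a := fun i (x : E2) => x (s i)) (b := fun i x => x (s i)) D.contr.r_le
          (fun i _ => by simpa using (Fl.zero (W := ℝ) (r := r) (K := 2) (E := E2)))
          (fun i _ => Fl_coord (s i) r)).1
        rw [Finset.card_univ, Fintype.card_fin] at h2
        exact (h2.mono D.contr.r_le (by omega : 2 ≤ j + 2)).congr' fun x _ => rfl
      exact (hp2.add h1).congr' fun x _ => by ring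
    · -- the new residual
      have hA : Fl r (j + 3) fun x => ∑ s, b s * (mo s (F x) - P s * mo s x) :=
        Fl.sum _ fun s _ => (mo_comp D s).cmul _
      have hB : Fl r (j + 3) fun x => δ * (x 1 ^ (j + 2) - u x ^ k) := by
        by_cases h : δ = 0
        · refine (Fl.zero (W := ℝ) (r := r) (K := j + 3) (E := E2)).congr' fun x _ => ?_
          rw [h, zero_mul]
        · have h1 := (hδ h).1
          have h2 := (pow_sub_pow_Fl D.contr.r_le hu2 k).cmul (-δ)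
          rw [← h1] at h2
          refine h2.congr' fun x _ => ?_
          rw [← h1]
          ring
      refine ((hlead.add hA).add hB).congr' fun x _ => ?_
      have e1 : ∑ s, c s * mo s x + ∑ s, b s * (P s * mo s x) - ν₁ * ∑ s, b s * mo s x
          = δ * x 1 ^ (j + 2) := by
        have : δ * x 1 ^ (j + 2) = ∑ s, (if P s = ν₁ then c s else 0) * x 1 ^ (j + 2) := by
          rw [← Finset.sum_mul]
        rw [this, Finset.mul_sum, ← Finset.sum_add_distrib, ← Finset.sum_sub_distrib]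
        refine Finset.sum_congr rfl fun s _ => ?_
        by_cases hs : P s = ν₁
        · have hm : mo s x = x 1 ^ (j + 2) := by
            rw [hres s hs]
            simp [mo]
          simp only [b, if_pos hs, zero_mul, mul_zero, add_zero, sub_zero, hm]
        · simp only [b, if_neg hs]
          have : ν₁ - P s ≠ 0 := sub_ne_zero.2 (Ne.symm hs)
          field_simp
          ring
      have e2 : ∑ s, b s * (mo s (F x) - P s * mo s x)
          = ∑ s, b s * mo s (F x) - ∑ s, b s * (P s * mo s x) := by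
        rw [← Finset.sum_sub_distrib]
        exact Finset.sum_congr rfl fun s _ => by ring
      rw [e2, hg]
      simp only
      linear_combination e1

theorem Fl.anti {E W : Type} [NormedAddCommGroup E] [NormedAddCommGroup W] {r s : ℝ} {K : ℕ}
    {g : E → W} (h : Fl r K g) (hs : s ≤ r) : Fl s K g := by
  obtain ⟨C, hC⟩ := h
  exact ⟨C, fun x hx => hC x (ball_subset_ball hs hx)⟩

theorem Contr.anti {E : Type} [NormedAddCommGroup E] [NormedSpace ℝ E] {F : E → E} {r θ s : ℝ}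
    (h : Contr F r θ) (hs0 : 0 < s) (hs : s ≤ r) : Contr F s θ where
  r_pos := hs0
  r_le := hs.trans h.r_le
  smooth := h.smooth.mono (ball_subset_ball hs)
  zero := h.zero
  contr := fun x hx => h.contr x (ball_subset_ball hs hx)
  θ_lt := h.θ_lt
  bd := fun k => by
    obtain ⟨M, hM⟩ := h.bd k
    exact ⟨M, fun x hx => hM x (ball_subset_ball hs hx)⟩

theorem DiagData.anti {F : E2 → E2} {r θ ν₁ ν₂ s : ℝ} (D : DiagData F r θ ν₁ ν₂) (hs0 : 0 < s)
    (hs : s ≤ r) : DiagData F s θ ν₁ ν₂ :=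
  ⟨D.contr.anti hs0 hs, D.ν₁_ne, D.ν₂_ne, D.le, D.lt, fun i => (D.lin i).anti hs⟩

/-- Sternberg normal form, diagonal linear part -/
theorem stern_diag {F : E2 → E2} {r θ ν₁ ν₂ : ℝ} (D : DiagData F r θ ν₁ ν₂)
    (hθ : θ ^ 2 < |ν₂|) : ∃ (h : E2 → E2) (ρ : ℝ) (κ : ℝ) (k : ℕ), 0 < ρ ∧ ρ ≤ r ∧
      (κ ≠ 0 → 2 ≤ k ∧ ν₂ ^ k = ν₁) ∧ ContDiffOn ℝ ∞ h (ball 0 ρ) ∧
      (Fl ρ 2 fun x => h x - x) ∧
      ∀ x ∈ ball (0 : E2) ρ, h (F x) = !₂[ν₁ * h x 0 + κ * h x 1 ^ k, ν₂ * h x 1] := by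
  have hr := D.contr.r_pos
  have hθ0 : 0 ≤ θ := (norm_nonneg _).trans (D.contr.contr 0 (mem_ball_self hr))
  -- the slow component
  set r1 : ℝ := r / 2 with hr1
  have hr1p : 0 < r1 := by positivity
  have hr1r : r1 < r := by rw [hr1]; linarith
  have D1 := D.anti hr1p hr1r.le
  obtain ⟨s2, hs2, hs2F, -, hs2e⟩ : ∃ s : E2 → ℝ, ContDiffOn ℝ ∞ s (ball 0 r1) ∧ Fl r1 2 s ∧
      BD s (ball (0 : E2) r1) ∧
      ∀ x ∈ ball (0 : E2) r1, s (F x) = (ν₂ • ContinuousLinearMap.id ℝ ℝ) (s x)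
        - (F x 1 - ν₂ * x 1) := by
    have hg : ContDiffOn ℝ ∞ (fun x => F x 1 - ν₂ * x 1) (ball (0 : E2) r) :=
      ((contDiff_coord 1).comp_contDiffOn D.contr.smooth).sub
        (contDiffOn_const.mul (contDiffOn_coord 1 _))
    refine flat_solve (b := |ν₂|⁻¹) D1.contr (ν₂ • ContinuousLinearMap.id ℝ ℝ)
      (ν₂⁻¹ • ContinuousLinearMap.id ℝ ℝ) (fun w => ?_) ?_ ?_
      (hg.mono (ball_subset_ball hr1r.le)) (BD_of_smooth hg hr1r) ?_
    · simp [D.ν₂_ne]
    · rw [norm_smul, ContinuousLinearMap.norm_id, mul_one, norm_inv, Real.norm_eq_abs]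
    · rw [inv_mul_lt_iff₀ (abs_pos.2 D.ν₂_ne), mul_one]
      exact hθ
    · exact (D1.lin 1).congr' fun x _ => rfl
  set u : E2 → ℝ := fun x => x 1 + s2 x with hu
  have huc : ContDiffOn ℝ ∞ u (ball 0 r1) := (contDiffOn_coord 1 _).add hs2
  have hu2 : Fl r1 2 fun x => u x - x 1 := hs2F.congr' fun x _ => by simp [hu]
  have hue : ∀ x ∈ ball (0 : E2) r1, u (F x) = ν₂ * u x := by
    intro x hx
    have := hs2e x hx
    simp only [FunLike.coe_smul, Pi.smul_apply, ContinuousLinearMap.id_apply, smul_eq_mul] at this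
    simp only [hu, this]
    ring
  -- the resonance
  obtain ⟨k, hk⟩ : ∃ k : ℕ, ∀ j, 2 ≤ j → ν₂ ^ j = ν₁ → j = k := by
    by_cases hres : ∃ k, 2 ≤ k ∧ ν₂ ^ k = ν₁
    · obtain ⟨k, hk2, hk⟩ := hres
      refine ⟨k, fun j hj hjν => ?_⟩
      have h1 : |ν₂| ^ j = |ν₂| ^ k := by rw [← abs_pow, ← abs_pow, hjν, hk]
      exact (pow_right_strictAnti₀ (abs_pos.2 D.ν₂_ne) D.lt).injective h1
    · exact ⟨2, fun j hj hjν => absurd ⟨j, hj, hjν⟩ hres⟩
  obtain ⟨K, hK⟩ : ∃ K : ℕ, θ ^ (K + 2) < |ν₁| := by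
    obtain ⟨K, hK⟩ := exists_pow_lt_of_lt_one (abs_pos.2 D.ν₁_ne) D.contr.θ_lt
    exact ⟨K, (pow_le_pow_of_le_one hθ0 D.contr.θ_lt.le (by omega)).trans_lt hK⟩
  set r2 : ℝ := r1 / 2 with hr2
  have hr2p : 0 < r2 := by positivity
  have hr21 : r2 < r1 := by rw [hr2]; linarith
  have D2 := D1.anti hr2p hr21.le
  obtain ⟨p, κ, hp, hκ, hp2, hpK⟩ := elim_step D2 hr21 D1.contr.smooth huc (hu2.anti hr21.le) hk K
  obtain ⟨s1, hs1, hs1F, -, hs1e⟩ : ∃ s : E2 → ℝ, ContDiffOn ℝ ∞ s (ball 0 r2) ∧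
      Fl r2 (K + 2) s ∧ BD s (ball (0 : E2) r2) ∧
      ∀ x ∈ ball (0 : E2) r2, s (F x) = (ν₁ • ContinuousLinearMap.id ℝ ℝ) (s x)
        - (p (F x) - ν₁ * p x - κ * u x ^ k) := by
    have hg : ContDiffOn ℝ ∞ (fun x => p (F x) - ν₁ * p x - κ * u x ^ k) (ball (0 : E2) r1) :=
      ((hp.comp_contDiffOn D1.contr.smooth).sub (contDiffOn_const.mul hp.contDiffOn)).sub
        (contDiffOn_const.mul (huc.pow k))
    refine flat_solve (b := |ν₁|⁻¹) D2.contr (ν₁ • ContinuousLinearMap.id ℝ ℝ)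
      (ν₁⁻¹ • ContinuousLinearMap.id ℝ ℝ) (fun w => ?_) ?_ ?_
      (hg.mono (ball_subset_ball hr21.le)) (BD_of_smooth hg hr21) hpK
    · simp [D.ν₁_ne]
    · rw [norm_smul, ContinuousLinearMap.norm_id, mul_one, norm_inv, Real.norm_eq_abs]
    · rw [inv_mul_lt_iff₀ (abs_pos.2 D.ν₁_ne), mul_one]
      exact hK
  refine ⟨fun x => !₂[p x + s1 x, u x], r2, κ, k, hr2p, by linarith, hκ, ?_, ?_, ?_⟩
  · exact contDiffOn_mk (hp.contDiffOn.add hs1) (huc.mono (ball_subset_ball hr21.le))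
  · -- second order contact with the identity
    have h0 : Fl r2 2 fun x => p x + s1 x - x 0 :=
      (hp2.add (hs1F.mono D2.contr.r_le (by omega : 2 ≤ K + 2))).congr' fun x _ => by ring
    obtain ⟨C0, hC00, hC0⟩ := h0.nonneg_const
    obtain ⟨C1, hC10, hC1⟩ := (hu2.anti hr21.le).nonneg_const
    refine ⟨C0 + C1, fun x hx => ?_⟩
    have e0 := hC0 x hx
    have e1 := hC1 x hx
    rw [EuclideanSpace.norm_eq, Fin.sum_univ_two]
    have a0 : (!₂[p x + s1 x, u x] - x : E2) 0 = p x + s1 x - x 0 := rfl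
    have a1 : (!₂[p x + s1 x, u x] - x : E2) 1 = u x - x 1 := rfl
    rw [a0, a1]
    have hxx : 0 ≤ ‖x‖ ^ 2 := by positivity
    refine Real.sqrt_le_iff.2 ⟨by positivity, ?_⟩
    have b0 : ‖p x + s1 x - x 0‖ ^ 2 ≤ (C0 * ‖x‖ ^ 2) ^ 2 := by gcongr
    have b1 : ‖u x - x 1‖ ^ 2 ≤ (C1 * ‖x‖ ^ 2) ^ 2 := by gcongr
    nlinarith [mul_nonneg (mul_nonneg hC00 hxx) (mul_nonneg hC10 hxx)]
  · intro x hx
    apply ext2
    · change p (F x) + s1 (F x) = ν₁ * (p x + s1 x) + κ * u x ^ k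
      have := hs1e x hx
      simp only [FunLike.coe_smul, Pi.smul_apply, ContinuousLinearMap.id_apply, smul_eq_mul]
        at this
      rw [this]
      ring
    · change u (F x) = ν₂ * u x
      exact hue x (ball_subset_ball hr21.le hx)

end Vale.Agent.P207.N3.H790
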