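import Vale.Agent.P207.N3.H790.Decay

/-! Solution of `s ∘ F = B s - g` for flat `g`. -/

open Set Filter Topology Metric
open scoped ContDiff Nat

noncomputable section

namespace Vale.Agent.P207.N3.H790

variable {E : Type} [NormedAddCommGroup E] [NormedSpace ℝ E]

/-- `g = O(|x|^K)` on the ball -/
def Fl {W : Type} [NormedAddCommGroup W] (r : ℝ) (K : ℕ) (g : E → W) : Prop :=
  ∃ C, ∀ x ∈ ball (0 : E) r, ‖g x‖ ≤ C * ‖x‖ ^ K

/-- Data of a smooth contraction of a ball. -/
structure Contr (F : E → E) (r θ : ℝ) : Prop where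
  r_pos : 0 < r
  r_le : r ≤ 1
  smooth : ContDiffOn ℝ ∞ F (ball 0 r)
  zero : F 0 = 0
  contr : ∀ x ∈ ball (0 : E) r, ‖fderiv ℝ F x‖ ≤ θ
  θ_lt : θ < 1
  bd : BD F (ball (0 : E) r)

theorem flat_solve {W : Type} [NormedAddCommGroup W] [NormedSpace ℝ W] [CompleteSpace W]
    {F : E → E} {r θ b : ℝ} {K : ℕ} (hF : Contr F r θ) (B B' : W →L[ℝ] W)
    (hBB : ∀ w, B (B' w) = w) (hb : ‖B'‖ ≤ b) (hbK : b * θ ^ K < 1) {g : E → W}
    (hg : ContDiffOn ℝ ∞ g (ball 0 r)) (hgb : BD g (ball (0 : E) r)) (hgK : Fl r K g) :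
    ∃ s : E → W, ContDiffOn ℝ ∞ s (ball 0 r) ∧ Fl r K s ∧ BD s (ball (0 : E) r) ∧
      ∀ x ∈ ball (0 : E) r, s (F x) = B (s x) - g x := by
  have hr := hF.r_pos
  have hmap := mapsTo_ball hF.smooth hF.zero hF.contr hF.θ_lt.le
  have hθ0 : 0 ≤ θ := (norm_nonneg _).trans (hF.contr 0 (mem_ball_self hr))
  have hb0 : 0 ≤ b := (norm_nonneg _).trans hb
  obtain ⟨σ, hσ, hσ1⟩ := exists_between hbK
  have hσ0 : 0 < σ := (mul_nonneg hb0 (pow_nonneg hθ0 _)).trans_lt hσ
  let e : ℕ → E → W := fun n => Nat.rec (fun x => B' (g x)) (fun _ f x => B' (f (F x))) n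
  have e0 : e 0 = fun x => B' (g x) := rfl
  have es : ∀ n, e (n + 1) = fun x => B' (e n (F x)) := fun n => rfl
  have hes : ∀ n, ContDiffOn ℝ ∞ (e n) (ball 0 r) := by
    intro n
    induction n with
    | zero =>
      rw [e0]
      exact B'.contDiff.comp_contDiffOn hg
    | succ n ih =>
      rw [es]
      exact B'.contDiff.comp_contDiffOn (ih.comp hF.smooth hmap)
  obtain ⟨C, hC⟩ := hgK
  have h0 : ∀ l, ∃ M, 0 ≤ M ∧ ∀ x ∈ ball (0 : E) r, ‖iteratedFDeriv ℝ l (e 0) x‖
      ≤ M * ‖x‖ ^ (K - l) := by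
    intro l
    obtain ⟨M, hM0, hM⟩ := flat_all hr hg hgb hC l
    refine ⟨‖B'‖ * M, by positivity, fun x hx => ?_⟩
    rw [e0]
    have := B'.norm_iteratedFDeriv_comp_left (N := ∞) (n := l)
      (hg.contDiffAt (isOpen_ball.mem_nhds hx)) (by exact_mod_cast le_top)
    refine this.trans ?_
    rw [mul_assoc]
    gcongr
    exact hM x hx
  have hdec := decay hr hF.r_le hF.smooth hF.zero hF.contr hF.θ_lt.le hF.bd hb hσ hes
    (fun n x _ => by rw [es]) h0
  have hb' : ∀ l, ∃ C, ∀ n, ∀ x ∈ ball (0 : E) r, ‖iteratedFDeriv ℝ l (e n) x‖ ≤ C * σ ^ n := by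
    intro l
    obtain ⟨C, hC0, hC⟩ := hdec l
    refine ⟨C, fun n x hx => (hC n x hx).trans ?_⟩
    have hx1 : ‖x‖ ≤ 1 := (mem_ball_zero_iff.1 hx).le.trans hF.r_le
    exact mul_le_of_le_one_right (mul_nonneg hC0 (pow_nonneg hσ0.le _))
      (pow_le_one₀ (norm_nonneg _) hx1)
  have hsm := smooth_sum_top hr hσ0.le hσ1 e hes hb'
  have hsum : ∀ x ∈ ball (0 : E) r, Summable fun n => e n x := by
    intro x hx
    obtain ⟨C, hC⟩ := hb' 0
    refine Summable.of_norm_bounded (g := fun n => C * σ ^ n)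
      ((summable_geometric_of_lt_one hσ0.le hσ1).mul_left C) fun n => ?_
    have := hC n x hx
    rwa [norm_iteratedFDeriv_zero] at this
  refine ⟨fun x => ∑' n, e n x, hsm, ?_, ?_, ?_⟩
  · obtain ⟨C, hC0, hC⟩ := hdec 0
    refine ⟨C * (1 - σ)⁻¹, fun x hx => ?_⟩
    have h1 : ∀ n, ‖e n x‖ ≤ C * ‖x‖ ^ K * σ ^ n := by
      intro n
      have := hC n x hx
      rw [norm_iteratedFDeriv_zero, Nat.sub_zero] at this
      calc _ ≤ C * σ ^ n * ‖x‖ ^ K := this
        _ = _ := by ring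
    have h2 : HasSum (fun n => C * ‖x‖ ^ K * σ ^ n) (C * ‖x‖ ^ K * (1 - σ)⁻¹) :=
      (hasSum_geometric_of_lt_one hσ0.le hσ1).mul_left _
    calc ‖∑' n, e n x‖ ≤ C * ‖x‖ ^ K * (1 - σ)⁻¹ := tsum_of_norm_bounded h2 h1
      _ = _ := by ring
  · -- bounds of the derivatives of the sum: by differentiation under the sum
    intro k
    have key : ∀ (k : ℕ) {W : Type} [NormedAddCommGroup W] [NormedSpace ℝ W] [CompleteSpace W]
        (e : ℕ → E → W), (∀ n, ContDiffOn ℝ ∞ (e n) (ball 0 r)) →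
        (∀ l, ∃ C, ∀ n, ∀ x ∈ ball (0 : E) r, ‖iteratedFDeriv ℝ l (e n) x‖ ≤ C * σ ^ n) →
        ∃ M, ∀ x ∈ ball (0 : E) r, ‖iteratedFDeriv ℝ k (fun x => ∑' n, e n x) x‖ ≤ M := by
      intro k
      induction k with
      | zero =>
        intro W _ _ _ e he hb
        obtain ⟨C, hC⟩ := hb 0
        refine ⟨C * (1 - σ)⁻¹, fun x hx => ?_⟩
        rw [norm_iteratedFDeriv_zero]
        refine tsum_of_norm_bounded ((hasSum_geometric_of_lt_one hσ0.le hσ1).mul_left _)
          fun n => ?_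
        have := hC n x hx
        rwa [norm_iteratedFDeriv_zero] at this
      | succ k ih =>
        intro W _ _ _ e he hb
        have hfd : ∀ n, ContDiffOn ℝ ∞ (fderiv ℝ (e n)) (ball 0 r) :=
          fun n => contDiffOn_fderiv isOpen_ball (he n)
        have hb' : ∀ l, ∃ C, ∀ n, ∀ x ∈ ball (0 : E) r,
            ‖iteratedFDeriv ℝ l (fderiv ℝ (e n)) x‖ ≤ C * σ ^ n := by
          intro l
          obtain ⟨C, hC⟩ := hb (l + 1)
          refine ⟨C, fun n x hx => ?_⟩
          rw [norm_iter_fderiv]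
          exact hC n x hx
        obtain ⟨C0, hC0⟩ := hb 0
        obtain ⟨C1, hC1⟩ := hb 1
        have hD : ∀ x ∈ ball (0 : E) r,
            fderiv ℝ (fun y => ∑' n, e n y) x = ∑' n, fderiv ℝ (e n) x := by
          intro x hx
          refine (hasFDerivAt_tsum_of_isPreconnected (u := fun n => C1 * σ ^ n)
            (f := e) (f' := fun n y => fderiv ℝ (e n) y)
            ((summable_geometric_of_lt_one hσ0.le hσ1).mul_left C1) isOpen_ball
            (convex_ball (0 : E) r).isPreconnected ?_ ?_ (mem_ball_self hr) ?_ hx).fderiv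
          · intro n y hy
            exact (((he n).contDiffAt (isOpen_ball.mem_nhds hy)).differentiableAt
              (by simp)).hasFDerivAt
          · intro n y hy
            have := hC1 n y hy
            rwa [← norm_iter_fderiv, norm_iteratedFDeriv_zero] at this
          · refine Summable.of_norm_bounded (g := fun n => C0 * σ ^ n)
              ((summable_geometric_of_lt_one hσ0.le hσ1).mul_left C0) ?_
            intro n
            have := hC0 n 0 (mem_ball_self hr)
            rwa [norm_iteratedFDeriv_zero] at this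
        obtain ⟨M, hM⟩ := ih (fun n => fderiv ℝ (e n)) hfd hb'
        refine ⟨M, fun x hx => ?_⟩
        rw [← norm_iter_fderiv]
        have hev : fderiv ℝ (fun y => ∑' n, e n y) =ᶠ[𝓝 x] fun y => ∑' n, fderiv ℝ (e n) y := by
          filter_upwards [isOpen_ball.mem_nhds hx] with y hy using hD y hy
        rw [(Filter.EventuallyEq.iteratedFDeriv ℝ hev k).eq_of_nhds]
        exact hM x hx
    exact key k e hes hb'
  · intro x hx
    have h1 : (fun n => e n (F x)) = fun n => B (e (n + 1) x) := by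
      funext n
      rw [es]
      exact (hBB _).symm
    change ∑' n, e n (F x) = B (∑' n, e n x) - g x
    rw [h1, ← B.map_tsum ((summable_nat_add_iff 1).2 (hsum x hx)), (hsum x hx).tsum_eq_zero_add,
      map_add, e0, hBB]
    abel

namespace Fl

variable {W : Type} [NormedAddCommGroup W] [NormedSpace ℝ W] {r : ℝ} {K L : ℕ} {f g : E → W}

theorem nonneg_const (h : Fl r K g) : ∃ C, 0 ≤ C ∧ ∀ x ∈ ball (0 : E) r, ‖g x‖ ≤ C * ‖x‖ ^ K := by
  obtain ⟨C, hC⟩ := h
  refine ⟨|C|, abs_nonneg C, fun x hx => (hC x hx).trans ?_⟩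
  gcongr
  exact le_abs_self C

theorem add (hf : Fl r K f) (hg : Fl r K g) : Fl r K fun x => f x + g x := by
  obtain ⟨C, hC⟩ := hf
  obtain ⟨D, hD⟩ := hg
  exact ⟨C + D, fun x hx => (norm_add_le _ _).trans (by
    rw [add_mul]; exact add_le_add (hC x hx) (hD x hx))⟩

theorem sub (hf : Fl r K f) (hg : Fl r K g) : Fl r K fun x => f x - g x := by
  obtain ⟨C, hC⟩ := hf
  obtain ⟨D, hD⟩ := hg
  exact ⟨C + D, fun x hx => (norm_sub_le _ _).trans (by
    rw [add_mul]; exact add_le_add (hC x hx) (hD x hx))⟩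

theorem zero : Fl r K fun _ : E => (0 : W) := ⟨0, fun x _ => by simp⟩

theorem cmul {f : E → ℝ} (c : ℝ) (hf : Fl r K f) : Fl r K fun x => c * f x := by
  obtain ⟨C, hC⟩ := hf
  refine ⟨|c| * C, fun x hx => ?_⟩
  rw [norm_mul, Real.norm_eq_abs c, mul_assoc]
  exact mul_le_mul_of_nonneg_left (hC x hx) (abs_nonneg c)

theorem sum {ι : Type} (t : Finset ι) {f : ι → E → ℝ} (h : ∀ i ∈ t, Fl r K (f i)) :
    Fl r K fun x => ∑ i ∈ t, f i x := by
  classical
  induction t using Finset.induction_on with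
  | empty => simpa using (zero (W := ℝ) (r := r) (K := K) (E := E))
  | insert a t ha ih =>
    simp only [Finset.sum_insert ha]
    exact (h a (Finset.mem_insert_self _ _)).add
      (ih fun i hi => h i (Finset.mem_insert_of_mem hi))

theorem mul {f g : E → ℝ} (hf : Fl r K f) (hg : Fl r L g) : Fl r (K + L) fun x => f x * g x := by
  obtain ⟨C, hC0, hC⟩ := hf.nonneg_const
  obtain ⟨D, hD0, hD⟩ := hg.nonneg_const
  refine ⟨C * D, fun x hx => ?_⟩
  rw [norm_mul]
  calc _ ≤ (C * ‖x‖ ^ K) * (D * ‖x‖ ^ L) :=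
        mul_le_mul (hC x hx) (hD x hx) (norm_nonneg _) (by positivity)
    _ = _ := by rw [pow_add]; ring

theorem mono (hr : r ≤ 1) (hKL : K ≤ L) (h : Fl r L g) : Fl r K g := by
  obtain ⟨C, hC0, hC⟩ := h.nonneg_const
  refine ⟨C, fun x hx => (hC x hx).trans ?_⟩
  have hx1 : ‖x‖ ≤ 1 := (mem_ball_zero_iff.1 hx).le.trans hr
  exact mul_le_mul_of_nonneg_left (pow_le_pow_of_le_one (norm_nonneg _) hx1 hKL) hC0

theorem congr' (h : Fl r K g) (hfg : ∀ x ∈ ball (0 : E) r, f x = g x) : Fl r K f := by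
  obtain ⟨C, hC⟩ := h
  exact ⟨C, fun x hx => by rw [hfg x hx]; exact hC x hx⟩

/-- products of perturbed linear functions -/
theorem prod_sub {ι : Type} (t : Finset ι) {a b : ι → E → ℝ} (hr : r ≤ 1)
    (hab : ∀ i ∈ t, Fl r 2 fun x => a i x - b i x) (hb : ∀ i ∈ t, Fl r 1 (b i)) :
    Fl r t.card (fun x => ∏ i ∈ t, a i x) ∧
      Fl r (t.card + 1) fun x => (∏ i ∈ t, a i x) - ∏ i ∈ t, b i x := by
  classical
  induction t using Finset.induction_on with
  | empty =>
    constructor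
    · exact ⟨1, fun x _ => by simp⟩
    · exact ⟨0, fun x _ => by simp⟩
  | insert i t hi ih =>
    obtain ⟨h1, h2⟩ := ih (fun j hj => hab j (Finset.mem_insert_of_mem hj))
      (fun j hj => hb j (Finset.mem_insert_of_mem hj))
    have h3 := hab i (Finset.mem_insert_self _ _)
    have h4 := hb i (Finset.mem_insert_self _ _)
    have h5 : Fl r 1 (a i) := by
      have := (h3.mono hr (by norm_num : 1 ≤ 2)).add h4
      exact this.congr' fun x _ => by ring
    rw [Finset.card_insert_of_notMem hi]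
    constructor
    · have := h5.mul h1
      rw [add_comm] at this
      exact this.congr' fun x _ => by rw [Finset.prod_insert hi]
    · have h6 := h3.mul h1
      have h7 := h4.mul h2
      have h8 : Fl r (t.card + 1 + 1) fun x => (a i x - b i x) * ∏ i ∈ t, a i x := by
        have : 2 + t.card = t.card + 1 + 1 := by ring
        rwa [this] at h6
      have h9 : Fl r (t.card + 1 + 1) fun x => b i x *
          ((∏ i ∈ t, a i x) - ∏ i ∈ t, b i x) := by
        have : 1 + (t.card + 1) = t.card + 1 + 1 := by ring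
        rwa [this] at h7
      refine (h8.add h9).congr' fun x _ => ?_
      rw [Finset.prod_insert hi, Finset.prod_insert hi]
      ring

end Fl

/-- first order Taylor remainder -/
theorem lin_rem {W : Type} [NormedAddCommGroup W] [NormedSpace ℝ W] {g : E → W} {r : ℝ}
    (hg : ContDiffOn ℝ ∞ g (ball 0 r)) (hb : BD g (ball (0 : E) r)) :
    Fl r 2 fun x => g x - (g 0 + fderiv ℝ g 0 x) := by
  obtain ⟨M, hM⟩ := hb 2
  refine ⟨M, fun x hx => ?_⟩
  have := ray_taylor 2 hg hM x hx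
  have e : tay g 2 x = g 0 + fderiv ℝ g 0 x := by
    unfold tay
    rw [Finset.sum_range_succ, Finset.sum_range_succ, Finset.sum_range_zero]
    simp
  rwa [e] at this

end Vale.Agent.P207.N3.H790
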