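import Vale.Agent.P207.N3.H790.Diag

/-! Stationary normal form: linearisation for one exponent, reduction by linear changes. -/

open Set Filter Topology Metric
open scoped ContDiff Nat

noncomputable section

namespace Vale.Agent.P207.N3.H790

open NF

theorem exists_contr {F : E2 → E2} {R θ : ℝ} (hR : 0 < R) (hF : ContDiffOn ℝ ∞ F (ball 0 R))
    (h0 : F 0 = 0) (hA : ‖fderiv ℝ F 0‖ < θ) (hθ : θ < 1) :
    ∃ r, 0 < r ∧ r < R ∧ Contr F r θ := by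
  have hc : ContinuousAt (fun x => ‖fderiv ℝ F x‖) 0 :=
    ((contDiffOn_fderiv isOpen_ball hF).continuousOn.continuousAt
      (isOpen_ball.mem_nhds (mem_ball_self hR))).norm
  obtain ⟨δ, hδ, hb⟩ := Metric.eventually_nhds_iff_ball.1 (hc.eventually (gt_mem_nhds hA))
  set r : ℝ := min (min (R / 2) 1) δ with hr
  have hr0 : 0 < r := by positivity
  have h1 : r ≤ R / 2 := (min_le_left _ _).trans (min_le_left _ _)
  have h2 : r ≤ 1 := (min_le_left _ _).trans (min_le_right _ _)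
  have h3 : r ≤ δ := min_le_right _ _
  have h4 : r < R := by linarith
  exact ⟨r, hr0, h4, hr0, h2, hF.mono (ball_subset_ball h4.le), h0,
    fun x hx => (hb x (ball_subset_ball h3 hx)).le, hθ, BD_of_smooth hF h4⟩

theorem of_Fl2 {g : E2 → E2} {ρ : ℝ} (hρ : 0 < ρ) (hg : Fl ρ 2 g) :
    g 0 = 0 ∧ HasFDerivAt g (0 : E2 →L[ℝ] E2) 0 := by
  obtain ⟨C, hC0, hC⟩ := hg.nonneg_const
  have h0 : g 0 = 0 := by
    have := hC 0 (mem_ball_self hρ)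
    rw [norm_zero] at this
    simpa using this
  refine ⟨h0, ?_⟩
  rw [hasFDerivAt_iff_isLittleO_nhds_zero]
  have h1 : (fun x : E2 => g (0 + x) - g 0 - (0 : E2 →L[ℝ] E2) x) =O[𝓝 0] fun x : E2 => ‖x‖ ^ 2 := by
    refine Asymptotics.IsBigO.of_bound C ?_
    filter_upwards [ball_mem_nhds (0 : E2) hρ] with x hx
    rw [zero_add, h0, sub_zero, _root_.zero_apply, sub_zero]
    simpa using hC x hx
  refine h1.trans_isLittleO ?_
  have h2 := Asymptotics.isLittleO_norm_pow_norm_pow (E' := E2) (m := 1) (n := 2) (by norm_num)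
  simp only [pow_one] at h2
  exact h2.of_norm_right

theorem stern_lin {F : E2 → E2} {r θ b : ℝ} (hF : Contr F r θ) (A A' : E2 →L[ℝ] E2)
    (hAA : ∀ w, A (A' w) = w) (hA : fderiv ℝ F 0 = A) (hb : ‖A'‖ ≤ b) (hbθ : b * θ ^ 2 < 1) :
    ∃ h : E2 → E2, ContDiffOn ℝ ∞ h (ball 0 r) ∧ (Fl r 2 fun x => h x - x) ∧
      ∀ x ∈ ball (0 : E2) r, h (F x) = A (h x) := by
  have hAs : ∀ s, ContDiffOn ℝ ∞ (fun x : E2 => A x) (ball (0 : E2) s) :=
    fun s => A.contDiff.contDiffOn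
  have hAb : BD (fun x : E2 => A x) (ball (0 : E2) r) := BD_of_smooth (hAs (r + 1)) (by linarith)
  have hg : ContDiffOn ℝ ∞ (fun x => F x - A x) (ball (0 : E2) r) := hF.smooth.sub (hAs r)
  have hgb : BD (fun x => F x - A x) (ball (0 : E2) r) := BD_sub hF.smooth (hAs r) hF.bd hAb
  have hgF : Fl r 2 fun x => F x - A x := by
    refine (lin_rem hF.smooth hF.bd).congr' fun x _ => ?_
    rw [hF.zero, zero_add, hA]
  obtain ⟨s, hs, hsF, -, hse⟩ := flat_solve hF A A' hAA hb hbθ hg hgb hgF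
  refine ⟨fun x => x + s x, contDiffOn_id.add hs, hsF.congr' fun x _ => by simp, ?_⟩
  intro x hx
  change F x + s (F x) = A (x + s x)
  rw [hse x hx, map_add]
  abel

/-- the conclusion of the theorem on the stationary normal form -/
def Good (F : E2 → E2) (R : ℝ) : Prop :=
  ∃ (h : E2 → E2) (U : Set E2) (N : NF), IsOpen U ∧ 0 ∈ U ∧ U ⊆ ball 0 R ∧ N.OK ∧
    ContDiffOn ℝ ∞ h U ∧ h 0 = 0 ∧ (∃ D : E2 ≃L[ℝ] E2, HasFDerivAt h (D : E2 →L[ℝ] E2) 0) ∧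
    MapsTo F U U ∧ ∀ u ∈ U, h u = N.fn (h (F u))

/-- reduction by a linear change of coordinates -/
theorem reduce {F : E2 → E2} {R : ℝ} {A : E2 →L[ℝ] E2} (hR : 0 < R)
    (hF : ContDiffOn ℝ ∞ F (ball 0 R)) (h0 : F 0 = 0) (hA : fderiv ℝ F 0 = A)
    (P : E2 ≃L[ℝ] E2) (A' : E2 →L[ℝ] E2) (hP : ∀ x, A (P x) = P (A' x))
    (key : ∀ (F' : E2 → E2) (R' : ℝ), 0 < R' → ContDiffOn ℝ ∞ F' (ball 0 R') → F' 0 = 0 →
      fderiv ℝ F' 0 = A' → Good F' R') : Good F R := by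
  obtain ⟨R', hR', hPR⟩ : ∃ R' > 0, MapsTo P (ball 0 R') (ball 0 R) := by
    have h1 : Tendsto P (𝓝 0) (𝓝 0) := by
      have := P.continuous.tendsto 0
      rwa [map_zero] at this
    have h2 := h1 (ball_mem_nhds (0 : E2) hR)
    obtain ⟨R', hR', hb⟩ := Metric.mem_nhds_iff.1 h2
    exact ⟨R', hR', fun x hx => hb hx⟩
  set F' : E2 → E2 := fun x => P.symm (F (P x)) with hF'
  have hF's : ContDiffOn ℝ ∞ F' (ball 0 R') :=
    P.symm.contDiff.comp_contDiffOn (hF.comp P.contDiff.contDiffOn hPR)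
  have hF'0 : F' 0 = 0 := by simp [hF', h0]
  have hF'A : fderiv ℝ F' 0 = A' := by
    have h1 : HasFDerivAt F A (P 0) := by
      rw [map_zero, ← hA]
      exact ((hF.contDiffAt (isOpen_ball.mem_nhds (mem_ball_self hR))).differentiableAt
        (by simp)).hasFDerivAt
    have h2 : HasFDerivAt F' ((P.symm : E2 →L[ℝ] E2) ∘L (A ∘L (P : E2 →L[ℝ] E2))) 0 :=
      P.symm.hasFDerivAt.comp (0 : E2) (h1.comp (0 : E2) P.hasFDerivAt)
    rw [h2.fderiv]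
    ext1 x
    change P.symm (A (P x)) = A' x
    rw [hP, P.symm_apply_apply]
  obtain ⟨h, U, N, hU, h0U, hUR, hN, hs, hh0, ⟨D, hD⟩, hmap, heq⟩ := key F' R' hR' hF's hF'0 hF'A
  refine ⟨fun x => h (P.symm x), P.symm ⁻¹' U, N, hU.preimage P.symm.continuous, ?_, ?_, hN, ?_,
    ?_, ⟨P.symm.trans D, ?_⟩, ?_, ?_⟩
  · simpa using h0U
  · intro x hx
    have := hPR (hUR hx)
    rwa [P.apply_symm_apply] at this
  · exact hs.comp P.symm.contDiff.contDiffOn fun x hx => hx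
  · simpa using hh0
  · have h1 : HasFDerivAt h (D : E2 →L[ℝ] E2) (P.symm 0) := by rwa [map_zero]
    exact h1.comp (0 : E2) P.symm.hasFDerivAt
  · intro x hx
    have := hmap hx
    simp only [hF', P.apply_symm_apply] at this
    exact this
  · intro x hx
    have := heq _ hx
    simp only [hF', P.apply_symm_apply] at this
    exact this

theorem fderiv_of_Fl2 {h : E2 → E2} {ρ : ℝ} (hρ : 0 < ρ) (hg : Fl ρ 2 fun x => h x - x) :
    h 0 = 0 ∧ ∃ D : E2 ≃L[ℝ] E2, HasFDerivAt h (D : E2 →L[ℝ] E2) 0 := by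
  obtain ⟨h1, h2⟩ := of_Fl2 hρ hg
  refine ⟨by simpa using h1, ContinuousLinearEquiv.refl ℝ E2, ?_⟩
  have h3 := h2.add (hasFDerivAt_id (0 : E2))
  rw [zero_add] at h3
  refine h3.congr_of_eventuallyEq (Eventually.of_forall fun x => ?_)
  simp

theorem good_lin {A A' : E2 →L[ℝ] E2} {θ b : ℝ} (hAA : ∀ w, A (A' w) = w) (hA : ‖A‖ < θ)
    (hθ : θ < 1) (hb : ‖A'‖ ≤ b) (hbθ : b * θ ^ 2 < 1) {N : NF} (hN : N.OK)
    (hNA : ∀ y, N.fn (A y) = y) (F : E2 → E2) (R : ℝ) (hR : 0 < R)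
    (hF : ContDiffOn ℝ ∞ F (ball 0 R)) (h0 : F 0 = 0) (hFA : fderiv ℝ F 0 = A) : Good F R := by
  obtain ⟨r, hr, hrR, hC⟩ := exists_contr hR hF h0 (by rwa [hFA]) hθ
  obtain ⟨h, hs, hF2, he⟩ := stern_lin hC A A' hAA hFA hb hbθ
  obtain ⟨h1, h2⟩ := fderiv_of_Fl2 hr hF2
  refine ⟨h, ball 0 r, N, isOpen_ball, mem_ball_self hr, ball_subset_ball hrR.le, hN, hs, h1, h2,
    mapsTo_ball hC.smooth hC.zero hC.contr hC.θ_lt.le, fun u hu => ?_⟩
  rw [he u hu, hNA]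

/-- the linear map with matrix `(a, b; c, d)` -/
def lin2 (a b c d : ℝ) : E2 →L[ℝ] E2 :=
  LinearMap.toContinuousLinearMap
    { toFun := fun x => !₂[a * x 0 + b * x 1, c * x 0 + d * x 1]
      map_add' := fun x y => by
        apply ext2
        · change a * (x 0 + y 0) + b * (x 1 + y 1) = (a * x 0 + b * x 1) + (a * y 0 + b * y 1)
          ring
        · change c * (x 0 + y 0) + d * (x 1 + y 1) = (c * x 0 + d * x 1) + (c * y 0 + d * y 1)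
          ring
      map_smul' := fun t x => by
        apply ext2
        · change a * (t * x 0) + b * (t * x 1) = t * (a * x 0 + b * x 1)
          ring
        · change c * (t * x 0) + d * (t * x 1) = t * (c * x 0 + d * x 1)
          ring }

theorem lin2_zero (a b c d : ℝ) (x : E2) : lin2 a b c d x 0 = a * x 0 + b * x 1 := rfl

theorem lin2_one (a b c d : ℝ) (x : E2) : lin2 a b c d x 1 = c * x 0 + d * x 1 := rfl

theorem norm_sq2 (x : E2) : ‖x‖ ^ 2 = x 0 ^ 2 + x 1 ^ 2 := by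
  rw [EuclideanSpace.norm_sq_eq, Fin.sum_univ_two, Real.norm_eq_abs, Real.norm_eq_abs, sq_abs,
    sq_abs]

theorem norm_lin2_diag {a d : ℝ} (h : |a| ≤ |d|) : ‖lin2 a 0 0 d‖ ≤ |d| := by
  refine ContinuousLinearMap.opNorm_le_bound _ (abs_nonneg d) fun x => ?_
  refine (sq_le_sq₀ (norm_nonneg _) (by positivity)).1 ?_
  rw [mul_pow, norm_sq2, norm_sq2, lin2_zero, lin2_one, sq_abs]
  have h1 : a ^ 2 ≤ d ^ 2 := sq_le_sq.2 h
  nlinarith [sq_nonneg (x 0), mul_le_mul_of_nonneg_right h1 (sq_nonneg (x 0))]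

theorem good_diag {ν₁ ν₂ : ℝ} (h1 : ν₁ ≠ 0) (h2 : ν₂ ≠ 0) (hle : |ν₁| ≤ |ν₂|) (hlt : |ν₂| < 1)
    (F : E2 → E2) (R : ℝ) (hR : 0 < R)
    (hF : ContDiffOn ℝ ∞ F (ball 0 R)) (h0 : F 0 = 0) (hFA : fderiv ℝ F 0 = lin2 ν₁ 0 0 ν₂) :
    Good F R := by
  have hν : 0 < |ν₂| := abs_pos.2 h2
  obtain ⟨θ, hθ1, hθ2⟩ : ∃ θ, |ν₂| < θ ∧ θ < √|ν₂| := by
    apply exists_between
    rw [Real.lt_sqrt hν.le]
    nlinarith
  have hθ0 : 0 < θ := hν.trans hθ1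
  have hθsq : θ ^ 2 < |ν₂| := (Real.lt_sqrt hθ0.le).1 hθ2
  have hθlt : θ < 1 := by nlinarith
  obtain ⟨r, hr, hrR, hC⟩ := exists_contr hR hF h0
    (by rw [hFA]; exact (norm_lin2_diag hle).trans_lt hθ1) hθlt
  have hlin : ∀ i, Fl r 2 fun x => F x i - (![ν₁, ν₂] i) * x i := by
    intro i
    obtain ⟨C, hC⟩ := lin_rem hC.smooth hC.bd
    refine ⟨C, fun x hx => ?_⟩
    have h3 : ‖F x - (F 0 + fderiv ℝ F 0 x)‖ ≤ C * ‖x‖ ^ 2 := hC x hx
    rw [h0, zero_add, hFA] at h3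
    refine le_trans ?_ h3
    change ‖F x i - (![ν₁, ν₂] i) * x i‖ ≤ _
    have h4 : F x i - (![ν₁, ν₂] i) * x i = (F x - lin2 ν₁ 0 0 ν₂ x) i := by
      fin_cases i
      · change F x 0 - ν₁ * x 0 = F x 0 - (ν₁ * x 0 + 0 * x 1)
        ring
      · change F x 1 - ν₂ * x 1 = F x 1 - (0 * x 0 + ν₂ * x 1)
        ring
    rw [h4]
    exact EuclideanSpace.norm_eq (F x - lin2 ν₁ 0 0 ν₂ x) ▸ (by
      have : ‖(F x - lin2 ν₁ 0 0 ν₂ x) i‖ ^ 2 ≤ ∑ j, ‖(F x - lin2 ν₁ 0 0 ν₂ x) j‖ ^ 2 :=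
        Finset.single_le_sum (f := fun j => ‖(F x - lin2 ν₁ 0 0 ν₂ x) j‖ ^ 2)
          (fun j _ => by positivity) (Finset.mem_univ i)
      exact Real.le_sqrt_of_sq_le this)
  have D : DiagData F r θ ν₁ ν₂ := ⟨hC, h1, h2, hle, hlt, hlin⟩
  obtain ⟨h, ρ, κ, k, hρ, hρr, hκ, hs, hF2, he⟩ := stern_diag D hθsq
  obtain ⟨h3, h4⟩ := fderiv_of_Fl2 hρ hF2
  have hCρ := hC.anti hρ hρr
  refine ⟨h, ball 0 ρ, NF.tri ν₁⁻¹ ν₂⁻¹ (-(ν₁⁻¹ * κ * ν₂⁻¹ ^ k)) k, isOpen_ball,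
    mem_ball_self hρ, ball_subset_ball (hρr.trans hrR.le), ⟨?_, ?_, ?_⟩, hs, h3, h4,
    mapsTo_ball hCρ.smooth hCρ.zero hCρ.contr hCρ.θ_lt.le, fun u hu => ?_⟩
  · rw [abs_inv]
    exact (one_lt_inv₀ hν).2 hlt
  · rw [abs_inv, abs_inv]
    exact inv_anti₀ (abs_pos.2 h1) hle
  · intro h5
    have h6 : κ ≠ 0 := by
      rintro rfl
      simp at h5
    obtain ⟨h7, h8⟩ := hκ h6
    refine ⟨by omega, ?_⟩
    rw [inv_pow, h8]
  · rw [he u hu]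
    apply ext2
    · rw [fn_tri_zero]
      change h u 0 = ν₁⁻¹ * (ν₁ * h u 0 + κ * h u 1 ^ k)
        + -(ν₁⁻¹ * κ * ν₂⁻¹ ^ k) * (ν₂ * h u 1) ^ k
      rw [mul_pow]
      have h9 : ν₂⁻¹ ^ k * ν₂ ^ k = 1 := by
        rw [← mul_pow, inv_mul_cancel₀ h2, one_pow]
      have h10 : ν₁⁻¹ * ν₁ = 1 := inv_mul_cancel₀ h1
      linear_combination (-(h u 0)) * h10 + (ν₁⁻¹ * κ * h u 1 ^ k) * h9
    · rw [fn_tri_one]
      change h u 1 = ν₂⁻¹ * (ν₂ * h u 1)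
      rw [← mul_assoc, inv_mul_cancel₀ h2, one_mul]

end Vale.Agent.P207.N3.H790
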