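import Mathlib

/-! Calculus of small errors in a normed ring: `Near g a b` means `a m = b + O(g m)`. -/

open Set Filter Topology Metric Asymptotics

noncomputable section

namespace Vale.Agent.P207.N3.H790

variable {R : Type} [NormedRing R]

/-- `a m = b + O(g m)` -/
def Near (g : ℕ → ℝ) (a : ℕ → R) (b : R) : Prop := (fun m => a m - b) =O[atTop] g

namespace Near

variable {g : ℕ → ℝ} {a a' : ℕ → R} {b b' : R}

theorem const (b : R) : Near g (fun _ => b) b := by
  unfold Near
  simpa using isBigO_zero g atTop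

theorem congr (h : Near g a b) (e : ∀ᶠ m in atTop, a m = a' m) : Near g a' b := by
  refine IsBigO.congr' h ?_ EventuallyEq.rfl
  filter_upwards [e] with m hm
  rw [hm]

theorem tendsto (hg : Tendsto g atTop (𝓝 0)) (h : Near g a b) : Tendsto a atTop (𝓝 b) := by
  have h1 := (h.trans_tendsto hg).add_const b
  simpa using h1

theorem bdd (hg : Tendsto g atTop (𝓝 0)) (h : Near g a b) : a =O[atTop] (fun _ => (1 : ℝ)) :=
  (h.tendsto hg).isBigO_one ℝ

theorem mul (hg : Tendsto g atTop (𝓝 0)) (h : Near g a b) (h' : Near g a' b') :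
    Near g (fun m => a m * a' m) (b * b') := by
  unfold Near
  have e : (fun m => a m * a' m - b * b') = fun m => (a m - b) * a' m + b * (a' m - b') := by
    funext m
    noncomm_ring
  rw [e]
  have h1 : (fun m => (a m - b) * a' m) =O[atTop] fun m => g m * 1 :=
    IsBigO.mul h (h'.bdd hg)
  have h2 : (fun m => b * (a' m - b')) =O[atTop] fun m => 1 * g m :=
    IsBigO.mul (isBigO_const_const b one_ne_zero atTop) h'
  simp only [mul_one, one_mul] at h1 h2
  exact h1.add h2

theorem one_add {c : ℕ → R} (h : c =O[atTop] g) : Near g (fun m => 1 + c m) 1 := by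
  unfold Near
  simpa using h

section inv

set_option linter.unusedSectionVars false

variable [NormedAlgebra ℝ R] [CompleteSpace R]

theorem isUnit (hg : Tendsto g atTop (𝓝 0)) {u : Rˣ} (h : Near g a u) :
    ∀ᶠ m in atTop, IsUnit (a m) :=
  (h.tendsto hg).eventually (Units.nhds u)

theorem inverse (hg : Tendsto g atTop (𝓝 0)) {u : Rˣ} (h : Near g a u) :
    Near g (fun m => Ring.inverse (a m)) ↑u⁻¹ := by
  have h1 := (hasFDerivAt_ringInverse (𝕜 := ℝ) u).isBigO_sub
  have h2 := h1.comp_tendsto (h.tendsto hg)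
  unfold Near
  have e : (fun m => Ring.inverse (a m) - ↑u⁻¹)
      = (fun y => Ring.inverse y - Ring.inverse (u : R)) ∘ a := by
    funext m
    simp only [Function.comp_apply, Ring.inverse_unit]
  rw [e]
  exact h2.trans h

end inv

end Near

theorem poly_exp_core (p : ℕ) {δ : ℝ} (hδ : 0 < δ) :
    (fun m : ℕ => (1 + (m : ℝ)) ^ p * Real.exp (-(δ * m))) =O[atTop] (fun _ => (1 : ℝ)) := by
  have h1 : Tendsto (fun m : ℕ => δ * (1 + (m : ℝ))) atTop atTop :=
    (tendsto_atTop_add_const_left _ _ tendsto_natCast_atTop_atTop).const_mul_atTop hδ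
  have h2 := (Real.tendsto_pow_mul_exp_neg_atTop_nhds_zero p).comp h1
  have h4 := (h2.const_mul (Real.exp δ * (δ ^ p)⁻¹)).isBigO_one ℝ
  refine h4.congr_left fun m => ?_
  simp only [Function.comp_apply]
  have e1 : Real.exp (-(δ * (1 + (m : ℝ)))) = Real.exp (-δ) * Real.exp (-(δ * m)) := by
    rw [← Real.exp_add]
    congr 1
    ring
  have e2 : Real.exp δ * Real.exp (-δ) = 1 := by
    rw [← Real.exp_add, add_neg_cancel, Real.exp_zero]
  have e3 : (δ ^ p)⁻¹ * δ ^ p = 1 := inv_mul_cancel₀ (pow_pos hδ p).ne'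
  rw [e1, mul_pow]
  calc _ = (Real.exp δ * Real.exp (-δ)) * ((δ ^ p)⁻¹ * δ ^ p)
        * ((1 + (m : ℝ)) ^ p * Real.exp (-(δ * m))) := by ring
    _ = _ := by rw [e2, e3, one_mul, one_mul]

/-- absorption of a polynomial -/
theorem poly_exp (p : ℕ) {l a b : ℝ} (hl : 0 < l) (hab : a < b) :
    (fun m : ℕ => (1 + (m : ℝ)) ^ p * Real.exp (-b * l * m))
      =O[atTop] fun m : ℕ => Real.exp (-a * l * m) := by
  have hδ : 0 < (b - a) * l := mul_pos (sub_pos.2 hab) hl
  have h5 := (poly_exp_core p hδ).mul (isBigO_refl (fun m : ℕ => Real.exp (-a * l * m)) atTop)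
  refine h5.congr (fun m => ?_) (fun m => by rw [one_mul])
  rw [mul_assoc, ← Real.exp_add]
  congr 2
  ring

theorem exp_tendsto {l c : ℝ} (hl : 0 < l) (hc : 0 < c) :
    Tendsto (fun m : ℕ => Real.exp (-c * l * m)) atTop (𝓝 0) := by
  have h1 : Tendsto (fun m : ℕ => c * l * (m : ℝ)) atTop atTop :=
    tendsto_natCast_atTop_atTop.const_mul_atTop (mul_pos hc hl)
  refine (Real.tendsto_exp_neg_atTop_nhds_zero.comp h1).congr fun m => ?_
  simp only [Function.comp_apply]
  congr 1
  ring

theorem exp_mono {l a b : ℝ} (hl : 0 < l) (hab : a ≤ b) :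
    (fun m : ℕ => Real.exp (-b * l * m)) =O[atTop] fun m : ℕ => Real.exp (-a * l * m) := by
  refine IsBigO.of_bound 1 (Eventually.of_forall fun m => ?_)
  rw [one_mul, Real.norm_of_nonneg (Real.exp_nonneg _), Real.norm_of_nonneg (Real.exp_nonneg _)]
  refine Real.exp_le_exp.2 ?_
  have : 0 ≤ l * m := by positivity
  nlinarith

end Vale.Agent.P207.N3.H790
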