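import Vale.Agent.P207.N3.H790.Abs
import Vale.Agent.P207.N3.H310.HolE3
import Vale.Agent.P207.N3.H319.InvRate

/-! The closing formula for all forward coordinates. -/

open Set Filter Topology Metric MeasureTheory Asymptotics
open scoped ContDiff

noncomputable section

namespace Vale.Agent.P207.N3.H790

theorem trans_abs {N : NF} (hN : N.OK) {l c χ : ℝ} (hl : 0 < l) (hc : 0 < c) (hχ : c < χ)
    {w : ℕ → E2} {M E D : ℕ → E2 →L[ℝ] E2} {P : ℕ → E2 ≃L[ℝ] E2} {S B₁ B : E2 →L[ℝ] E2}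
    (hw : w =O[atTop] fun m : ℕ => Real.exp (-χ * l * m))
    (hE : E =O[atTop] (fun m : ℕ => Real.exp (-c * l * m)))
    (hD : D =O[atTop] fun m : ℕ => Real.exp (-c * l * m))
    (hB : IsUnit B) (hS : IsUnit S) (hBS : B₁ = S * B)
    (hL : ∀ᶠ m : ℕ in atTop, N.Lam ^ m * S = (1 + D m) * N.Lam ^ m)
    (hf : ∀ᶠ m in atTop, (fderiv ℝ (N.fn^[m]) (w m) * (B₁ + E m))
      * ((P m : E2 →L[ℝ] E2) * M m) = (P m : E2 →L[ℝ] E2)) :
    ∃ (E' : ℕ → E2 →L[ℝ] E2) (P' : ℕ → E2 ≃L[ℝ] E2),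
      E' =O[atTop] (fun m : ℕ => Real.exp (-c * l * m)) ∧
      ∀ᶠ m in atTop, (fderiv ℝ (N.fn^[m]) (w m) * (B + E' m)) * ((P' m : E2 →L[ℝ] E2) * M m)
        = (P' m : E2 →L[ℝ] E2) := by
  have hg : Tendsto (fun m : ℕ => Real.exp (-c * l * m)) atTop (𝓝 0) := exp_tendsto hl hc
  obtain ⟨J, hJ, hJe⟩ := exists_J hN hl (hc.trans hχ) hχ hw
  obtain ⟨Su, rfl⟩ := hS
  obtain ⟨Bu, rfl⟩ := hB
  have hS₂ : Near (fun m : ℕ => Real.exp (-c * l * m)) (fun m => 1 + D m) 1 := Near.one_add hD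
  have h1J : Near (fun m : ℕ => Real.exp (-c * l * m)) (fun m => 1 + J m)
    ((1 : (E2 →L[ℝ] E2)ˣ) : E2 →L[ℝ] E2) := Near.one_add hJ
  have h1Ji := h1J.inverse hg
  have h1Ju := h1J.isUnit hg
  rw [inv_one, Units.val_one] at h1Ji
  have hJ' : (fun m => (↑Su⁻¹ : E2 →L[ℝ] E2) * J m * Su)
      =O[atTop] (fun m : ℕ => Real.exp (-c * l * m)) := by
    have e1 := (isBigO_const_const (↑Su⁻¹ : E2 →L[ℝ] E2) (one_ne_zero' ℝ) atTop).mul hJ
    have e2 := e1.mul (isBigO_const_const (Su : E2 →L[ℝ] E2) (one_ne_zero' ℝ) atTop)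
    simpa only [one_mul, mul_one] using e2
  have h1J' : Near (fun m : ℕ => Real.exp (-c * l * m))
    (fun m => 1 + (↑Su⁻¹ : E2 →L[ℝ] E2) * J m * Su) 1 := Near.one_add hJ'
  have hBE : Near (fun m : ℕ => Real.exp (-c * l * m))
      (fun m => (Bu : E2 →L[ℝ] E2) + (↑Su⁻¹ : E2 →L[ℝ] E2) * E m) Bu := by
    have e1 := (isBigO_const_const (↑Su⁻¹ : E2 →L[ℝ] E2) (one_ne_zero' ℝ) atTop).mul hE
    simp only [one_mul] at e1
    unfold Near
    simpa using e1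
  have hall := ((h1Ji.mul hg h1J').mul hg hBE).mul hg hS₂
  rw [one_mul, one_mul, mul_one] at hall
  have hS₂u : ∀ᶠ m in atTop, IsUnit (1 + D m) := eventually_isUnit (hS₂.tendsto hg) isUnit_one
  have hfin : ∀ᶠ m in atTop, ∃ P' : E2 ≃L[ℝ] E2, (fderiv ℝ (N.fn^[m]) (w m) * ((Bu : E2 →L[ℝ] E2)
      + (Ring.inverse (1 + J m) * (1 + (↑Su⁻¹ : E2 →L[ℝ] E2) * J m * Su)
        * ((Bu : E2 →L[ℝ] E2) + (↑Su⁻¹ : E2 →L[ℝ] E2) * E m) * (1 + D m) - Bu)))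
        * ((P' : E2 →L[ℝ] E2) * M m) = (P' : E2 →L[ℝ] E2) := by
    filter_upwards [hJe, hL, h1Ju, hS₂u, hf] with m hJe hL hJu hS₂u hf
    have h1 := Ring.inverse_mul_cancel _ hS₂u
    have h1' := Ring.mul_inverse_cancel _ hS₂u
    have hJJ := Ring.mul_inverse_cancel _ hJu
    have e3 : fderiv ℝ (N.fn^[m]) (w m) * (B₁ + E m) = (1 + D m) * (fderiv ℝ (N.fn^[m]) (w m)
        * (Ring.inverse (1 + J m) * (1 + (↑Su⁻¹ : E2 →L[ℝ] E2) * J m * Su)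
        * ((Bu : E2 →L[ℝ] E2) + (↑Su⁻¹ : E2 →L[ℝ] E2) * E m))) := by
      have a1 : B₁ + E m = Su * ((Bu : E2 →L[ℝ] E2) + (↑Su⁻¹ : E2 →L[ℝ] E2) * E m) := by
        rw [mul_add, ← mul_assoc, Units.mul_inv, one_mul, hBS]
      have a2 : (1 + J m) * (Su : E2 →L[ℝ] E2) = Su * (1 + (↑Su⁻¹ : E2 →L[ℝ] E2) * J m * Su) := by
        rw [mul_add, mul_one, add_mul, one_mul]
        congr 1
        rw [← mul_assoc, ← mul_assoc, Units.mul_inv, one_mul]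
      have a3 : fderiv ℝ (N.fn^[m]) (w m) * Ring.inverse (1 + J m) = N.Lam ^ m := by
        rw [hJe, mul_assoc, hJJ, mul_one]
      calc fderiv ℝ (N.fn^[m]) (w m) * (B₁ + E m)
          = N.Lam ^ m * ((1 + J m) * Su)
            * ((Bu : E2 →L[ℝ] E2) + (↑Su⁻¹ : E2 →L[ℝ] E2) * E m) := by
              rw [a1, hJe]
              simp only [mul_assoc]
        _ = (N.Lam ^ m * Su) * ((1 + (↑Su⁻¹ : E2 →L[ℝ] E2) * J m * Su)
            * ((Bu : E2 →L[ℝ] E2) + (↑Su⁻¹ : E2 →L[ℝ] E2) * E m)) := by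
              rw [a2]
              simp only [mul_assoc]
        _ = (1 + D m) * ((fderiv ℝ (N.fn^[m]) (w m) * Ring.inverse (1 + J m))
            * ((1 + (↑Su⁻¹ : E2 →L[ℝ] E2) * J m * Su)
            * ((Bu : E2 →L[ℝ] E2) + (↑Su⁻¹ : E2 →L[ℝ] E2) * E m))) := by
              rw [hL, a3]
              simp only [mul_assoc]
        _ = _ := by simp only [mul_assoc]
    have hPu : IsUnit (Ring.inverse (1 + D m) * (P m : E2 →L[ℝ] E2)) := by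
      refine IsUnit.mul ?_ (isUnit_equiv (P m))
      obtain ⟨s, hs⟩ := hS₂u
      rw [← hs, Ring.inverse_unit]
      exact Units.isUnit _
    obtain ⟨P', hP'⟩ := exists_equiv hPu
    refine ⟨P', ?_⟩
    have h8 := conj_form h1 h1' e3 hP' hf
    rw [add_sub_cancel]
    exact h8
  classical
  refine ⟨fun m => Ring.inverse (1 + J m) * (1 + (↑Su⁻¹ : E2 →L[ℝ] E2) * J m * Su)
        * ((Bu : E2 →L[ℝ] E2) + (↑Su⁻¹ : E2 →L[ℝ] E2) * E m) * (1 + D m) - Bu,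
    fun m => if h : _ then Exists.choose (p := fun P' : E2 ≃L[ℝ] E2 =>
      (fderiv ℝ (N.fn^[m]) (w m) * ((Bu : E2 →L[ℝ] E2)
      + (Ring.inverse (1 + J m) * (1 + (↑Su⁻¹ : E2 →L[ℝ] E2) * J m * Su)
        * ((Bu : E2 →L[ℝ] E2) + (↑Su⁻¹ : E2 →L[ℝ] E2) * E m) * (1 + D m) - Bu)))
        * ((P' : E2 →L[ℝ] E2) * M m) = (P' : E2 →L[ℝ] E2)) h
      else ContinuousLinearEquiv.refl ℝ E2, hall, ?_⟩
  filter_upwards [hfin] with m hm
  simp only [dif_pos hm]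
  exact hm.choose_spec

open H147

variable {Γ X B : Type} [Group Γ] [MetricSpace X] [ProperSpace X] [MulAction Γ X]
  [IsIsometricSMul Γ X] [TopologicalSpace B] [CompactSpace B] [T2Space B] [MulAction Γ B]
  [ContinuousConstSMul Γ B] {L : Leaf Γ X B}

/-- lower rate -/
def Fwd_mono {o : Orb L} {x : B → E2} {N : E2 → E2} {c₁ c₂ : ℝ} (h : c₂ ≤ c₁)
    (W : Fwd o x N c₁) : Fwd o x N c₂ where
  F := W.F
  base := W.base
  smooth := W.smooth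
  cont := W.cont
  deriv := W.deriv
  conv := by
    intro K hK hKp Q hQ hQe k
    obtain ⟨C, hC⟩ := W.conv K hK hKp Q hQ hQe k
    refine ⟨max C 0, ?_⟩
    filter_upwards [hC] with m hm ζ hζ y hy
    obtain ⟨h1, h2, h3, h4⟩ := hm ζ hζ y hy
    refine ⟨h1, h2, h3, fun u hu => (h4 u hu).trans ?_⟩
    have hl : 0 < o.l := o.ax.pos
    refine mul_le_mul (le_max_left _ _) (Real.exp_le_exp.2 ?_) (Real.exp_nonneg _)
      (le_max_right _ _)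
    have : 0 ≤ o.l * m := by positivity
    nlinarith
  conv3 := W.conv3

/-- comparison of the linear parts of two forward coordinates -/
theorem compare {o : Orb L} {n : Nor L o} {c₁ c₂ : ℝ} (h1 : c₂ ≤ c₁) (h0 : 0 < c₂)
    (W₁ : Fwd o n.x n.N.fn c₁) (W : Fwd o n.x n.N.fn c₂) {ζ : B} (hζ : ζ ≠ o.pos) :
    ∃ (S : E2 →L[ℝ] E2) (D : ℕ → E2 →L[ℝ] E2), IsUnit S ∧ H310.Am W₁ ζ = S * H310.Am W ζ ∧
      D =O[atTop] (fun m : ℕ => Real.exp (-c₂ * o.l * m)) ∧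
      ∀ m : ℕ, n.N.Lam ^ m * S = (1 + D m) * n.N.Lam ^ m := by
  have hl : 0 < o.l := o.ax.pos
  have hK : IsCompact ({ζ} : Set B) := isCompact_singleton
  have hKp : o.pos ∉ ({ζ} : Set B) := fun h => hζ h.symm
  obtain ⟨C1, hC1, hv1⟩ := H310.conv_zero W₁ hK hKp
  obtain ⟨C2, hC2, hv2⟩ := H310.conv_zero W hK hKp
  obtain ⟨Y₀, hY, -⟩ := H310.exists_smul_eq n
  obtain ⟨A', hA1, hA2⟩ := H310.exists_inv_of_det (T := H310.Am W ζ) (W.deriv ζ hζ)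
  have hΛ : ∀ m : ℕ, n.N.Lami ^ m * n.N.Lam ^ m = 1 := by
    intro m
    have h3 : Commute n.N.Lami n.N.Lam := by
      rw [commute_iff_eq, NF.Lami_mul_Lam n.ok, NF.Lam_mul_Lami n.ok]
    rw [← h3.mul_pow, NF.Lami_mul_Lam n.ok, one_pow]
  set X₀ := fderiv ℝ (fun u => n.x (L.e o.x u)) 0 with hX₀
  refine ⟨H310.Am W₁ ζ * A', fun m => n.N.Lam ^ m * (H310.Am W₁ ζ * A') * n.N.Lami ^ m - 1,
    ?_, ?_, ?_, fun m => ?_⟩
  · refine (isUnit_of_det (W₁.deriv ζ hζ)).mul ?_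
    exact ⟨⟨A', H310.Am W ζ, hA2, hA1⟩, rfl⟩
  · rw [mul_assoc, hA2, mul_one]
  · have hg : Tendsto (fun m : ℕ => Real.exp (-c₂ * o.l * m)) atTop (𝓝 0) := exp_tendsto hl h0
    have hsm : ∀ᶠ m : ℕ in atTop, C2 * Real.exp (-c₂ * o.l * m) * ‖Y₀‖ ≤ 1 / 2 := by
      have h3 := (hg.const_mul C2).mul_const ‖Y₀‖
      rw [mul_zero, zero_mul] at h3
      exact h3.eventually (ge_mem_nhds (by norm_num))
    refine IsBigO.of_bound (2 * ((C1 + C2) * ‖Y₀‖)) ?_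
    filter_upwards [hv1, hv2, hsm] with m h1m h2m h3m
    obtain ⟨-, h4⟩ := h1m
    obtain ⟨-, h5⟩ := h2m
    have h4 := h4 ζ rfl
    have h5 := h5 ζ rfl
    set T := fderiv ℝ (R L (m * o.l) (L.hol ζ o.x)) 0 * H310.oc (o.a ^ m) with hT
    set E₁ := n.N.Lam ^ m * (H310.Am W₁ ζ * T) - X₀ with hE₁
    set E₂ := n.N.Lam ^ m * (H310.Am W ζ * T) - X₀ with hE₂
    have hkey : n.N.Lam ^ m * (H310.Am W₁ ζ * A') * n.N.Lami ^ m * (X₀ + E₂)
        = (X₀ + E₁) * (1 + 0) := by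
      rw [hE₁, hE₂, add_sub_cancel, add_sub_cancel, add_zero, mul_one]
      calc _ = n.N.Lam ^ m * (H310.Am W₁ ζ * A') * ((n.N.Lami ^ m * n.N.Lam ^ m) *
            (H310.Am W ζ * T)) := by simp only [mul_assoc]
        _ = n.N.Lam ^ m * (H310.Am W₁ ζ * ((A' * H310.Am W ζ) * T)) := by
            rw [hΛ, one_mul]; simp only [mul_assoc]
        _ = _ := by rw [hA2, one_mul]
    have h6 := H310.near_one hkey hY
      ((mul_le_mul_of_nonneg_right h5 (norm_nonneg _)).trans h3m)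
    rw [norm_zero, mul_zero, add_zero] at h6
    rw [Real.norm_of_nonneg (Real.exp_nonneg _)]
    refine h6.trans ?_
    have h7 : Real.exp (-c₁ * o.l * m) ≤ Real.exp (-c₂ * o.l * m) := by
      refine Real.exp_le_exp.2 ?_
      have : 0 ≤ o.l * m := by positivity
      nlinarith
    have h8 : ‖E₁‖ ≤ C1 * Real.exp (-c₂ * o.l * m) :=
      h4.trans (mul_le_mul_of_nonneg_left h7 hC1)
    calc 2 * ((‖E₁‖ + ‖E₂‖) * ‖Y₀‖)
        ≤ 2 * ((C1 * Real.exp (-c₂ * o.l * m) + C2 * Real.exp (-c₂ * o.l * m)) * ‖Y₀‖) := by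
          gcongr
      _ = _ := by ring
  · rw [add_sub_cancel, mul_assoc, hΛ, mul_one]

/-- **(T)**: the closing formula for one forward coordinate gives it for all -/
theorem closing_trans {o : Orb L} {n : Nor L o} {c₁ c₂ : ℝ} (h0 : 0 < c₂) (h1 : c₂ ≤ c₁)
    (h2 : c₂ < L.χ) (W₁ : Fwd o n.x n.N.fn c₁) (W : Fwd o n.x n.N.fn c₂) (k : Γ)
    (hk : k • o.pos ≠ o.neg) (Z : Closing o n.x n.N.fn c₂ k (W₁.Bm k)) :
    Nonempty (Closing o n.x n.N.fn c₂ k (W.Bm k)) := by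
  have hl : 0 < o.l := o.ax.pos
  have hζ : k⁻¹ • o.neg ≠ o.pos := H310.inv_ne_pos (n := n) k hk
  obtain ⟨S, D, hS, hA, hD, hL⟩ := compare h1 h0 W₁ W hζ
  have hyem : L.em (W.hom k) = o.neg := H310.hom_em W k hk
  have hXu : IsUnit (fderiv ℝ (fun v => n.x (L.e (W.hom k) v)) 0) :=
    isUnit_of_det (n.deriv _ hyem 0 (by simp))
  have hB1 : W₁.Bm k * fderiv ℝ (fun v => n.x (L.e (W.hom k) v)) 0 = H310.Am W₁ (k⁻¹ • o.neg) := by
    have e1 := H310.Bm_hom W₁ k hk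
    have e2 : W₁.G (L.hol (k⁻¹ • o.neg) o.x) = H310.Am W₁ (k⁻¹ • o.neg) := by
      unfold Fwd.G H310.Am
      rw [L.hol_em _ _ hζ]
    rw [e2] at e1
    exact e1
  have hB : W.Bm k * fderiv ℝ (fun v => n.x (L.e (W.hom k) v)) 0 = H310.Am W (k⁻¹ • o.neg) := by
    have e1 := H310.Bm_hom W k hk
    have e2 : W.G (L.hol (k⁻¹ • o.neg) o.x) = H310.Am W (k⁻¹ • o.neg) := by
      unfold Fwd.G H310.Am
      rw [L.hol_em _ _ hζ]
    rw [e2] at e1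
    exact e1
  obtain ⟨Xu, hXu⟩ := hXu
  rw [← hXu] at hB1 hB
  have hB1' : W₁.Bm k = H310.Am W₁ (k⁻¹ • o.neg) * ↑Xu⁻¹ := by
    rw [← hB1, mul_assoc, Units.mul_inv, mul_one]
  have hB' : W.Bm k = H310.Am W (k⁻¹ • o.neg) * ↑Xu⁻¹ := by
    rw [← hB, mul_assoc, Units.mul_inv, mul_one]
  have hBu : IsUnit (W.Bm k) := by
    rw [hB']
    exact (isUnit_of_det (W.deriv _ hζ)).mul (Units.isUnit _)
  have hBS : W₁.Bm k = S * W.Bm k := by
    rw [hB1', hB', hA, mul_assoc]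
  have hwO : Z.w =O[atTop] fun m : ℕ => Real.exp (-L.χ * o.l * m) := by
    obtain ⟨C, hC⟩ := H319.inv_rate n (‖n.x (k • o.pos)‖ + 1)
    refine IsBigO.of_bound C ?_
    have e1 : ∀ᶠ m in atTop, ‖n.N.fn^[m] (Z.w m)‖ ≤ ‖n.x (k • o.pos)‖ + 1 :=
      (Z.w_lim.norm.eventually (ge_mem_nhds (lt_add_one _)))
    filter_upwards [hC, e1] with m hm e1
    have e2 := hm _ e1
    rw [NF.inv_fn_iter n.ok] at e2
    rw [Real.norm_of_nonneg (Real.exp_nonneg _)]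
    exact e2
  have hE : Z.E =O[atTop] (fun m : ℕ => Real.exp (-c₂ * o.l * m)) := by
    obtain ⟨C, hC⟩ := Z.err
    refine IsBigO.of_bound C ?_
    filter_upwards [hC] with m hm
    rwa [Real.norm_of_nonneg (Real.exp_nonneg _)]
  obtain ⟨E', P', hE', hP'⟩ := trans_abs n.ok hl h0 h2 (M := fun m => ret0 L (k * o.β ^ m) (Z.z m))
    hwO hE hD hBu hS hBS (Eventually.of_forall hL) Z.form
  refine ⟨⟨Z.z, Z.lz, Z.az, Z.w, E', P', Z.axis, Z.em_lim, Z.ep_lim, Z.per, Z.w_lim, ?_, hP'⟩⟩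
  obtain ⟨C, hC⟩ := hE'.bound
  refine ⟨C, ?_⟩
  filter_upwards [hC] with m hm
  rwa [Real.norm_of_nonneg (Real.exp_nonneg _)] at hm

end Vale.Agent.P207.N3.H790
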