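import Vale.Agent.P207.N3.H790.Self
import Vale.Agent.P207.N3.H790.Trans

/-!
# P207, line N3 (P4b): forward coordinates give the closing formula, one rate for all orbits
-/

open Set Filter Topology Metric MeasureTheory Asymptotics
open scoped ContDiff

noncomputable section

namespace Vale.Agent.P207.N3.H790

open H147

variable {Γ X B : Type} [Group Γ] [MetricSpace X] [ProperSpace X] [MulAction Γ X]
  [IsIsometricSMul Γ X] [TopologicalSpace B] [CompactSpace B] [T2Space B] [MulAction Γ B]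
  [ContinuousConstSMul Γ B] {L : Leaf Γ X B}

/-- **P4b from E2**: literally `H319.P4b L`, unfolded -/
theorem p4_of_fwd (L : Leaf Γ X B)
    (h : ∃ c₁ > 0, ∀ (o : Orb L) (n : Nor L o), Nonempty (Fwd o n.x n.N.fn c₁)) :
    ∃ c : ℝ, 0 < c ∧ ∀ (o : Orb L) (n : Nor L o), Nonempty (Fwd o n.x n.N.fn c) ∧
      ∀ (W : Fwd o n.x n.N.fn c) (k : Γ), k • o.pos ≠ o.neg →
        Nonempty (Closing o n.x n.N.fn c k (W.Bm k)) := by
  obtain ⟨c₁, hc₁, h⟩ := h
  obtain ⟨c₂, h0, h1, h2, h3⟩ := closing_self L hc₁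
  refine ⟨c₂, h0, fun o n => ?_⟩
  obtain ⟨W₁⟩ := h o n
  refine ⟨⟨Fwd_mono h1 W₁⟩, fun W k hk => ?_⟩
  obtain ⟨Z⟩ := h3 o n W₁ k hk
  exact closing_trans h0 h1 h2 W₁ W k hk Z

end Vale.Agent.P207.N3.H790
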