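import Vale.Agent.P207.N3.H790.P4
import Vale.Agent.P207.N3.H310.P4F
import Vale.Agent.P207.N3.H147.ConvF

/-!
# P207, line N3 (P4b): forward coordinates and the closing formula, for all closed orbits
-/

open Set Filter Topology Metric MeasureTheory Asymptotics
open scoped ContDiff

noncomputable section

namespace Vale.Agent.P207.N3.H790

open H147

variable {Γ X B : Type} [Group Γ] [MetricSpace X] [ProperSpace X] [MulAction Γ X]
  [IsIsometricSMul Γ X] [TopologicalSpace B] [CompactSpace B] [T2Space B] [MulAction Γ B]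
  [ContinuousConstSMul Γ B]

theorem exists_fwd (L : Leaf Γ X B) :
    ∃ c₁ > 0, ∀ (o : Orb L) (n : Nor L o), Nonempty (Fwd o n.x n.N.fn c₁) := by
  refine H310.exists_fwd_of_conv L fun c hc => ?_
  obtain ⟨c', hc', h⟩ := conv_of_germ L hc
  exact ⟨c', hc', fun o n hl g => h o hl n g⟩

/-- **P4b**: literally `H319.P4b L`, unfolded -/
theorem p4 (L : Leaf Γ X B) :
    ∃ c : ℝ, 0 < c ∧ ∀ (o : Orb L) (n : Nor L o), Nonempty (Fwd o n.x n.N.fn c) ∧
      ∀ (W : Fwd o n.x n.N.fn c) (k : Γ), k • o.pos ≠ o.neg →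
        Nonempty (Closing o n.x n.N.fn c k (W.Bm k)) :=
  p4_of_fwd L (exists_fwd L)

end Vale.Agent.P207.N3.H790
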