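import Vale.Agent.P207.N3.H790.Abs
import Vale.Agent.P207.N3.H310.FormB
import Vale.Agent.P207.N3.H310.HolE3
import Vale.Agent.P207.N3.H319.InvRate
import Vale.Agent.P207.N3.H283.AxSeq
import Vale.Agent.P207.N3.H147.Hold

/-! **The closing formula**, with the rate `c₂`, for forward coordinates with the rate `c₁`. -/

open Set Filter Topology Metric MeasureTheory Asymptotics
open scoped ContDiff

noncomputable section

namespace Vale.Agent.P207.N3.H790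

open H147

variable {Γ X B : Type} [Group Γ] [MetricSpace X] [ProperSpace X] [MulAction Γ X]
  [IsIsometricSMul Γ X] [TopologicalSpace B] [CompactSpace B] [T2Space B] [MulAction Γ B]
  [ContinuousConstSMul Γ B] {L : Leaf Γ X B}

/-- the chart at the homoclinic point, near `0` -/
theorem Xf_at {o : Orb L} (n : Nor L o) {y₀ : X} (hy : L.em y₀ = o.neg) :
    ContDiffAt ℝ ∞ (fun v => n.x (L.e y₀ v)) 0 :=
  (n.smooth y₀ hy).contDiffAt (isOpen_ball.mem_nhds (mem_ball_self (by norm_num)))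

theorem Xf_lip {o : Orb L} (n : Nor L o) {y₀ : X} (hy : L.em y₀ = o.neg) {u : ℕ → E2}
    (hu : Tendsto u atTop (𝓝 0)) :
    (fun m => fderiv ℝ (fun v => n.x (L.e y₀ v)) (u m) - fderiv ℝ (fun v => n.x (L.e y₀ v)) 0)
      =O[atTop] u := by
  have h0 : ContDiffAt ℝ ((1 + 1 : ℕ) : ℕ∞) (fun v => n.x (L.e y₀ v)) 0 :=
    (Xf_at n hy).of_le (by exact_mod_cast le_top)
  have h1 : DifferentiableAt ℝ (fderiv ℝ (fun v => n.x (L.e y₀ v))) 0 :=
    (h0.fderiv_right (m := 1) (by norm_cast)).differentiableAt (by norm_num)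
  have h2 := h1.hasFDerivAt.isBigO_sub.comp_tendsto hu
  simpa [Function.comp_def] using h2

/-- the limit of the linear parts -/
theorem A_tendsto {o : Orb L} {x : B → E2} {N : E2 → E2} {c : ℝ} (W : Fwd o x N c)
    {ζ : ℕ → B} {ζi : B} (hζi : ζi ≠ o.pos) (hζ : Tendsto ζ atTop (𝓝 ζi)) :
    Tendsto (fun m => fderiv ℝ (fun v => W.F (ζ m) (L.e (L.hol (ζ m) o.x) v)) 0) atTop
      (𝓝 (fderiv ℝ (fun v => W.F ζi (L.e (L.hol ζi o.x) v)) 0)) := by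
  have h1 := W.cont 1 (ζi, 0) ⟨hζi, by simp⟩
  have h2 : Tendsto (fun m => (ζ m, (0 : E2))) atTop (𝓝[{o.pos}ᶜ ×ˢ ball 0 1] (ζi, 0)) := by
    refine tendsto_nhdsWithin_iff.mpr ⟨hζ.prodMk_nhds tendsto_const_nhds, ?_⟩
    have h3 : ∀ᶠ m in atTop, ζ m ∈ ({o.pos}ᶜ : Set B) :=
      hζ (isOpen_compl_singleton.mem_nhds hζi)
    filter_upwards [h3] with m hm
    exact ⟨hm, by simp⟩
  have h3 := ((continuousMultilinearCurryFin1 ℝ E2 E2).continuous.tendsto _).comp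
    (h1.tendsto.comp h2)
  rw [H310.fderiv_eq_curry]
  refine h3.congr fun m => ?_
  simp only [Function.comp_apply]
  rw [H310.fderiv_eq_curry]

/-- the convergence of the images under the powers -/
theorem conv_at {o : Orb L} {x : B → E2} {N : E2 → E2} {c₁ c : ℝ} (W : Fwd o x N c₁)
    (hcc : c ≤ c₁) {y₀ : X} (hy : L.em y₀ = o.neg) {K : Set B} (hK : IsCompact K)
    (hKp : o.pos ∉ K) {ζ η : ℕ → B} {u : ℕ → E2} (hζ : ∀ᶠ m in atTop, ζ m ∈ K)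
    (hb : ∀ᶠ m : ℕ in atTop, (o.β ^ m)⁻¹ • ζ m = η m)
    (hu : ∀ᶠ m in atTop, u m ∈ closedBall 0 1) :
    (fun m => (fun v => N^[m] (W.F (ζ m) (o.β ^ m • L.e (L.hol (η m) y₀) v))) (u m)
      - (fun v => x (L.e y₀ v)) (u m)) =O[atTop] (fun m : ℕ => Real.exp (-c * o.l * m)) ∧
    (fun m => fderiv ℝ (fun v => N^[m] (W.F (ζ m) (o.β ^ m • L.e (L.hol (η m) y₀) v))) (u m)
      - fderiv ℝ (fun v => x (L.e y₀ v)) (u m)) =O[atTop]
        (fun m : ℕ => Real.exp (-c * o.l * m)) := by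
  obtain ⟨C0, hC0⟩ := W.conv K hK hKp {y₀} isCompact_singleton (by rintro y rfl; exact hy) 0
  obtain ⟨C1, hC1⟩ := W.conv K hK hKp {y₀} isCompact_singleton (by rintro y rfl; exact hy) 1
  have hl : 0 < o.l := o.ax.pos
  constructor
  · refine IsBigO.trans (IsBigO.of_bound C0 ?_) (exp_mono hl hcc)
    filter_upwards [hC0, hb, hζ, hu] with m hm hb hζm hum
    obtain ⟨-, -, -, h4⟩ := hm (ζ m) hζm y₀ rfl
    have h5 := h4 (u m) hum
    rw [hb, norm_iter0_sub] at h5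
    rw [Real.norm_of_nonneg (Real.exp_nonneg _)]
    exact h5
  · refine IsBigO.trans (IsBigO.of_bound C1 ?_) (exp_mono hl hcc)
    filter_upwards [hC1, hb, hζ, hu] with m hm hb hζm hum
    obtain ⟨-, -, -, h4⟩ := hm (ζ m) hζm y₀ rfl
    have h5 := h4 (u m) hum
    rw [hb, ← H310.norm_fderiv_sub] at h5
    rw [Real.norm_of_nonneg (Real.exp_nonneg _)]
    exact h5

/-- the matrix `B_κ` -/
theorem Bm_mul {o : Orb L} {n : Nor L o} {c : ℝ} (W : Fwd o n.x n.N.fn c) (k : Γ)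
    (hk : k • o.pos ≠ o.neg) :
    W.Bm k * fderiv ℝ (fun v => n.x (L.e (W.hom k) v)) 0
      = fderiv ℝ (fun v => W.F (k⁻¹ • o.neg) (L.e (L.hol (k⁻¹ • o.neg) o.x) v)) 0 := by
  have h1 := H310.Bm_hom W k hk
  have h2 : W.G (L.hol (k⁻¹ • o.neg) o.x)
      = fderiv ℝ (fun v => W.F (k⁻¹ • o.neg) (L.e (L.hol (k⁻¹ • o.neg) o.x) v)) 0 := by
    unfold Fwd.G
    rw [L.hol_em _ _ (H310.inv_ne_pos (n := n) k hk)]
  rw [h2] at h1
  exact h1

/-- the estimates at the closing points -/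
theorem rates {o : Orb L} (n : Nor L o) {c₁ c : ℝ} (W : Fwd o n.x n.N.fn c₁) (hc : 0 < c)
    (hcc : c ≤ c₁) (hcχ : c < L.χ) {y₀ : X} (hy : L.em y₀ = o.neg)
    {K : Set B} (hK : IsCompact K)
    (hKp : o.pos ∉ K) {ζ η : ℕ → B} {u : ℕ → E2} (hζ : ∀ᶠ m in atTop, ζ m ∈ K)
    (hb : ∀ᶠ m : ℕ in atTop, (o.β ^ m)⁻¹ • ζ m = η m) (hu : Tendsto u atTop (𝓝 0))
    {w : ℕ → E2} (hw : ∀ᶠ m in atTop, w m = W.F (ζ m) (L.e (L.hol (ζ m) o.x) (u m)))
    (hNw : ∀ᶠ m in atTop, (fun v => n.N.fn^[m]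
      (W.F (ζ m) (o.β ^ m • L.e (L.hol (η m) y₀) v))) (u m) = n.N.fn^[m] (w m)) :
    Tendsto (fun m => n.N.fn^[m] (w m)) atTop (𝓝 (n.x (L.ep y₀))) ∧
    w =O[atTop] (fun m : ℕ => Real.exp (-L.χ * o.l * m)) ∧
    (fun m => fderiv ℝ (fun v => W.F (ζ m) (L.e (L.hol (ζ m) o.x) v)) (u m)
      - fderiv ℝ (fun v => W.F (ζ m) (L.e (L.hol (ζ m) o.x) v)) 0) =O[atTop]
        (fun m : ℕ => Real.exp (-c * o.l * m)) ∧
    Near (fun m : ℕ => Real.exp (-c * o.l * m))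
      (fun m => fderiv ℝ (fun v => n.N.fn^[m]
        (W.F (ζ m) (o.β ^ m • L.e (L.hol (η m) y₀) v))) (u m))
      (fderiv ℝ (fun v => n.x (L.e y₀ v)) 0) := by
  have hl : 0 < o.l := o.ax.pos
  have hg : Tendsto (fun m : ℕ => Real.exp (-c * o.l * m)) atTop (𝓝 0) := exp_tendsto hl hc
  have hu1 : ∀ᶠ m in atTop, u m ∈ closedBall (0 : E2) 1 :=
    hu (closedBall_mem_nhds _ one_pos)
  obtain ⟨hΨ0, hΨ1⟩ := conv_at W hcc hy hK hKp hζ hb hu1
  have hΨlim : Tendsto (fun m => (fun v => n.N.fn^[m]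
      (W.F (ζ m) (o.β ^ m • L.e (L.hol (η m) y₀) v))) (u m)) atTop (𝓝 (n.x (L.ep y₀))) := by
    have h1 : Tendsto (fun m => (fun v => n.x (L.e y₀ v)) (u m)) atTop
      (𝓝 ((fun v => n.x (L.e y₀ v)) 0)) := (Xf_at n hy).continuousAt.tendsto.comp hu
    have h2 := (hΨ0.trans_tendsto hg).add h1
    simp only [sub_add_cancel, zero_add] at h2
    rwa [L.e_zero] at h2
  have hw_lim : Tendsto (fun m => n.N.fn^[m] (w m)) atTop (𝓝 (n.x (L.ep y₀))) :=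
    hΨlim.congr' hNw
  have hwO : w =O[atTop] fun m : ℕ => Real.exp (-L.χ * o.l * m) := by
    obtain ⟨C, hC⟩ := H319.inv_rate n (‖n.x (L.ep y₀)‖ + 1)
    refine IsBigO.of_bound C ?_
    have h1 : ∀ᶠ m in atTop, ‖n.N.fn^[m] (w m)‖ ≤ ‖n.x (L.ep y₀)‖ + 1 :=
      (hw_lim.norm.eventually (ge_mem_nhds (lt_add_one _)))
    filter_upwards [hC, h1] with m hm h1
    have h2 := hm _ h1
    rw [NF.inv_fn_iter n.ok] at h2
    rw [Real.norm_of_nonneg (Real.exp_nonneg _)]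
    exact h2
  obtain ⟨Cp, -, δ, hδ, -, hPhi⟩ := H319.Phi_small W hK hKp
  have huδ : ∀ᶠ m in atTop, ‖u m‖ ≤ δ := by
    have := hu (closedBall_mem_nhds (0 : E2) hδ)
    filter_upwards [this] with m hm
    simpa using hm
  have huw : u =O[atTop] w := by
    refine IsBigO.of_bound Cp ?_
    filter_upwards [huδ, hζ, hw] with m h1 h2 h3
    rw [h3]
    exact (hPhi (ζ m) h2 (u m) h1).1
  have hug : u =O[atTop] (fun m : ℕ => Real.exp (-c * o.l * m)) :=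
    (huw.trans hwO).trans (exp_mono hl hcχ.le)
  refine ⟨hw_lim, hwO, ?_, ?_⟩
  · refine IsBigO.trans (IsBigO.of_bound Cp ?_) hug
    filter_upwards [huδ, hζ] with m h1 h2
    exact (hPhi (ζ m) h2 (u m) h1).2
  · have h1 := hΨ1.add ((Xf_lip n hy hu).trans hug)
    refine h1.congr_left fun m => ?_
    abel

theorem closing_self (L : Leaf Γ X B) {c₁ : ℝ} (hc₁ : 0 < c₁) : ∃ c₂ : ℝ, 0 < c₂ ∧ c₂ ≤ c₁ ∧
    c₂ < L.χ ∧ ∀ (o : Orb L) (n : Nor L o) (W : Fwd o n.x n.N.fn c₁) (k : Γ),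
      k • o.pos ≠ o.neg → Nonempty (Closing o n.x n.N.fn c₂ k (W.Bm k)) := by
  obtain ⟨ε, r, hε, hε1, hr, hH⟩ := H310.conj_close L hc₁
  have hχ := L.χ_pos
  refine ⟨min (min c₁ (r / 2)) (L.χ / 2), by positivity,
    (min_le_left _ _).trans (min_le_left _ _), (min_le_right _ _).trans_lt (by linarith),
    fun o n W k hk => ?_⟩
  set c₂ : ℝ := min (min c₁ (r / 2)) (L.χ / 2) with hc₂
  have hc₂0 : 0 < c₂ := by positivity
  have hc21 : c₂ ≤ c₁ := (min_le_left _ _).trans (min_le_left _ _)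
  have hc2r : c₂ < r := ((min_le_left _ _).trans (min_le_right _ _)).trans_lt (by linarith)
  have hc2χ : c₂ < L.χ := (min_le_right _ _).trans_lt (by linarith)
  clear_value c₂
  have hl : 0 < o.l := o.ax.pos
  obtain ⟨z, lz, az, hz, hem, hep, hper⟩ := H283.exists_axis_seq o k hk
  have hfix : ∀ᶠ m in atTop, (k * o.β ^ m) • L.em (z m) = L.em (z m) := by
    filter_upwards [hz] with m hm using Ax.smul_em hm
  obtain ⟨u, R, DG, hu, hF⟩ := H310.form_basic o n W hc₁ k hk z lz az hz hem hep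
  obtain ⟨S, D, ⟨CD, hCD⟩, hS⟩ := hH o n W k hk (fun m => L.em (z m)) hfix hem
  have hζpos : k⁻¹ • o.neg ≠ o.pos := H310.inv_ne_pos (n := n) k hk
  have hζ : Tendsto (fun m => k⁻¹ • L.em (z m)) atTop (𝓝 (k⁻¹ • o.neg)) := hem.const_smul k⁻¹
  obtain ⟨K, hKn, hKs, hKc⟩ : ∃ K ∈ 𝓝 (k⁻¹ • o.neg), K ⊆ {o.pos}ᶜ ∧ IsCompact K :=
    local_compact_nhds (isOpen_compl_singleton.mem_nhds hζpos)
  have hKp : o.pos ∉ K := fun h => hKs h rfl
  have hζK : ∀ᶠ m in atTop, k⁻¹ • L.em (z m) ∈ K := hζ hKn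
  have hyem : L.em (W.hom k) = o.neg := H310.hom_em W k hk
  have hyep : L.ep (W.hom k) = k • o.pos := H310.hom_ep W k hk
  have hback : ∀ᶠ m : ℕ in atTop, (o.β ^ m)⁻¹ • (k⁻¹ • L.em (z m)) = L.em (z m) := by
    filter_upwards [hfix] with m hm
    rw [inv_smul_eq_iff, inv_smul_eq_iff, ← mul_smul, hm]
  obtain ⟨hwl, hwO, hDA, hDX⟩ := rates n W hc₂0 hc21 hc2χ hyem hKc hKp hζK hback hu
    (w := fun m => W.F (k⁻¹ • L.em (z m)) (L.e (L.hol (k⁻¹ • L.em (z m)) o.x) (u m)))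
    (Eventually.of_forall fun m => rfl) (hF.mono fun m hm => hm.2.1)
  have hD : D =O[atTop] fun m : ℕ => Real.exp (-r * o.l * m) := by
    refine IsBigO.of_bound CD ?_
    filter_upwards [hCD] with m hm
    rw [Real.norm_of_nonneg (Real.exp_nonneg _)]
    refine hm.trans (le_of_eq ?_)
    congr 2
    ring
  obtain ⟨E, P, hE, hP⟩ := closing_abs n.ok hl hc₂0 hc2χ hc2r hε1
    (DG := DG) (M := fun m => ret0 L (k * o.β ^ m) (z m))
    (Rm := fun m => (R m : E2 →L[ℝ] E2)) (Bm := W.Bm k) (S := S)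
    hwO hDA hDX (isUnit_of_det (n.deriv _ hyem 0 (by simp))) (A_tendsto W hζpos hζ)
    (isUnit_of_det (W.deriv _ hζpos)) hD hS (Bm_mul W k hk)
    (hF.mono fun m hm => hm.2.2) (Eventually.of_forall fun m => isUnit_equiv (R m))
  rw [hyep] at hwl
  refine ⟨⟨z, lz, az, _, E, P, hz, hem, hep, hper, hwl, ?_, hP⟩⟩
  obtain ⟨C, hC⟩ := hE.bound
  refine ⟨C, ?_⟩
  filter_upwards [hC] with m hm
  rwa [Real.norm_of_nonneg (Real.exp_nonneg _)] at hm

end Vale.Agent.P207.N3.H790
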