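import Vale.Agent.P207.N3.H790.Lin

/-! **The stationary normal form** (Sternberg, dimension 2): `sternberg`. -/

open Set Filter Topology Metric
open scoped ContDiff Nat

noncomputable section

namespace Vale.Agent.P207.N3.H790

open NF

/-! ### Linear algebra of the plane -/

/-- the first vector of the standard basis -/
def b0 : E2 := !₂[1, 0]

/-- the second vector of the standard basis -/
def b1 : E2 := !₂[0, 1]

theorem decomp (x : E2) : x = x 0 • b0 + x 1 • b1 := by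
  apply ext2
  · change x 0 = x 0 * 1 + x 1 * 0
    ring
  · change x 1 = x 0 * 0 + x 1 * 1
    ring

theorem map_decomp (A : E2 →L[ℝ] E2) (x : E2) : A x = x 0 • A b0 + x 1 • A b1 := by
  conv_lhs => rw [decomp x]
  rw [map_add, map_smul, map_smul]

theorem eq_lin2 (A : E2 →L[ℝ] E2) : A = lin2 (A b0 0) (A b1 0) (A b0 1) (A b1 1) := by
  ext1 x
  rw [map_decomp A x]
  apply ext2
  · change x 0 * A b0 0 + x 1 * A b1 0 = A b0 0 * x 0 + A b1 0 * x 1
    ring
  · change x 0 * A b0 1 + x 1 * A b1 1 = A b0 1 * x 0 + A b1 1 * x 1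
    ring

/-- the determinant -/
def d2 (A : E2 →L[ℝ] E2) : ℝ := A b0 0 * A b1 1 - A b1 0 * A b0 1

theorem d2_mul (A A' : E2 →L[ℝ] E2) : d2 (A * A') = d2 A * d2 A' := by
  have h0 : (A * A') b0 = A' b0 0 • A b0 + A' b0 1 • A b1 := map_decomp A (A' b0)
  have h1 : (A * A') b1 = A' b1 0 • A b0 + A' b1 1 • A b1 := map_decomp A (A' b1)
  have e : ∀ (s t : ℝ) (i : Fin 2), (s • A b0 + t • A b1) i = s * A b0 i + t * A b1 i :=
    fun s t i => rfl
  unfold d2
  rw [h0, h1, e, e, e, e]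
  ring

theorem d2_pow (A : E2 →L[ℝ] E2) (n : ℕ) : d2 (A ^ n) = d2 A ^ n := by
  induction n with
  | zero =>
    rw [pow_zero, pow_zero]
    change (1 : ℝ) * 1 - 0 * 0 = 1
    ring
  | succ n ih => rw [pow_succ, d2_mul, ih, pow_succ]

theorem norm_b0 : ‖b0‖ = 1 := by
  have h : ‖b0‖ ^ 2 = 1 := by
    rw [norm_sq2]
    change (1 : ℝ) ^ 2 + 0 ^ 2 = 1
    ring
  exact (sq_eq_sq₀ (norm_nonneg _) zero_le_one).1 (by rw [h, one_pow])

theorem norm_b1 : ‖b1‖ = 1 := by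
  have h : ‖b1‖ ^ 2 = 1 := by
    rw [norm_sq2]
    change (0 : ℝ) ^ 2 + 1 ^ 2 = 1
    ring
  exact (sq_eq_sq₀ (norm_nonneg _) zero_le_one).1 (by rw [h, one_pow])

theorem abs_d2_le (A : E2 →L[ℝ] E2) : |d2 A| ≤ ‖A‖ ^ 2 := by
  have h0 : ‖A b0‖ ≤ ‖A‖ := by simpa [norm_b0] using A.le_opNorm b0
  have h1 : ‖A b1‖ ≤ ‖A‖ := by simpa [norm_b1] using A.le_opNorm b1
  have h2 : d2 A ^ 2 ≤ ‖A b0‖ ^ 2 * ‖A b1‖ ^ 2 := by
    rw [norm_sq2, norm_sq2]
    unfold d2
    nlinarith [sq_nonneg (A b0 0 * A b1 0 + A b0 1 * A b1 1)]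
  have h3 : ‖A b0‖ ^ 2 * ‖A b1‖ ^ 2 ≤ (‖A‖ ^ 2) ^ 2 := by
    have h4 : ‖A b0‖ ^ 2 ≤ ‖A‖ ^ 2 := by gcongr
    have h5 : ‖A b1‖ ^ 2 ≤ ‖A‖ ^ 2 := by gcongr
    calc _ ≤ ‖A‖ ^ 2 * ‖A‖ ^ 2 := mul_le_mul h4 h5 (by positivity) (by positivity)
      _ = _ := by ring
  exact abs_le_of_sq_le_sq (h2.trans h3) (by positivity)

/-- dependent vectors of the plane -/
theorem dep {v w : E2} (hv : v ≠ 0) (hD : v 0 * w 1 - v 1 * w 0 = 0) : ∃ t : ℝ, w = t • v := by
  have hn : v 0 ^ 2 + v 1 ^ 2 ≠ 0 := by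
    rw [← norm_sq2]
    have := norm_pos_iff.2 hv
    positivity
  refine ⟨(v 0 * w 0 + v 1 * w 1) / (v 0 ^ 2 + v 1 ^ 2), ?_⟩
  apply ext2
  · change w 0 = (v 0 * w 0 + v 1 * w 1) / (v 0 ^ 2 + v 1 ^ 2) * v 0
    field_simp
    linear_combination (-(v 1)) * hD
  · change w 1 = (v 0 * w 0 + v 1 * w 1) / (v 0 ^ 2 + v 1 ^ 2) * v 1
    field_simp
    linear_combination (v 0) * hD

/-- the linear change of coordinates of a basis -/
def bas (v w : E2) (hD : v 0 * w 1 - v 1 * w 0 ≠ 0) : E2 ≃L[ℝ] E2 :=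
  ContinuousLinearEquiv.equivOfInverse (lin2 (v 0) (w 0) (v 1) (w 1))
    (lin2 (w 1 / (v 0 * w 1 - v 1 * w 0)) (-w 0 / (v 0 * w 1 - v 1 * w 0))
      (-v 1 / (v 0 * w 1 - v 1 * w 0)) (v 0 / (v 0 * w 1 - v 1 * w 0)))
    (fun x => by
      have hDi := mul_inv_cancel₀ hD
      apply ext2
      · rw [lin2_zero, lin2_zero, lin2_one, div_eq_mul_inv, div_eq_mul_inv]
        linear_combination (x 0) * hDi
      · rw [lin2_one, lin2_zero, lin2_one, div_eq_mul_inv, div_eq_mul_inv]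
        linear_combination (x 1) * hDi)
    (fun x => by
      have hDi := mul_inv_cancel₀ hD
      apply ext2
      · rw [lin2_zero, lin2_zero, lin2_one, div_eq_mul_inv, div_eq_mul_inv, div_eq_mul_inv,
          div_eq_mul_inv]
        linear_combination (x 0) * hDi
      · rw [lin2_one, lin2_zero, lin2_one, div_eq_mul_inv, div_eq_mul_inv, div_eq_mul_inv,
          div_eq_mul_inv]
        linear_combination (x 1) * hDi)

theorem bas_apply (v w : E2) (hD : v 0 * w 1 - v 1 * w 0 ≠ 0) (x : E2) :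
    bas v w hD x = x 0 • v + x 1 • w := by
  apply ext2
  · change v 0 * x 0 + w 0 * x 1 = x 0 * v 0 + x 1 * w 0
    ring
  · change v 1 * x 0 + w 1 * x 1 = x 0 * v 1 + x 1 * w 1
    ring

/-- eigenvectors -/
theorem exists_eig (A : E2 →L[ℝ] E2) {ν : ℝ}
    (h : (A b0 0 - ν) * (A b1 1 - ν) - A b1 0 * A b0 1 = 0) : ∃ v : E2, v ≠ 0 ∧ A v = ν • v := by
  by_cases h1 : A b1 0 = 0 ∧ ν = A b0 0
  · obtain ⟨hb, ha⟩ := h1
    by_cases h2 : A b0 1 = 0 ∧ ν = A b1 1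
    · obtain ⟨hc, hd⟩ := h2
      refine ⟨b0, ?_, ?_⟩
      · intro h3
        have := norm_b0
        rw [h3, norm_zero] at this
        norm_num at this
      · apply ext2
        · change A b0 0 = ν * 1
          rw [← ha, mul_one]
        · change A b0 1 = ν * 0
          rw [hc, mul_zero]
    · refine ⟨!₂[ν - A b1 1, A b0 1], ?_, ?_⟩
      · intro h3
        apply h2
        have e0 : ν - A b1 1 = 0 := congrArg (fun x : E2 => x 0) h3
        have e1 : A b0 1 = 0 := congrArg (fun x : E2 => x 1) h3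
        exact ⟨e1, sub_eq_zero.1 e0⟩
      · rw [map_decomp]
        apply ext2
        · change (ν - A b1 1) * A b0 0 + A b0 1 * A b1 0 = ν * (ν - A b1 1)
          rw [hb, ← ha]
          ring
        · change (ν - A b1 1) * A b0 1 + A b0 1 * A b1 1 = ν * A b0 1
          ring
  · refine ⟨!₂[A b1 0, ν - A b0 0], ?_, ?_⟩
    · intro h3
      apply h1
      have e0 : A b1 0 = 0 := congrArg (fun x : E2 => x 0) h3
      have e1 : ν - A b0 0 = 0 := congrArg (fun x : E2 => x 1) h3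
      exact ⟨e0, sub_eq_zero.1 e1⟩
    · rw [map_decomp]
      apply ext2
      · change A b1 0 * A b0 0 + (ν - A b0 0) * A b1 0 = ν * A b1 0
        ring
      · change A b1 0 * A b0 1 + (ν - A b0 0) * A b1 1 = ν * (ν - A b0 0)
        linear_combination (-1 : ℝ) * h

/-- Cayley–Hamilton -/
theorem cayley (A : E2 →L[ℝ] E2) (x : E2) :
    A (A x) = (A b0 0 + A b1 1) • A x - d2 A • x := by
  rw [map_decomp A (A x)]
  have e0 : A x 0 = x 0 * A b0 0 + x 1 * A b1 0 := by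
    rw [map_decomp A x]
    rfl
  have e1 : A x 1 = x 0 * A b0 1 + x 1 * A b1 1 := by
    rw [map_decomp A x]
    rfl
  apply ext2
  · change A x 0 * A b0 0 + A x 1 * A b1 0 = (A b0 0 + A b1 1) * A x 0 - d2 A * x 0
    rw [e0, e1]
    unfold d2
    ring
  · change A x 0 * A b0 1 + A x 1 * A b1 1 = (A b0 0 + A b1 1) * A x 1 - d2 A * x 1
    rw [e0, e1]
    unfold d2
    ring

theorem eig_lt {A : E2 →L[ℝ] E2} {n : ℕ} (hn : ‖A ^ n‖ < 1) {ν : ℝ} {v : E2} (hv : v ≠ 0)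
    (h : A v = ν • v) : |ν| < 1 := by
  have h1 : (A ^ n) v = ν ^ n • v := by
    clear hn
    induction n with
    | zero => simp
    | succ n ih =>
      rw [pow_succ']
      change A ((A ^ n) v) = _
      rw [ih, map_smul, h, smul_smul, pow_succ]
  have h2 := (A ^ n).le_opNorm v
  rw [h1, norm_smul, norm_pow, Real.norm_eq_abs] at h2
  have hv' : 0 < ‖v‖ := norm_pos_iff.2 hv
  by_contra h3
  push Not at h3
  have h4 : 1 ≤ |ν| ^ n := one_le_pow₀ h3
  nlinarith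

theorem eig_ne {A : E2 →L[ℝ] E2} (hinj : ∀ v, A v = 0 → v = 0) {ν : ℝ} {v : E2} (hv : v ≠ 0)
    (h : A v = ν • v) : ν ≠ 0 := by
  rintro rfl
  rw [zero_smul] at h
  exact hv (hinj v h)

theorem norm_lin2_cx (c s : ℝ) : ‖lin2 c (-s) s c‖ ≤ √(c ^ 2 + s ^ 2) := by
  refine ContinuousLinearMap.opNorm_le_bound _ (Real.sqrt_nonneg _) fun x => ?_
  refine (sq_le_sq₀ (norm_nonneg _) (by positivity)).1 ?_
  rw [mul_pow, Real.sq_sqrt (by positivity), norm_sq2, norm_sq2, lin2_zero, lin2_one]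
  nlinarith

theorem norm_lin2_jordan (a b : ℝ) : ‖lin2 a b 0 a‖ ≤ |a| + |b| := by
  refine ContinuousLinearMap.opNorm_le_bound _ (by positivity) fun x => ?_
  have e : lin2 a b 0 a x = a • x + b • (!₂[x 1, 0] : E2) := by
    apply ext2
    · change a * x 0 + b * x 1 = a * x 0 + b * x 1
      rfl
    · change 0 * x 0 + a * x 1 = a * x 1 + b * 0
      ring
  have h1 : ‖(!₂[x 1, 0] : E2)‖ ≤ ‖x‖ := by
    refine (sq_le_sq₀ (norm_nonneg _) (norm_nonneg _)).1 ?_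
    rw [norm_sq2, norm_sq2]
    change x 1 ^ 2 + 0 ^ 2 ≤ _
    nlinarith [sq_nonneg (x 0)]
  rw [e]
  refine (norm_add_le _ _).trans ?_
  rw [norm_smul, norm_smul, add_mul, Real.norm_eq_abs, Real.norm_eq_abs]
  gcongr

theorem good_cx {c s : ℝ} (hs : s ≠ 0) (hlt : c ^ 2 + s ^ 2 < 1)
    (F : E2 → E2) (R : ℝ) (hR : 0 < R)
    (hF : ContDiffOn ℝ ∞ F (ball 0 R)) (h0 : F 0 = 0) (hFA : fderiv ℝ F 0 = lin2 c (-s) s c) :
    Good F R := by
  have hp : 0 < c ^ 2 + s ^ 2 := by positivity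
  set ρ : ℝ := √(c ^ 2 + s ^ 2) with hρ
  have hρ0 : 0 < ρ := Real.sqrt_pos.2 hp
  have hρ2 : ρ ^ 2 = c ^ 2 + s ^ 2 := Real.sq_sqrt hp.le
  have hρ1 : ρ < 1 := by nlinarith
  obtain ⟨θ, hθ1, hθ2⟩ : ∃ θ, ρ < θ ∧ θ < √ρ := by
    apply exists_between
    rw [Real.lt_sqrt hρ0.le]
    nlinarith
  have hθ0 : 0 < θ := hρ0.trans hθ1
  have hθsq : θ ^ 2 < ρ := (Real.lt_sqrt hθ0.le).1 hθ2
  have hθlt : θ < 1 := by nlinarith
  set c' : ℝ := c / (c ^ 2 + s ^ 2) with hc'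
  set s' : ℝ := -s / (c ^ 2 + s ^ 2) with hs'
  have hcs : c' ^ 2 + s' ^ 2 = (c ^ 2 + s ^ 2)⁻¹ := by
    rw [hc', hs']
    field_simp
  have hnorm : √(c' ^ 2 + s' ^ 2) = ρ⁻¹ := by
    rw [hcs, Real.sqrt_inv]
  have e1 : c * c' - s * s' = 1 := by
    rw [hc', hs']
    field_simp
    ring
  have e2 : c * s' + s * c' = 0 := by
    rw [hc', hs']
    field_simp
    ring
  refine good_lin (A := lin2 c (-s) s c) (A' := lin2 c' (-s') s' c') (θ := θ) (b := ρ⁻¹)
    (N := NF.cx c' s') (fun w => ?_) ((norm_lin2_cx c s).trans_lt hθ1) hθlt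
    (by rw [← hnorm]; exact norm_lin2_cx c' s') ?_ ⟨?_, ?_⟩ (fun y => ?_) F R hR hF h0 hFA
  · apply ext2
    · rw [lin2_zero, lin2_zero, lin2_one]
      linear_combination (w 0) * e1 - (w 1) * e2
    · rw [lin2_one, lin2_zero, lin2_one]
      linear_combination (w 1) * e1 + (w 0) * e2
  · rw [inv_mul_lt_iff₀ hρ0, mul_one]
    exact hθsq
  · rw [hs']
    exact div_ne_zero (neg_ne_zero.2 hs) hp.ne'
  · rw [hcs]
    exact (one_lt_inv₀ hp).2 hlt
  · apply ext2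
    · rw [fn_cx_zero, lin2_zero, lin2_one]
      linear_combination (y 0) * e1 - (y 1) * e2
    · rw [fn_cx_one, lin2_zero, lin2_one]
      linear_combination (y 1) * e1 + (y 0) * e2

/-- the size of the off-diagonal entry -/
theorem exists_small {ν : ℝ} (h1 : ν ≠ 0) (hlt : |ν| < 1) : ∃ θ t : ℝ, θ < 1 ∧ 0 < t ∧
    |ν| + t < θ ∧ (|ν⁻¹| + |-(ν⁻¹ * t * ν⁻¹)|) * θ ^ 2 < 1 := by
  have hν : 0 < |ν| := abs_pos.2 h1
  obtain ⟨θ, hθ1, hθ2⟩ : ∃ θ, |ν| < θ ∧ θ < √|ν| := by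
    apply exists_between
    rw [Real.lt_sqrt hν.le]
    nlinarith
  have hθ0 : 0 < θ := hν.trans hθ1
  have hθsq : θ ^ 2 < |ν| := (Real.lt_sqrt hθ0.le).1 hθ2
  have hθlt : θ < 1 := by nlinarith
  have c1 : Continuous fun t : ℝ => |ν| + t := by fun_prop
  have c2 : Continuous fun t : ℝ => (|ν⁻¹| + |-(ν⁻¹ * t * ν⁻¹)|) * θ ^ 2 := by fun_prop
  have e1 : ∀ᶠ t in 𝓝 (0 : ℝ), |ν| + t < θ :=
    c1.continuousAt.eventually (gt_mem_nhds (by simpa using hθ1))
  have e2 : ∀ᶠ t in 𝓝 (0 : ℝ), (|ν⁻¹| + |-(ν⁻¹ * t * ν⁻¹)|) * θ ^ 2 < 1 := by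
    refine c2.continuousAt.eventually (gt_mem_nhds ?_)
    change (|ν⁻¹| + |-(ν⁻¹ * 0 * ν⁻¹)|) * θ ^ 2 < 1
    rw [mul_zero, zero_mul, neg_zero, abs_zero, add_zero, abs_inv, inv_mul_lt_iff₀ hν, mul_one]
    exact hθsq
  have e3 : ∀ᶠ t in 𝓝[>] (0 : ℝ), (|ν| + t < θ ∧ (|ν⁻¹| + |-(ν⁻¹ * t * ν⁻¹)|) * θ ^ 2 < 1) ∧
      0 < t :=
    ((e1.and e2).filter_mono nhdsWithin_le_nhds).and self_mem_nhdsWithin
  obtain ⟨t, ⟨h2, h3⟩, h4⟩ := e3.exists
  exact ⟨θ, t, hθlt, h4, h2, h3⟩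

theorem good_jordan {ν t θ : ℝ} (h1 : ν ≠ 0) (hlt : |ν| < 1) (hθ : θ < 1) (ht : 0 < t)
    (h2 : |ν| + t < θ) (h3 : (|ν⁻¹| + |-(ν⁻¹ * t * ν⁻¹)|) * θ ^ 2 < 1)
    (F : E2 → E2) (R : ℝ) (hR : 0 < R)
    (hF : ContDiffOn ℝ ∞ F (ball 0 R)) (h0 : F 0 = 0) (hFA : fderiv ℝ F 0 = lin2 ν t 0 ν) :
    Good F R := by
  have hν : 0 < |ν| := abs_pos.2 h1
  have hi : ν⁻¹ * ν = 1 := inv_mul_cancel₀ h1
  refine good_lin (A := lin2 ν t 0 ν) (A' := lin2 ν⁻¹ (-(ν⁻¹ * t * ν⁻¹)) 0 ν⁻¹) (θ := θ)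
    (N := NF.tri ν⁻¹ ν⁻¹ (-(ν⁻¹ * t * ν⁻¹)) 1) (fun w => ?_)
    ((norm_lin2_jordan ν t).trans_lt (by rwa [abs_of_pos ht])) hθ
    (norm_lin2_jordan _ _) h3 ⟨?_, le_rfl, fun _ => ⟨le_rfl, (pow_one _).symm⟩⟩
    (fun y => ?_) F R hR hF h0 hFA
  · apply ext2
    · rw [lin2_zero, lin2_zero, lin2_one]
      linear_combination (w 0 - ν⁻¹ * t * w 1) * hi
    · rw [lin2_one, lin2_zero, lin2_one]
      linear_combination (w 1) * hi
  · rw [abs_inv]
    exact (one_lt_inv₀ hν).2 hlt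
  · apply ext2
    · rw [fn_tri_zero, lin2_zero, lin2_one, pow_one]
      linear_combination (y 0 - ν⁻¹ * t * y 1) * hi
    · rw [fn_tri_one, lin2_one]
      linear_combination (y 1) * hi

/-- **The stationary normal form.** -/
theorem sternberg {F : E2 → E2} {R : ℝ} (hR : 0 < R) (hF : ContDiffOn ℝ ∞ F (ball 0 R))
    (h0 : F 0 = 0) (hinj : ∀ v, fderiv ℝ F 0 v = 0 → v = 0) {n : ℕ}
    (hn : ‖(fderiv ℝ F 0) ^ n‖ < 1) : Good F R := by
  set A := fderiv ℝ F 0 with hA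
  set a := A b0 0 with ha
  set b := A b1 0 with hb
  set c := A b0 1 with hc
  set d := A b1 1 with hd
  have hd2 : d2 A = a * d - b * c := rfl
  -- two distinct real eigenvalues
  have key : ∀ (ν₁ ν₂ : ℝ) (v w : E2), v ≠ 0 → w ≠ 0 → A v = ν₁ • v → A w = ν₂ • w →
      ν₁ ≠ ν₂ → |ν₁| ≤ |ν₂| → Good F R := by
    intro ν₁ ν₂ v w hv hw hAv hAw hne hle
    have hD : v 0 * w 1 - v 1 * w 0 ≠ 0 := by
      intro h
      obtain ⟨t, rfl⟩ := dep hv h
      rw [map_smul, hAv, smul_smul, smul_smul, mul_comm] at hAw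
      have h1 : (t * (ν₁ - ν₂)) • v = 0 := by
        have h2 : (t * ν₁) • v = (t * ν₂) • v := by
          rw [mul_comm t ν₁, hAw, mul_comm]
        rw [mul_sub, sub_smul, h2, sub_self]
      rcases smul_eq_zero.1 h1 with h2 | h2
      · rcases mul_eq_zero.1 h2 with h3 | h3
        · exact hw (by rw [h3, zero_smul])
        · exact hne (sub_eq_zero.1 h3)
      · exact hv h2
    refine reduce hR hF h0 hA.symm (bas v w hD) (lin2 ν₁ 0 0 ν₂) (fun x => ?_)
      (good_diag (eig_ne hinj hv hAv) (eig_ne hinj hw hAw) hle (eig_lt hn hw hAw))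
    rw [bas_apply, bas_apply, map_add, map_smul, map_smul, hAv, hAw, lin2_zero, lin2_one]
    module
  rcases lt_trichotomy ((a - d) ^ 2 + 4 * (b * c)) 0 with hΔ | hΔ | hΔ
  · -- complex eigenvalues
    set s : ℝ := √(-((a - d) ^ 2 + 4 * (b * c))) / 2 with hs
    have hsp : 0 < s := by
      have : 0 < √(-((a - d) ^ 2 + 4 * (b * c))) := Real.sqrt_pos.2 (by linarith)
      positivity
    have hs2 : s ^ 2 = -((a - d) ^ 2 + 4 * (b * c)) / 4 := by
      rw [hs, div_pow, Real.sq_sqrt (by linarith)]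
      norm_num
    set τ : ℝ := (a + d) / 2 with hτ
    have hτs : τ ^ 2 + s ^ 2 = d2 A := by
      rw [hs2, hτ, hd2]
      ring
    have hlt : τ ^ 2 + s ^ 2 < 1 := by
      have h1 : d2 A ^ n ≤ ‖A ^ n‖ ^ 2 := by
        rw [← d2_pow]
        exact (le_abs_self _).trans (abs_d2_le _)
      have h2 : ‖A ^ n‖ ^ 2 < 1 := by
        have := norm_nonneg (A ^ n)
        nlinarith
      rw [hτs]
      by_contra h3
      push Not at h3
      have h4 : 1 ≤ d2 A ^ n := one_le_pow₀ h3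
      linarith
    set v1 : E2 := s⁻¹ • (A b0 - τ • b0) with hv1
    have hAb0 : A b0 = τ • b0 + s • v1 := by
      rw [hv1, smul_smul, mul_inv_cancel₀ hsp.ne', one_smul]
      abel
    have hAv1 : A v1 = -s • b0 + τ • v1 := by
      have h1 := cayley A b0
      have h2 : A v1 = s⁻¹ • (A (A b0) - τ • A b0) := by
        rw [hv1, map_smul, map_sub, map_smul]
      have h3 : a + d = 2 * τ := by rw [hτ]; ring
      rw [h2, h1, ← ha, ← hd, h3, ← hτs, hAb0]
      have h4 : s⁻¹ * s = 1 := inv_mul_cancel₀ hsp.ne'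
      have h5 : s⁻¹ • ((2 * τ) • (τ • b0 + s • v1) - (τ ^ 2 + s ^ 2) • b0
          - τ • (τ • b0 + s • v1)) = (-(s⁻¹ * s) * s) • b0 + (s⁻¹ * s * τ) • v1 := by module
      rw [h5, h4]
      module
    have hb0 : b0 ≠ 0 := by
      intro h
      have := norm_b0
      rw [h, norm_zero] at this
      norm_num at this
    have hD : b0 0 * v1 1 - b0 1 * v1 0 ≠ 0 := by
      intro h
      obtain ⟨t, ht⟩ := dep hb0 h
      rw [ht, map_smul, hAb0, ht] at hAv1
      have h1 : (s * (t ^ 2 + 1)) • b0 = 0 := by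
        have h2 : t • (τ • b0 + s • t • b0) - (-s • b0 + τ • t • b0) = 0 := by
          rw [hAv1, sub_self]
        rw [← h2]
        module
      rcases smul_eq_zero.1 h1 with h2 | h2
      · have : 0 < s * (t ^ 2 + 1) := by positivity
        exact this.ne' h2
      · exact hb0 h2
    refine reduce hR hF h0 hA.symm (bas b0 v1 hD) (lin2 τ (-s) s τ) (fun x => ?_)
      (good_cx hsp.ne' hlt)
    rw [bas_apply, bas_apply, map_add, map_smul, map_smul, hAb0, hAv1, lin2_zero, lin2_one]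
    module
  · -- a double real eigenvalue
    set ν : ℝ := (a + d) / 2 with hν
    have hcay : ∀ x, A (A x) = (2 * ν) • A x - ν ^ 2 • x := by
      intro x
      have h1 : d2 A = ν ^ 2 := by
        rw [hd2, hν]
        linear_combination (-(1 / 4) : ℝ) * hΔ
      have h2 : 2 * ν = a + d := by rw [hν]; ring
      rw [cayley, h1, h2]
    obtain ⟨v, hv, hAv⟩ := exists_eig A (ν := ν) (by
      rw [← ha, ← hb, ← hc, ← hd, hν]
      linear_combination (-(1 / 4) : ℝ) * hΔ)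
    have hne := eig_ne hinj hv hAv
    have hlt := eig_lt hn hv hAv
    by_cases hsc : ∀ w, A w = ν • w
    · have hA' : A = lin2 ν 0 0 ν := by
        ext1 x
        rw [hsc]
        apply ext2
        · change ν * x 0 = ν * x 0 + 0 * x 1
          ring
        · change ν * x 1 = 0 * x 0 + ν * x 1
          ring
      exact good_diag hne hne le_rfl hlt F R hR hF h0 (hA.symm.trans hA')
    · push Not at hsc
      obtain ⟨w, hw⟩ := hsc
      obtain ⟨θ, t, hθ, ht, h2, h3⟩ := exists_small hne hlt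
      set u : E2 := A w - ν • w with hu
      have hu0 : u ≠ 0 := sub_ne_zero.2 hw
      have hAu : A u = ν • u := by
        rw [hu, map_sub, map_smul, hcay]
        module
      have hAw : A w = ν • w + u := by
        rw [hu]
        abel
      have hD : u 0 * (t • w) 1 - u 1 * (t • w) 0 ≠ 0 := by
        intro h
        have h' : u 0 * w 1 - u 1 * w 0 = 0 := by
          have h4 : t * (u 0 * w 1 - u 1 * w 0) = 0 := by
            have : u 0 * (t * w 1) - u 1 * (t * w 0) = 0 := h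
            linear_combination this
          exact (mul_eq_zero.1 h4).resolve_left ht.ne'
        obtain ⟨r, hr⟩ := dep hu0 h'
        apply hw
        rw [hr, map_smul, hAu]
        module
      refine reduce hR hF h0 hA.symm (bas u (t • w) hD) (lin2 ν t 0 ν) (fun x => ?_)
        (good_jordan hne hlt hθ ht h2 h3)
      rw [bas_apply, bas_apply, map_add, map_smul, map_smul, map_smul, hAu, hAw, lin2_zero,
        lin2_one]
      module
  · -- two real eigenvalues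
    set q : ℝ := √((a - d) ^ 2 + 4 * (b * c)) with hq
    have hq0 : 0 < q := Real.sqrt_pos.2 hΔ
    have hq2 : q ^ 2 = (a - d) ^ 2 + 4 * (b * c) := Real.sq_sqrt hΔ.le
    obtain ⟨v, hv, hAv⟩ := exists_eig A (ν := (a + d + q) / 2) (by
      rw [← ha, ← hb, ← hc, ← hd]
      linear_combination (1 / 4 : ℝ) * hq2)
    obtain ⟨w, hw, hAw⟩ := exists_eig A (ν := (a + d - q) / 2) (by
      rw [← ha, ← hb, ← hc, ← hd]
      linear_combination (1 / 4 : ℝ) * hq2)
    rcases le_total |(a + d + q) / 2| |(a + d - q) / 2| with h | h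
    · exact key _ _ v w hv hw hAv hAw (by intro h'; linarith) h
    · exact key _ _ w v hw hv hAw hAv (by intro h'; linarith) h

end Vale.Agent.P207.N3.H790
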