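import Mathlib

/-! Symmetry of the iterated derivatives of smooth functions of a real variable, Taylor expansion
along rays, flat functions. -/

open Set Filter Topology Metric
open scoped ContDiff Nat

noncomputable section

namespace Vale.Agent.P207.N3.H790

theorem two_le_inf : (2 : ℕ∞ω) ≤ ∞ := by
  have h : ((2 : ℕ∞) : ℕ∞ω) ≤ ((⊤ : ℕ∞) : ℕ∞ω) := WithTop.coe_le_coe.2 le_top
  exact h

section Symm

variable {E : Type} [NormedAddCommGroup E] [NormedSpace ℝ E]

/-- evaluation of the derivative of a multilinear valued function -/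
theorem fderiv_mlin_apply {W : Type} [NormedAddCommGroup W] [NormedSpace ℝ W] {n : ℕ}
    {H : E → E [×n]→L[ℝ] W} {x : E} (hH : DifferentiableAt ℝ H x) (a : E) (m : Fin n → E) :
    (fderiv ℝ H x a) m = fderiv ℝ (fun y => H y m) x a := by
  let L : (E [×n]→L[ℝ] W) →L[ℝ] W := ContinuousMultilinearMap.apply ℝ (fun _ : Fin n => E) W m
  have h : HasFDerivAt (fun y => L (H y)) (L ∘L fderiv ℝ H x) x :=
    L.hasFDerivAt.comp x hH.hasFDerivAt
  have h2 : fderiv ℝ (fun y => H y m) x = L ∘L fderiv ℝ H x := h.fderiv
  rw [h2]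
  rfl

theorem fderiv2_mlin_apply {W : Type} [NormedAddCommGroup W] [NormedSpace ℝ W] {n : ℕ}
    {H : E → E →L[ℝ] (E [×n]→L[ℝ] W)} {x : E} (hH : DifferentiableAt ℝ H x) (a b : E)
    (m : Fin n → E) : (fderiv ℝ H x a b) m = fderiv ℝ (fun y => (H y b) m) x a := by
  have h1 : HasFDerivAt (fun y => H y b) ((fderiv ℝ H x).flip b) x := by
    have := hH.hasFDerivAt.clm_apply (hasFDerivAt_const b x)
    simpa using this
  have h2 := fderiv_mlin_apply h1.differentiableAt a m
  rw [← h2, h1.fderiv]
  rfl

theorem diff_iter {W : Type} [NormedAddCommGroup W] [NormedSpace ℝ W] {U : Set E}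
    (hU : IsOpen U) {g : E → W} (hg : ContDiffOn ℝ ∞ g U) (n : ℕ) {x : E} (hx : x ∈ U) :
    ContDiffAt ℝ ∞ (iteratedFDeriv ℝ n g) x :=
  (hg.contDiffAt (hU.mem_nhds hx)).iteratedFDeriv_right (by exact_mod_cast le_top)

theorem symm_swap {W : Type} [NormedAddCommGroup W] [NormedSpace ℝ W] {U : Set E}
    (hU : IsOpen U) {g : E → W} (hg : ContDiffOn ℝ ∞ g U) :
    ∀ (n : ℕ) (i : Fin n) (x : E), x ∈ U → ∀ v : Fin (n + 1) → E,
      iteratedFDeriv ℝ (n + 1) g x (v ∘ Equiv.swap i.castSucc i.succ)
        = iteratedFDeriv ℝ (n + 1) g x v := by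
  intro n
  induction n with
  | zero => intro i; exact i.elim0
  | succ n ih =>
    intro i x hx v
    refine Fin.cases ?_ (fun j => ?_) i
    · -- the first two variables
      have hs : IsSymmSndFDerivAt ℝ (iteratedFDeriv ℝ n g) x :=
        (diff_iter hU hg n hx).isSymmSndFDerivAt
          (by rw [minSmoothness_of_isRCLikeNormedField]; exact two_le_inf)
      have key : ∀ w : Fin (n + 2) → E, iteratedFDeriv ℝ (n + 2) g x w =
          (fderiv ℝ (fderiv ℝ (iteratedFDeriv ℝ n g)) x (w 0) (w 1))
            (Fin.tail (Fin.tail w)) := by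
        intro w
        rw [iteratedFDeriv_succ_apply_left,
          fderiv_mlin_apply ((diff_iter hU hg (n + 1) hx).differentiableAt (by simp))]
        have e1 : (fun y => iteratedFDeriv ℝ (n + 1) g y (Fin.tail w)) =
            fun y => (fderiv ℝ (iteratedFDeriv ℝ n g) y (w 1)) (Fin.tail (Fin.tail w)) := by
          funext y
          rw [iteratedFDeriv_succ_apply_left]
          rfl
        rw [e1]
        have hd : DifferentiableAt ℝ (fderiv ℝ (iteratedFDeriv ℝ n g)) x :=
          ((diff_iter hU hg n hx).fderiv_right (m := 1) (by norm_cast)).differentiableAt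
            (by simp)
        exact (fderiv2_mlin_apply hd (w 0) (w 1) (Fin.tail (Fin.tail w))).symm
      rw [key, key]
      have a0 : (v ∘ Equiv.swap (Fin.castSucc (0 : Fin (n + 1))) (Fin.succ 0)) 0 = v 1 := by
        simp
      have a1 : (v ∘ Equiv.swap (Fin.castSucc (0 : Fin (n + 1))) (Fin.succ 0)) 1 = v 0 := by
        simp
      have a2 : Fin.tail (Fin.tail (v ∘ Equiv.swap (Fin.castSucc (0 : Fin (n + 1)))
          (Fin.succ 0))) = Fin.tail (Fin.tail v) := by
        funext k
        simp only [Fin.tail, Function.comp_apply]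
        rw [Equiv.swap_apply_of_ne_of_ne]
        · simp [Fin.ext_iff]
        · simp [Fin.ext_iff]
      rw [a0, a1, a2, hs (v 1) (v 0)]
    · -- later variables
      rw [iteratedFDeriv_succ_apply_left, iteratedFDeriv_succ_apply_left,
        fderiv_mlin_apply ((diff_iter hU hg (n + 1) hx).differentiableAt (by simp)),
        fderiv_mlin_apply ((diff_iter hU hg (n + 1) hx).differentiableAt (by simp))]
      have a0 : (v ∘ Equiv.swap (Fin.castSucc j.succ) (Fin.succ j.succ)) 0 = v 0 := by
        simp only [Function.comp_apply]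
        rw [Equiv.swap_apply_of_ne_of_ne]
        · simp [Fin.ext_iff]
        · simp [Fin.ext_iff]
      have a1 : Fin.tail (v ∘ Equiv.swap (Fin.castSucc j.succ) (Fin.succ j.succ)) =
          Fin.tail v ∘ Equiv.swap j.castSucc j.succ := by
        funext k
        simp only [Fin.tail, Function.comp_apply]
        congr 1
        have : (Equiv.swap (Fin.castSucc j.succ) (Fin.succ j.succ)) k.succ
            = ((Equiv.swap j.castSucc j.succ) k).succ := by
          rw [Equiv.swap_apply_def, Equiv.swap_apply_def]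
          split_ifs with h1 h2 h3 h4 h5 h6 <;> simp_all [Fin.ext_iff]
        exact this
      rw [a0, a1]
      have hev : (fun y => iteratedFDeriv ℝ (n + 1) g y
            (Fin.tail v ∘ Equiv.swap j.castSucc j.succ)) =ᶠ[𝓝 x]
          fun y => iteratedFDeriv ℝ (n + 1) g y (Fin.tail v) := by
        filter_upwards [hU.mem_nhds hx] with y hy
        exact ih j y hy _
      rw [hev.fderiv_eq]

/-- The iterated derivatives of a smooth function are symmetric. -/
theorem symm_perm {W : Type} [NormedAddCommGroup W] [NormedSpace ℝ W] {U : Set E}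
    (hU : IsOpen U) {g : E → W} (hg : ContDiffOn ℝ ∞ g U) (n : ℕ) {x : E} (hx : x ∈ U)
    (σ : Equiv.Perm (Fin n)) (v : Fin n → E) :
    iteratedFDeriv ℝ n g x (v ∘ σ) = iteratedFDeriv ℝ n g x v := by
  cases n with
  | zero => congr 1; funext i; exact i.elim0
  | succ n =>
    have hσ : σ ∈ Submonoid.closure (Set.range fun i : Fin n => Equiv.swap i.castSucc i.succ) := by
      rw [Equiv.Perm.mclosure_swap_castSucc_succ]
      trivial
    induction hσ using Submonoid.closure_induction generalizing v with
    | mem τ hτ =>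
      obtain ⟨i, rfl⟩ := hτ
      exact symm_swap hU hg n i x hx v
    | one => rfl
    | mul a b _ _ ha hb =>
      have : v ∘ (a * b : Equiv.Perm (Fin (n + 1))) = (v ∘ a) ∘ b := rfl
      rw [this, hb, ha]

end Symm

end Vale.Agent.P207.N3.H790
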